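import Mathlib

set_option autoImplicit false

namespace Crest.Agent.R52

open Finset

/-- Abel summation / layer cake in finite form. -/
theorem abel_le {α : Type*} [DecidableEq α] (h : α → ℝ) :
    ∀ (n : ℕ) (A : Finset α) (l : α → ℝ), A.card ≤ n → (∀ x ∈ A, 0 ≤ l x) →
      (∀ y ∈ A, ∑ x ∈ A.filter (fun x => l y ≤ l x), h x ≤ 0) → ∑ x ∈ A, l x * h x ≤ 0 := by
  intro n
  induction n with
  | zero =>
    intro A l hA _ _
    have : A = ∅ := by simpa using hA
    subst this
    simp
  | succ n ih =>
    intro A l hA hl hh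
    rcases A.eq_empty_or_nonempty with rfl | hne
    · simp
    obtain ⟨x0, hx0, hmin⟩ := A.exists_min_image l hne
    set A' := A.filter (fun x => l x0 < l x) with hA'
    have hcard : A'.card ≤ n := by
      have : A'.card < A.card := by
        apply card_lt_card
        refine ⟨filter_subset _ _, fun hs => ?_⟩
        have := hs hx0
        simp [hA'] at this
      omega
    have h1 := ih A' (fun x => l x - l x0) hcard
      (fun x hx => by
        have := (mem_filter.1 hx).2
        linarith)
      (fun y hy => by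
        have hy' := mem_filter.1 hy
        have : A'.filter (fun x => l y - l x0 ≤ l x - l x0) = A.filter (fun x => l y ≤ l x) := by
          ext x
          simp only [hA', mem_filter]
          constructor
          · rintro ⟨⟨a, _⟩, c⟩
            exact ⟨a, by linarith⟩
          · rintro ⟨a, c⟩
            exact ⟨⟨a, by linarith [hy'.2]⟩, by linarith⟩
        rw [this]
        exact hh y hy'.1)
    have h2 : ∑ x ∈ A, h x ≤ 0 := by
      have := hh x0 hx0
      rwa [filter_true_of_mem (fun x hx => hmin x hx)] at this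
    have h3 : ∑ x ∈ A', (l x - l x0) * h x = ∑ x ∈ A, (l x - l x0) * h x := by
      apply sum_subset (filter_subset _ _)
      intro x hx hx'
      have : l x = l x0 := by
        have h4 := hmin x hx
        have h5 : ¬ l x0 < l x := fun h5 => hx' (mem_filter.2 ⟨hx, h5⟩)
        linarith [not_lt.1 h5]
      simp [this]
    have h4 : ∑ x ∈ A, l x * h x = ∑ x ∈ A, (l x - l x0) * h x + l x0 * ∑ x ∈ A, h x := by
      rw [mul_sum, ← sum_add_distrib]
      apply sum_congr rfl
      intro x _
      ring
    rw [h4, ← h3]
    have := mul_nonpos_of_nonneg_of_nonpos (hl x0 hx0) h2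
    linarith

theorem geom_eighth (n : ℕ) : ∑ m ∈ Icc 1 n, (1 / 8 : ℝ) ^ m ≤ 1 / 7 := by
  have : ∀ n : ℕ, ∑ m ∈ Icc 1 n, (1 / 8 : ℝ) ^ m = 1 / 7 - (1 / 7) * (1 / 8) ^ n := by
    intro n
    induction n with
    | zero => simp
    | succ n ih =>
      rw [sum_Icc_succ_top (by omega), ih]
      ring
  rw [this]
  have : (0 : ℝ) ≤ (1 / 7) * (1 / 8) ^ n := by positivity
  linarith

/-- The encoding count. -/
theorem count_le {α ι : Type*} [Fintype α] [DecidableEq α] [Fintype ι] [DecidableEq ι]
    (t : α → ι) (T : (ι → ℕ) → ι → Finset α) (N y : ι → ℝ) (hy : ∀ i, 0 ≤ y i)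
    (hN : ∀ i, 0 ≤ N i)
    (hT : ∀ u i, ((T u i).card : ℝ) ≤ N i * ∑ k, (u k : ℝ))
    (hsmall : Real.exp (16 * ∑ i, N i * y i) ≤ 2)
    (𝒰 : Finset (Finset α)) (hne : ∀ U ∈ 𝒰, U.Nonempty)
    (hU : ∀ U ∈ 𝒰, ∀ x ∈ U, x ∈ T (fun i => (U.filter (fun z => t z = i)).card) (t x)) :
    ∑ U ∈ 𝒰, ∏ x ∈ U, y (t x) ≤ 1 / 7 := by
  classical
  set n := Fintype.card α
  let c : Finset α → ι → ℕ := fun U i => (U.filter (fun z => t z = i)).card
  have hsum : ∀ U, ∑ i, c U i = U.card := fun U =>
    (card_eq_sum_card_fiberwise (f := t) (s := U) (t := univ) (fun x _ => mem_univ _)).symm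
  have hprod : ∀ U, ∏ x ∈ U, y (t x) = ∏ i, y i ^ c U i := by
    intro U
    rw [← prod_fiberwise (s := U) (g := t) (f := fun x => y (t x))]
    apply prod_congr rfl
    intro i _
    rw [prod_congr rfl (g := fun _ => y i) (fun x hx => by rw [(mem_filter.1 hx).2]), prod_const]
  -- fixed m and u
  have key : ∀ (m : ℕ) (u : ι → ℕ),
      ∑ U ∈ (𝒰.filter (fun U => U.card = m)).filter (fun U => c U = u), ∏ x ∈ U, y (t x) ≤
        (1 / 16 : ℝ) ^ m * ∏ i, ((16 * m * (N i * y i)) ^ u i / (u i).factorial) := by
    intro m u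
    set V := (𝒰.filter (fun U => U.card = m)).filter (fun U => c U = u) with hV
    have hpos : ∀ i, 0 ≤ (16 * m * (N i * y i)) ^ u i / ((u i).factorial : ℝ) := fun i => by
      have := hy i
      have := hN i
      positivity
    rcases V.eq_empty_or_nonempty with h0 | ⟨U0, hU0⟩
    · rw [h0, sum_empty]
      exact mul_nonneg (by positivity) (prod_nonneg fun i _ => hpos i)
    have hm : ∑ i, u i = m := by
      have h1 := mem_filter.1 hU0
      rw [← h1.2, hsum, (mem_filter.1 h1.1).2]
    have hcard : V.card ≤ ∏ i, (T u i).card.choose (u i) := by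
      have : (Fintype.piFinset (fun i => powersetCard (u i) (T u i))).card =
          ∏ i, (T u i).card.choose (u i) := by
        rw [Fintype.card_piFinset]
        simp
      rw [← this]
      apply card_le_card_of_injOn (fun U i => U.filter (fun z => t z = i))
      · intro U hU'
        have h1 := mem_filter.1 (mem_coe.1 hU')
        have h2 := mem_filter.1 h1.1
        simp only [mem_coe, Fintype.mem_piFinset, mem_powersetCard]
        intro i
        refine ⟨fun x hx => ?_, congrFun h1.2 i⟩
        have h3 := mem_filter.1 hx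
        have h4 := hU U h2.1 x h3.1
        rw [h3.2] at h4
        have h5 : (fun i => (U.filter (fun z => t z = i)).card) = u := h1.2
        rwa [h5] at h4
      · intro U _ U' _ hUU
        ext x
        have := congrFun hUU (t x)
        have h1 : x ∈ U ↔ x ∈ U.filter (fun z => t z = t x) := by simp
        have h2 : x ∈ U' ↔ x ∈ U'.filter (fun z => t z = t x) := by simp
        rw [h1, h2]
        simp only at this
        rw [this]
    have h1 : ∑ U ∈ V, ∏ x ∈ U, y (t x) = V.card * ∏ i, y i ^ u i := by
      rw [sum_congr rfl (g := fun _ => ∏ i, y i ^ u i), sum_const, nsmul_eq_mul]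
      intro U hU'
      rw [hprod, (mem_filter.1 hU').2]
    rw [h1]
    have h2 : (V.card : ℝ) ≤ ∏ i, ((N i * m) ^ u i / (u i).factorial) := by
      calc (V.card : ℝ) ≤ ((∏ i, (T u i).card.choose (u i) : ℕ) : ℝ) := by exact_mod_cast hcard
        _ = ∏ i, (((T u i).card.choose (u i) : ℕ) : ℝ) := by push_cast; rfl
        _ ≤ _ := by
          apply prod_le_prod (fun i _ => by positivity)
          intro i _
          refine (Nat.choose_le_pow_div (u i) (T u i).card).trans ?_
          have h3 := hT u i
          have h4 : (∑ k, (u k : ℝ)) = m := by exact_mod_cast hm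
          rw [h4] at h3
          gcongr
    have h3 : (1 / 16 : ℝ) ^ m = ∏ i, (1 / 16 : ℝ) ^ u i := by
      rw [prod_pow_eq_pow_sum, hm]
    calc (V.card : ℝ) * ∏ i, y i ^ u i
        ≤ (∏ i, ((N i * m) ^ u i / (u i).factorial)) * ∏ i, y i ^ u i := by
          apply mul_le_mul_of_nonneg_right h2
          exact prod_nonneg fun i _ => pow_nonneg (hy i) _
      _ = _ := by
          rw [h3, ← prod_mul_distrib, ← prod_mul_distrib]
          apply prod_congr rfl
          intro i _
          rw [div_mul_eq_mul_div, ← mul_pow, mul_div_assoc', ← mul_pow]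
          congr 2
          ring
  have key2 : ∀ m : ℕ, ∑ U ∈ 𝒰.filter (fun U => U.card = m), ∏ x ∈ U, y (t x) ≤
      (1 / 8 : ℝ) ^ m := by
    intro m
    rw [← sum_fiberwise_of_maps_to (s := 𝒰.filter (fun U => U.card = m))
      (t := Fintype.piFinset (fun _ : ι => range (n + 1))) (g := c)]
    · refine (sum_le_sum fun u _ => key m u).trans ?_
      rw [← mul_sum, ← prod_univ_sum (fun _ : ι => range (n + 1))
        (fun i k => (16 * m * (N i * y i)) ^ k / (k.factorial : ℝ))]
      have h1 : ∏ i, ∑ k ∈ range (n + 1), (16 * m * (N i * y i)) ^ k / (k.factorial : ℝ) ≤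
          ∏ i, Real.exp (16 * m * (N i * y i)) := by
        apply prod_le_prod
        · intro i _
          apply sum_nonneg
          intro k _
          have := hy i
          have := hN i
          positivity
        · intro i _
          apply Real.sum_le_exp_of_nonneg
          have := hy i
          have := hN i
          positivity
      have h2 : ∏ i, Real.exp (16 * m * (N i * y i)) ≤ 2 ^ m := by
        rw [← Real.exp_sum, ← mul_sum]
        have : 16 * (m : ℝ) * ∑ i, N i * y i = m * (16 * ∑ i, N i * y i) := by ring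
        rw [this, Real.exp_nat_mul]
        gcongr
      calc (1 / 16 : ℝ) ^ m * _ ≤ (1 / 16 : ℝ) ^ m * 2 ^ m := by
            gcongr
            exact h1.trans h2
        _ = (1 / 8) ^ m := by rw [← mul_pow]; norm_num
    · intro U _
      simp only [Fintype.mem_piFinset, mem_range]
      intro i
      have : c U i ≤ n := card_le_univ _
      omega
  rw [← sum_fiberwise_of_maps_to (s := 𝒰) (t := Icc 1 n) (g := fun U => U.card)]
  · exact (sum_le_sum fun m _ => key2 m).trans (geom_eighth n)
  · intro U hU'
    exact mem_Icc.2 ⟨card_pos.2 (hne U hU'), card_le_univ _⟩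

end Crest.Agent.R52
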