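import Mathlib
import Crest.Prelude.Def_CopyThreshold

set_option autoImplicit false
set_option linter.unusedSectionVars false

namespace Crest.Agent.R52

open Finset Crest.CombinatoricsR.RandomGraph

variable {W : Type*} [Fintype W] [DecidableEq W]

def NoCover (H : SimpleGraph W) (n : ℕ) (p : ℝ) : Prop :=
  ∀ C : Finset (Finset (EdgeSlot n)),
    (∀ A : Finset (EdgeSlot n), H.IsContained (edgeGraph A) → ∃ S ∈ C, S ⊆ A) →
      1 / 2 < ∑ S ∈ C, p ^ S.card

theorem exists_cover (H : SimpleGraph W) (n : ℕ) (p : ℝ) (hp : 0 ≤ p) (F : Finset (Sym2 W))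
    (hF : ∀ e ∈ F, e ∈ H.edgeSet) {Par : Type*} (P : Finset Par)
    (dec : Par → Finset (Sym2 (Fin n)))
    (hP : ∀ f : W → Fin n, Function.Injective f → ∃ π ∈ P, F.image (Sym2.map f) = dec π) :
    ∃ C : Finset (Finset (EdgeSlot n)),
      (∀ A : Finset (EdgeSlot n), H.IsContained (edgeGraph A) → ∃ S ∈ C, S ⊆ A) ∧
      ∑ S ∈ C, p ^ S.card ≤ P.card * p ^ F.card := by
  classical
  refine ⟨(P.image (fun π => (dec π).subtype (fun z => ¬ z.IsDiag))).filter
    (fun S => S.card = F.card), ?_, ?_⟩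
  · rintro A ⟨f⟩
    obtain ⟨π, hπ, hdec⟩ := hP f f.injective
    have key : ∀ z ∈ dec π, ∃ h : ¬ z.IsDiag, (⟨z, h⟩ : EdgeSlot n) ∈ A := by
      intro z hz
      rw [← hdec] at hz
      obtain ⟨e, he, rfl⟩ := mem_image.1 hz
      have h1 := hF e he
      induction e using Sym2.ind with
      | _ u v =>
        have h2 : (edgeGraph A).Adj (f u) (f v) := f.toHom.map_adj h1
        unfold edgeGraph at h2
        rw [SimpleGraph.fromEdgeSet_adj] at h2
        exact h2.1
    refine ⟨(dec π).subtype (fun z => ¬ z.IsDiag),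
      mem_filter.2 ⟨mem_image_of_mem _ hπ, ?_⟩, ?_⟩
    · rw [card_subtype, filter_true_of_mem (fun z hz => (key z hz).1), ← hdec]
      exact card_image_of_injective _ (Sym2.map.injective f.injective)
    · intro z hz
      exact (key z.1 (mem_subtype.1 hz)).2
  · rw [sum_congr rfl (g := fun _ => p ^ F.card) (fun S hS => by rw [(mem_filter.1 hS).2]),
      sum_const, nsmul_eq_mul]
    apply mul_le_mul_of_nonneg_right _ (pow_nonneg hp _)
    exact_mod_cast (card_filter_le _ _).trans card_image_le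

theorem NoCover.fm {H : SimpleGraph W} {n : ℕ} {p : ℝ} (h : NoCover H n p) (hp : 0 ≤ p)
    (F : Finset (Sym2 W)) (hF : ∀ e ∈ F, e ∈ H.edgeSet) {Par : Type*} (P : Finset Par)
    (dec : Par → Finset (Sym2 (Fin n)))
    (hP : ∀ f : W → Fin n, Function.Injective f → ∃ π ∈ P, F.image (Sym2.map f) = dec π) :
    1 / 2 < P.card * p ^ F.card := by
  obtain ⟨C, h1, h2⟩ := exists_cover H n p hp F hF P dec hP
  exact (h C h1).trans_le h2

theorem exists_cover_edge (H : SimpleGraph W) (hH : H ≠ ⊥) (n : ℕ) (p : ℝ) (hp : 0 ≤ p) :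
    ∃ C : Finset (Finset (EdgeSlot n)),
      (∀ A : Finset (EdgeSlot n), H.IsContained (edgeGraph A) → ∃ S ∈ C, S ⊆ A) ∧
      ∑ S ∈ C, p ^ S.card ≤ (n : ℝ) ^ 2 * p := by
  obtain ⟨u, v, huv⟩ := SimpleGraph.ne_bot_iff_exists_adj.1 hH
  obtain ⟨C, h1, h2⟩ := exists_cover H n p hp {s(u, v)} (by simpa using huv)
    (univ : Finset (Fin n × Fin n)) (fun π => {s(π.1, π.2)})
    (fun f _ => ⟨(f u, f v), mem_univ _, by simp⟩)
  refine ⟨C, h1, h2.trans (le_of_eq ?_)⟩
  simp [sq]

theorem NoCover.degen {H : SimpleGraph W} [DecidableRel H.Adj] {n : ℕ} {p : ℝ}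
    (h : NoCover H n p) (hn : 0 < n) (hp : 0 ≤ p) (hp1 : p ≤ 1) (d : ℕ)
    (hd : (2 * n : ℝ) ^ 4 * p ^ (d + 1) ≤ 1) (U : Finset W) :
    2 * (U.filter (fun v => d < (U.filter (H.Adj v)).card)).card ≤ U.card := by
  by_contra hcon
  push Not at hcon
  set U' := U.filter (fun v => d < (U.filter (H.Adj v)).card) with hU'
  set Pr := (U ×ˢ U).filter (fun x => H.Adj x.1 x.2) with hPr
  set F := Pr.image (fun x => s(x.1, x.2)) with hF
  have h1 : U'.card * (d + 1) ≤ Pr.card := by
    have : Pr.card = ∑ v ∈ U, (U.filter (H.Adj v)).card := by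
      rw [hPr, card_filter, sum_product]
      exact sum_congr rfl fun v _ => (card_filter _ _).symm
    rw [this, ← smul_eq_mul, ← sum_const]
    refine le_trans (sum_le_sum fun v hv => (mem_filter.1 hv).2) ?_
    exact sum_le_sum_of_subset (filter_subset _ _)
  have h2 : Pr.card ≤ 2 * F.card := by
    apply card_le_mul_card_image
    intro e he
    obtain ⟨x, _, rfl⟩ := mem_image.1 he
    refine le_trans (card_le_card (t := {x, x.swap}) ?_) card_le_two
    intro y hy
    rcases Sym2.eq_iff.1 (mem_filter.1 hy).2 with h3 | h3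
    · exact mem_insert.2 (Or.inl (Prod.ext h3.1 h3.2))
    · exact mem_insert.2 (Or.inr (mem_singleton.2 (Prod.ext h3.1 h3.2)))
  have h3 := h.fm hp F (by
      intro e he
      obtain ⟨x, hx, rfl⟩ := mem_image.1 he
      exact (mem_filter.1 hx).2)
    (Fintype.piFinset (fun x : W => if x ∈ U then (univ : Finset (Fin n)) else {⟨0, hn⟩}))
    (fun π => F.image (Sym2.map π)) (by
      intro f _
      refine ⟨fun x => if x ∈ U then f x else ⟨0, hn⟩, ?_, ?_⟩
      · rw [Fintype.mem_piFinset]
        intro x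
        split_ifs <;> simp
      · apply image_congr
        intro e he
        obtain ⟨x, hx, rfl⟩ := mem_image.1 (mem_coe.1 he)
        have := mem_product.1 (mem_filter.1 hx).1
        simp [this.1, this.2])
  have h4 : ((Fintype.piFinset (fun x : W => if x ∈ U then (univ : Finset (Fin n))
      else {⟨0, hn⟩})).card : ℝ) = (n : ℝ) ^ U.card := by
    rw [Fintype.card_piFinset]
    have : ∀ x : W, (if x ∈ U then (univ : Finset (Fin n)) else {⟨0, hn⟩}).card =
        if x ∈ U then n else 1 := by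
      intro x
      split_ifs <;> simp
    simp_rw [this]
    rw [prod_ite_mem, univ_inter, prod_const]
    simp
  rw [h4] at h3
  have hU1 : 1 ≤ U.card := by
    have : U'.card ≤ U.card := card_filter_le _ _
    omega
  have h5 : 1 < (2 * n : ℝ) ^ U.card * p ^ F.card := by
    have : (2 : ℝ) ^ 1 ≤ 2 ^ U.card := pow_le_pow_right₀ (by norm_num) hU1
    rw [mul_pow, mul_assoc]
    nlinarith
  have h6 : (d + 1) * U.card ≤ 4 * F.card := by nlinarith
  have h7 : ((2 * n : ℝ) ^ U.card * p ^ F.card) ^ 4 ≤ 1 := by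
    calc ((2 * n : ℝ) ^ U.card * p ^ F.card) ^ 4
        = ((2 * n : ℝ) ^ 4) ^ U.card * p ^ (4 * F.card) := by
          generalize (2 * n : ℝ) = x
          ring
      _ ≤ ((2 * n : ℝ) ^ 4) ^ U.card * p ^ ((d + 1) * U.card) := by
          apply mul_le_mul_of_nonneg_left (pow_le_pow_of_le_one hp hp1 h6) (by positivity)
      _ = ((2 * n : ℝ) ^ 4 * p ^ (d + 1)) ^ U.card := by
          generalize (2 * n : ℝ) = x
          rw [mul_pow, ← pow_mul p]
      _ ≤ 1 := pow_le_one₀ (by positivity) hd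
  have h8 := one_lt_pow₀ h5 (by norm_num : 4 ≠ 0)
  linarith

theorem choose_le_three (n k : ℕ) (hk : 0 < k) : (n.choose k : ℝ) ≤ (3 * n / k) ^ k := by
  refine (Nat.choose_le_pow_div k n).trans ?_
  have hk' : (0 : ℝ) < k := by exact_mod_cast hk
  have h1 : (k : ℝ) ^ k / k.factorial ≤ 3 ^ k := by
    refine (Real.pow_div_factorial_le_exp (k : ℝ) hk'.le k).trans ?_
    calc Real.exp k = Real.exp 1 ^ k := by rw [← Real.exp_nat_mul, mul_one]
      _ ≤ 3 ^ k := pow_le_pow_left₀ (Real.exp_pos _).le (by linarith [Real.exp_one_lt_d9]) _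
  have h2 : (n : ℝ) ^ k / k.factorial = (n / k) ^ k * ((k : ℝ) ^ k / k.factorial) := by
    rw [div_pow]
    field_simp
  rw [h2, mul_div_assoc, mul_pow, mul_comm]
  gcongr

theorem NoCover.stars {H : SimpleGraph W} {n : ℕ} {p : ℝ} (h : NoCover H n p) (hp : 0 ≤ p)
    (M : Finset W) (D : W → Finset W) (t : ℕ) (ht : 0 < t) (hD : ∀ a ∈ M, (D a).card = t)
    (hadj : ∀ a ∈ M, ∀ v ∈ D a, H.Adj a v ∧ v ∉ M) :
    (M.card : ℝ) ≤ 6 * n * (3 * n * p / t) ^ t := by
  rcases Nat.eq_zero_or_pos M.card with h0 | hm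
  · rw [h0]; push_cast; positivity
  set F := M.biUnion (fun a => (D a).image (fun v => s(a, v))) with hF
  have hFc : F.card = M.card * t := by
    rw [hF, card_biUnion, ← smul_eq_mul, ← sum_const]
    · apply sum_congr rfl
      intro a ha
      rw [card_image_of_injective, hD a ha]
      intro v v' hv
      exact Sym2.congr_right.1 hv
    · intro a ha a' ha' hne
      rw [Function.onFun, disjoint_left]
      intro e he he'
      obtain ⟨v, hv, rfl⟩ := mem_image.1 he
      obtain ⟨v', hv', h1⟩ := mem_image.1 he'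
      rcases Sym2.eq_iff.1 h1 with h2 | h2
      · exact hne h2.1.symm
      · exact (hadj a ha v hv).2 (h2.1 ▸ ha')
  let P : Finset (Fin n → Finset (Fin n)) := (powersetCard M.card univ).biUnion
    (fun M' => Fintype.piFinset (fun y => if y ∈ M' then powersetCard t univ else {∅}))
  have hP : (P.card : ℝ) ≤ n.choose M.card * (n.choose t : ℝ) ^ M.card := by
    have : P.card ≤ (powersetCard M.card (univ : Finset (Fin n))).card * (n.choose t) ^ M.card := by
      apply card_biUnion_le_card_mul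
      intro M' hM'
      rw [Fintype.card_piFinset]
      have : ∀ y : Fin n, (if y ∈ M' then powersetCard t (univ : Finset (Fin n)) else {∅}).card =
          if y ∈ M' then n.choose t else 1 := by
        intro y
        split_ifs <;> simp
      simp_rw [this]
      rw [prod_ite_mem, univ_inter, prod_const, (mem_powersetCard.1 hM').2]
    rw [card_powersetCard, card_univ, Fintype.card_fin] at this
    exact_mod_cast this
  have h3 := h.fm hp F (by
      intro e he
      obtain ⟨a, ha, he⟩ := mem_biUnion.1 he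
      obtain ⟨v, hv, rfl⟩ := mem_image.1 he
      exact (hadj a ha v hv).1) P
    (fun g => univ.biUnion (fun y => (g y).image (fun z => s(y, z)))) (by
      intro f hf
      refine ⟨fun y => (M.filter (fun a => f a = y)).biUnion (fun a => (D a).image f), ?_, ?_⟩
      · refine mem_biUnion.2 ⟨M.image f, mem_powersetCard.2
          ⟨subset_univ _, card_image_of_injective _ hf⟩, ?_⟩
        rw [Fintype.mem_piFinset]
        intro y
        split_ifs with hy
        · obtain ⟨a, ha, rfl⟩ := mem_image.1 hy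
          have : M.filter (fun a' => f a' = f a) = {a} := by
            ext a'
            simp only [mem_filter, mem_singleton]
            exact ⟨fun h => hf h.2, fun h => ⟨h ▸ ha, h ▸ rfl⟩⟩
          rw [this, singleton_biUnion]
          exact mem_powersetCard.2 ⟨subset_univ _, by rw [card_image_of_injective _ hf, hD a ha]⟩
        · have : M.filter (fun a' => f a' = y) = ∅ :=
            filter_eq_empty_iff.2 fun a ha h => hy (mem_image.2 ⟨a, ha, h⟩)
          rw [this]
          simp
      · ext e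
        simp only [hF, mem_image, mem_biUnion, mem_univ, true_and, mem_filter]
        constructor
        · rintro ⟨_, ⟨a, ha, v, hv, rfl⟩, rfl⟩
          exact ⟨f a, f v, ⟨a, ⟨ha, rfl⟩, v, hv, rfl⟩, rfl⟩
        · rintro ⟨_, _, ⟨a, ⟨ha, rfl⟩, v, hv, rfl⟩, rfl⟩
          exact ⟨_, ⟨a, ha, v, hv, rfl⟩, rfl⟩)
  rw [hFc] at h3
  set m := M.card
  have hm' : (0 : ℝ) < m := by exact_mod_cast hm
  have h4 : (P.card : ℝ) * p ^ (m * t) ≤ (3 * n / m * (3 * n * p / t) ^ t) ^ m := by
    calc (P.card : ℝ) * p ^ (m * t)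
        ≤ ((3 * n / m) ^ m * ((3 * n / t) ^ t) ^ m) * p ^ (m * t) := by
          apply mul_le_mul_of_nonneg_right _ (pow_nonneg hp _)
          refine hP.trans ?_
          gcongr
          · exact choose_le_three n m hm
          · exact choose_le_three n t ht
      _ = _ := by
          rw [mul_comm m t, pow_mul, mul_assoc, ← mul_pow, ← mul_pow, ← mul_pow]
          congr 3
          ring
  by_contra hcon
  push Not at hcon
  have h5 : 3 * n / m * (3 * n * p / t) ^ t ≤ 1 / 2 := by
    rw [div_mul_eq_mul_div, div_le_iff₀ hm']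
    linarith
  have h6 : (3 * n / m * (3 * n * p / t) ^ t) ^ m ≤ (1 / 2) ^ 1 :=
    (pow_le_pow_left₀ (by positivity) h5 m).trans
      (pow_le_pow_of_le_one (by norm_num) (by norm_num) hm)
  linarith

theorem NoCover.codeg {H : SimpleGraph W} {n : ℕ} {p : ℝ} (h : NoCover H n p) (hp : 0 ≤ p)
    (T X : Finset W) (hTX : Disjoint T X) (hadj : ∀ a ∈ T, ∀ b ∈ X, H.Adj a b)
    (hX : 0 < X.card) :
    1 / 2 < (n : ℝ) ^ T.card * (3 * n * p ^ T.card / X.card) ^ X.card := by
  set F := (T ×ˢ X).image (fun x => s(x.1, x.2)) with hF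
  have hFc : F.card = T.card * X.card := by
    rw [hF, card_image_of_injOn, card_product]
    intro x hx y hy hxy
    have h1 := mem_product.1 (mem_coe.1 hx)
    have h2 := mem_product.1 (mem_coe.1 hy)
    rcases Sym2.eq_iff.1 hxy with h3 | h3
    · exact Prod.ext h3.1 h3.2
    · exact absurd (h3.1 ▸ h2.2) (disjoint_left.1 hTX h1.1)
  have h3 := h.fm hp F (by
      intro e he
      obtain ⟨x, hx, rfl⟩ := mem_image.1 he
      exact hadj _ (mem_product.1 hx).1 _ (mem_product.1 hx).2)
    (powersetCard T.card (univ : Finset (Fin n)) ×ˢ powersetCard X.card (univ : Finset (Fin n)))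
    (fun π => (π.1 ×ˢ π.2).image (fun x => s(x.1, x.2))) (by
      intro f hf
      refine ⟨(T.image f, X.image f), mem_product.2
        ⟨mem_powersetCard.2 ⟨subset_univ _, card_image_of_injective _ hf⟩,
          mem_powersetCard.2 ⟨subset_univ _, card_image_of_injective _ hf⟩⟩, ?_⟩
      ext e
      simp only [hF, mem_image, mem_product]
      constructor
      · rintro ⟨_, ⟨x, ⟨h1, h2⟩, rfl⟩, rfl⟩
        exact ⟨(f x.1, f x.2), ⟨⟨_, h1, rfl⟩, ⟨_, h2, rfl⟩⟩, rfl⟩
      · rintro ⟨⟨_, _⟩, ⟨⟨a, h1, rfl⟩, ⟨b, h2, rfl⟩⟩, rfl⟩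
        exact ⟨_, ⟨(a, b), ⟨h1, h2⟩, rfl⟩, rfl⟩)
  rw [hFc, card_product, card_powersetCard, card_powersetCard, card_univ, Fintype.card_fin] at h3
  refine h3.trans_le ?_
  push_cast
  calc (n.choose T.card : ℝ) * n.choose X.card * p ^ (T.card * X.card)
      ≤ ((n : ℝ) ^ T.card * (3 * n / X.card) ^ X.card) * p ^ (T.card * X.card) := by
        gcongr
        · exact_mod_cast Nat.choose_le_pow n T.card
        · exact choose_le_three n _ hX
    _ = _ := by
        rw [pow_mul, mul_assoc, ← mul_pow]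
        congr 2
        ring

end Crest.Agent.R52
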