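import Mathlib

set_option autoImplicit false
set_option linter.unusedSectionVars false

namespace Crest.Agent.R52

open Finset

theorem exists_chunks {α : Type*} [DecidableEq α] (d : ℕ) :
    ∀ (K : ℕ) (S : Finset α), S.card ≤ K * d →
      ∃ f : Fin K → Finset α, (∀ i, f i ⊆ S ∧ (f i).card ≤ d) ∧ ∀ x ∈ S, ∃ i, x ∈ f i := by
  intro K
  induction K with
  | zero =>
    intro S hS
    have : S = ∅ := by simpa using hS
    subst this
    exact ⟨fun i => i.elim0, fun i => i.elim0, by simp⟩
  | succ K ih =>
    intro S hS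
    obtain ⟨T, hT, hTc⟩ := exists_subset_card_eq (s := S) (n := min d S.card) (min_le_right _ _)
    obtain ⟨f, hf1, hf2⟩ := ih (S \ T) (by
      rw [card_sdiff_of_subset hT, hTc]
      rcases le_total d S.card with h | h
      · rw [min_eq_left h]
        rw [Nat.succ_mul] at hS
        omega
      · rw [min_eq_right h]
        simp)
    refine ⟨Fin.cons T f, ?_, ?_⟩
    · intro i
      refine Fin.cases ?_ (fun j => ?_) i
      · simp only [Fin.cons_zero]
        exact ⟨hT, hTc ▸ min_le_left _ _⟩
      · simp only [Fin.cons_succ]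
        exact ⟨(hf1 j).1.trans sdiff_subset, (hf1 j).2⟩
    · intro x hx
      by_cases h : x ∈ T
      · exact ⟨0, h⟩
      · obtain ⟨i, hi⟩ := hf2 x (mem_sdiff.2 ⟨hx, h⟩)
        exact ⟨i.succ, hi⟩

variable {W : Type*} [Fintype W] [DecidableEq W] (H : SimpleGraph W) [DecidableRel H.Adj]

theorem exists_colouring (d : ℕ)
    (h : ∀ U : Finset W, U.Nonempty → ∃ v ∈ U, (U.filter (H.Adj v)).card ≤ d) (U : Finset W) :
    ∃ col : W → Fin (d + 1), ∀ u ∈ U, ∀ v ∈ U, H.Adj u v → col u ≠ col v := by
  induction U using Finset.strongInduction with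
  | H U ih =>
    rcases U.eq_empty_or_nonempty with rfl | hne
    · exact ⟨fun _ => 0, by simp⟩
    obtain ⟨v, hv, hvd⟩ := h U hne
    obtain ⟨col, hcol⟩ := ih (U.erase v) (erase_ssubset hv)
    have : ((U.filter (H.Adj v)).image col).card < (univ : Finset (Fin (d + 1))).card := by
      have := card_image_le (s := U.filter (H.Adj v)) (f := col)
      simp only [card_univ, Fintype.card_fin]
      omega
    obtain ⟨c, -, hc⟩ := exists_mem_notMem_of_card_lt_card this
    refine ⟨Function.update col v c, ?_⟩
    intro x hx y hy hxy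
    by_cases h1 : x = v
    · subst h1
      rw [Function.update_self, Function.update_of_ne hxy.ne']
      intro h2
      exact hc (h2 ▸ mem_image_of_mem col (mem_filter.2 ⟨hy, hxy⟩))
    · by_cases h2 : y = v
      · subst h2
        rw [Function.update_self, Function.update_of_ne h1]
        intro h3
        exact hc (h3 ▸ mem_image_of_mem col (mem_filter.2 ⟨hx, hxy.symm⟩))
      · rw [Function.update_of_ne h1, Function.update_of_ne h2]
        exact hcol x (mem_erase.2 ⟨h1, hx⟩) y (mem_erase.2 ⟨h2, hy⟩) hxy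

theorem exists_rounds (d : ℕ)
    (h : ∀ U : Finset W, 2 * (U.filter (fun v => d < (U.filter (H.Adj v)).card)).card ≤ U.card) :
    ∀ (t : ℕ) (U : Finset W), U.card < 2 ^ t → ∃ r : W → ℕ, ∀ v ∈ U, r v < t ∧
      (U.filter (fun u => H.Adj v u ∧ r u ≤ r v)).card ≤ d := by
  intro t
  induction t with
  | zero =>
    intro U hU
    have : U = ∅ := by simpa using hU
    subst this
    exact ⟨fun _ => 0, by simp⟩
  | succ t ih =>
    intro U hU
    set U' := U.filter (fun v => d < (U.filter (H.Adj v)).card) with hU'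
    have h1 : 2 * U'.card ≤ U.card := h U
    obtain ⟨r, hr⟩ := ih U' (by rw [pow_succ] at hU; omega)
    refine ⟨fun v => if v ∈ U' then r v else t, ?_⟩
    intro v hv
    by_cases hv' : v ∈ U'
    · simp only [hv', if_true]
      refine ⟨(hr v hv').1.trans (Nat.lt_succ_self t), le_trans (card_le_card ?_) (hr v hv').2⟩
      intro u hu
      obtain ⟨_, a2, a3⟩ := mem_filter.1 hu
      by_cases hu' : u ∈ U'
      · simp only [hu', if_true] at a3
        exact mem_filter.2 ⟨hu', a2, a3⟩
      · simp only [hu', if_false] at a3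
        have := (hr v hv').1
        omega
    · simp only [hv', if_false]
      refine ⟨Nat.lt_succ_self t, ?_⟩
      have h2 : ¬ d < (U.filter (H.Adj v)).card := fun h => hv' (mem_filter.2 ⟨hv, h⟩)
      refine le_trans (card_le_card ?_) (not_lt.1 h2)
      intro u hu
      obtain ⟨a1, a2, _⟩ := mem_filter.1 hu
      exact mem_filter.2 ⟨a1, a2⟩

theorem exists_rank (d : ℕ)
    (h : ∀ U : Finset W, 2 * (U.filter (fun v => d < (U.filter (H.Adj v)).card)).card ≤ U.card)
    (t : ℕ) (ht : Fintype.card W < 2 ^ t) :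
    ∃ (col : W → Fin (d + 1)) (rk : W → ℕ), (∀ u v, H.Adj u v → col u ≠ col v) ∧
      (∀ u v, H.Adj u v → rk u ≠ rk v) ∧ (∀ v, rk v < t * (d + 1)) ∧
      ∀ v, (univ.filter (fun u => H.Adj v u ∧ rk u < rk v)).card ≤ d := by
  obtain ⟨col, hcol⟩ := exists_colouring H d (by
    intro U hU
    by_contra hcon
    push Not at hcon
    have h1 := h U
    rw [filter_true_of_mem hcon] at h1
    have := card_pos.2 hU
    omega) univ
  obtain ⟨r, hr⟩ := exists_rounds H d h t univ (by simpa using ht)
  refine ⟨col, fun v => r v * (d + 1) + col v, fun u v huv => hcol u (mem_univ _) v (mem_univ _) huv,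
    ?_, ?_, ?_⟩
  · intro u v huv he
    apply hcol u (mem_univ _) v (mem_univ _) huv
    have h1 := congrArg (· % (d + 1)) he
    simp only [Nat.mul_add_mod_self_right, Nat.mod_eq_of_lt (col u).2,
      Nat.mod_eq_of_lt (col v).2] at h1
    exact Fin.ext h1
  · intro v
    have h1 := (hr v (mem_univ _)).1
    have h2 := (col v).2
    have h3 : (r v + 1) * (d + 1) ≤ t * (d + 1) := Nat.mul_le_mul_right _ h1
    simp only
    nlinarith
  · intro v
    refine le_trans (card_le_card ?_) (hr v (mem_univ _)).2
    intro u hu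
    obtain ⟨a1, a2, a3⟩ := mem_filter.1 hu
    refine mem_filter.2 ⟨a1, a2, ?_⟩
    by_contra hcon
    have h3 : (r v + 1) * (d + 1) ≤ r u * (d + 1) := Nat.mul_le_mul_right _ (not_le.1 hcon)
    have h2 := (col v).2
    simp only at a3
    nlinarith

end Crest.Agent.R52
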