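import Crest.Agent.R52.Star
import Crest.Agent.R52.Struct
import Crest.Agent.R52.First
import Crest.Agent.R52.Count

set_option autoImplicit false
set_option linter.unusedSectionVars false

namespace Crest.Agent.R52

open Finset

variable {W : Type} [Fintype W] [DecidableEq W]

def Pieces (H : SimpleGraph W) (n : ℕ) (q : ℝ) : Prop :=
  ∃ (Λ : Type) (_ : Fintype Λ) (D : Λ → W → Finset W) (U : Λ → Finset W),
    Fintype.card Λ ≤ 10 ^ 9 ∧
    (∀ l, (∀ u, u ∉ U l → D l u = ∅) ∧ (∀ u, ∀ v ∈ D l u, v ∈ U l) ∧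
      1 / 2 ≤ prob (wt q) (Emb (n := n) (D l) (U l))) ∧
    ∀ u v, H.Adj u v → ∃ l, v ∈ D l u ∨ u ∈ D l v

theorem star_piece {H : SimpleGraph W} {n : ℕ} {p q : ℝ} (h : NoCover H n p) (hp : 0 ≤ p)
    (hq0 : 0 < q) (hq1 : q ≤ 1 / 2) (hpq : 10 ^ 9 * p ≤ q) (hn : 1000 ≤ n)
    (D : W → Finset W) (X : Finset W) (hX : X.card ≤ n / 128 + 1) (hDX : ∀ a, D a ⊆ X)
    (hdisj : ∀ a a', ∀ v ∈ D a, v ∈ D a' → a = a') (hCL : ∀ a, ∀ v ∈ D a, D v = ∅)
    (hadj : ∀ a, ∀ v ∈ D a, H.Adj a v) :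
    ∃ U : Finset W, (∀ u, u ∉ U → D u = ∅) ∧ (∀ u, ∀ v ∈ D u, v ∈ U) ∧
      1 / 2 ≤ prob (wt q) (Emb (n := n) D U) := by
  classical
  set C := univ.filter (fun a => (D a).Nonempty) with hC
  have hD : ∀ u, u ∉ C → D u = ∅ := fun u hu =>
    not_nonempty_iff_eq_empty.1 fun h => hu (mem_filter.2 ⟨mem_univ _, h⟩)
  have hCL' : ∀ a, ∀ v ∈ D a, v ∉ C := fun a v hv hvC => by
    have := (mem_filter.1 hvC).2
    rw [hCL a v hv] at this
    exact not_nonempty_empty this
  have hB : (C.biUnion D).card ≤ n / 128 + 1 :=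
    (card_le_card (biUnion_subset.2 fun a _ => hDX a)).trans hX
  refine ⟨C ∪ C.biUnion D, fun u hu => hD u fun h => hu (mem_union_left _ h),
    fun u v hv => mem_union_right _ (mem_biUnion.2 ⟨u, mem_filter.2 ⟨mem_univ _, ⟨v, hv⟩⟩, hv⟩),
    ?_⟩
  apply star_emb q hq0 hq1 C D hD hdisj hCL' (n / 2) (n / 4) (by omega) (by omega) (by omega)
  · intro a
    have := (card_le_card (hDX a)).trans hX
    omega
  have hCc : C.card ≤ n / 128 + 1 := by
    refine le_trans ?_ hB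
    rw [card_biUnion, card_eq_sum_ones]
    · exact sum_le_sum fun a ha => card_pos.2 (mem_filter.1 ha).2
    · intro a _ a' _ hne
      rw [Function.onFun, disjoint_left]
      intro v hv hv'
      exact hne (hdisj a a' v hv hv')
  set N : ℝ := ((n / 4 : ℕ) : ℝ) with hN
  have hn' : (1000 : ℝ) ≤ n := by exact_mod_cast hn
  have hN5 : (n : ℝ) ≤ 5 * N := by
    have : n ≤ 5 * (n / 4) := by omega
    rw [hN]
    exact_mod_cast this
  have hN0 : 0 < N := by linarith
  have h1 : ∑ a ∈ C, (6000 * ((D a).card : ℝ) / (N * q)) ^ (D a).card ≤ n / 1000 := by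
    rw [← sum_fiberwise_of_maps_to (t := Icc 1 n) (g := fun a => (D a).card)]
    · have h2 : ∀ t ∈ Icc 1 n, ∑ a ∈ C.filter (fun a => (D a).card = t),
          (6000 * ((D a).card : ℝ) / (N * q)) ^ (D a).card ≤ 6 * n / 1000 * (1 / 8) ^ t := by
        intro t ht
        have ht1 := (mem_Icc.1 ht).1
        have ht0 : (0 : ℝ) < t := by exact_mod_cast ht1
        rw [sum_congr rfl (g := fun _ => (6000 * (t : ℝ) / (N * q)) ^ t)
          (fun a ha => by rw [(mem_filter.1 ha).2]), sum_const, nsmul_eq_mul]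
        have h3 := h.stars hp (C.filter (fun a => (D a).card = t)) D t ht1
          (fun a ha => (mem_filter.1 ha).2)
          (fun a _ v hv => ⟨hadj a v hv, fun h => hCL' a v hv (mem_filter.1 h).1⟩)
        have h4 : 3 * n * p / t * (6000 * (t : ℝ) / (N * q)) ≤ 1 / 1000 * (1 / 8) := by
          have : 3 * n * p / t * (6000 * (t : ℝ) / (N * q)) = 18000 * n * p / (N * q) := by
            field_simp
            ring
          rw [this, div_le_iff₀ (by positivity)]
          have h5 : (n : ℝ) * p ≤ 5 * N * p := mul_le_mul_of_nonneg_right hN5 hp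
          have h6 : N * (10 ^ 9 * p) ≤ N * q := mul_le_mul_of_nonneg_left hpq hN0.le
          have h7 : 0 ≤ N * p := by positivity
          nlinarith
        calc ((C.filter (fun a => (D a).card = t)).card : ℝ) * (6000 * (t : ℝ) / (N * q)) ^ t
            ≤ (6 * n * (3 * n * p / t) ^ t) * (6000 * (t : ℝ) / (N * q)) ^ t := by gcongr
          _ = 6 * n * (3 * n * p / t * (6000 * (t : ℝ) / (N * q))) ^ t := by rw [mul_pow]; ring
          _ ≤ 6 * n * (1 / 1000 * (1 / 8)) ^ t := by gcongr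
          _ = 6 * n * ((1 / 1000) ^ t * (1 / 8) ^ t) := by rw [mul_pow]
          _ ≤ 6 * n * ((1 / 1000) ^ 1 * (1 / 8) ^ t) := by
              gcongr 6 * n * (?_ * (1 / 8) ^ t)
              exact pow_le_pow_of_le_one (by norm_num) (by norm_num) ht1
          _ = _ := by ring
      refine (sum_le_sum h2).trans ?_
      rw [← mul_sum]
      have := geom_eighth n
      nlinarith
    · intro a ha
      refine mem_Icc.2 ⟨card_pos.2 (mem_filter.1 ha).2, ?_⟩
      have := (card_le_card (hDX a)).trans hX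
      omega
  rw [sum_add_distrib, sum_const, nsmul_eq_mul]
  have h2 : (C.card : ℝ) ≤ n / 128 + 1 := by
    have h3 : ((n / 128 : ℕ) : ℝ) ≤ n / 128 := Nat.cast_div_le
    have h4 : (C.card : ℝ) ≤ ((n / 128 + 1 : ℕ) : ℝ) := by exact_mod_cast hCc
    push_cast at h4
    linarith
  have h3 : ((n / 2 : ℕ) : ℝ) ≤ n / 2 := Nat.cast_div_le
  linarith

theorem exists_parts (n : ℕ) (hW : Fintype.card W ≤ n) :
    ∃ f : Fin 128 → Finset W, (∀ i, (f i).card ≤ n / 128 + 1) ∧ ∀ x, ∃ i, x ∈ f i := by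
  obtain ⟨f, h1, h2⟩ := exists_chunks (n / 128 + 1) 128 (univ : Finset W)
    (by rw [card_univ]; omega)
  exact ⟨f, fun i => (h1 i).2, fun x => h2 x (mem_univ x)⟩

theorem case1 {H : SimpleGraph W} [DecidableRel H.Adj] {n : ℕ} {p q : ℝ} (h : NoCover H n p)
    (hW : Fintype.card W ≤ n) (hp : 0 ≤ p)
    (hq0 : 0 < q) (hq1 : q ≤ 1 / 2) (hpq : 10 ^ 9 * p ≤ q) (hn : 1000 ≤ n) (d : ℕ) (hd : d ≤ 160)
    (col : W → Fin (d + 1)) (rk : W → ℕ) (hcol : ∀ u v, H.Adj u v → col u ≠ col v)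
    (hrk : ∀ u v, H.Adj u v → rk u ≠ rk v)
    (hdeg : ∀ v, (univ.filter (fun u => H.Adj v u ∧ rk u < rk v)).card ≤ d) :
    Pieces H n q := by
  classical
  obtain ⟨part, hpart, hpart'⟩ := exists_parts n hW
  choose ch hch hch' using fun b : W => exists_chunks 1 160
    (univ.filter (fun u => H.Adj b u ∧ rk u < rk b)) (by have := hdeg b; omega)
  let D : Fin 160 × Fin (d + 1) × Fin (d + 1) × Fin 128 → W → Finset W := fun l a =>
    univ.filter (fun b => a ∈ ch b l.1 ∧ col b = l.2.1 ∧ col a = l.2.2.1 ∧ b ∈ part l.2.2.2)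
  have hadj : ∀ l a, ∀ v ∈ D l a, H.Adj a v := fun l a v hv =>
    (mem_filter.1 ((hch v l.1).1 (mem_filter.1 hv).2.1)).2.1.symm
  have key : ∀ l, ∃ U : Finset W, (∀ u, u ∉ U → D l u = ∅) ∧ (∀ u, ∀ v ∈ D l u, v ∈ U) ∧
      1 / 2 ≤ prob (wt q) (Emb (n := n) (D l) U) := by
    intro l
    apply star_piece h hp hq0 hq1 hpq hn (D l) (part l.2.2.2) (hpart _)
      (fun a v hv => (mem_filter.1 hv).2.2.2.2)
    · intro a a' v hv hv'
      exact card_le_one.1 (hch v l.1).2 a (mem_filter.1 hv).2.1 a' (mem_filter.1 hv').2.1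
    · intro a v hv
      rw [eq_empty_iff_forall_notMem]
      intro b hb
      apply hcol a v (hadj l a v hv)
      rw [(mem_filter.1 hv).2.2.2.1, (mem_filter.1 hb).2.2.2.1]
    · exact hadj l
  choose U hU using key
  refine ⟨_, inferInstance, D, U, ?_, hU, ?_⟩
  · simp only [Fintype.card_prod, Fintype.card_fin]
    have : (d + 1) * ((d + 1) * 128) ≤ 161 * (161 * 128) := by gcongr <;> omega
    omega
  · have aux : ∀ u v, H.Adj u v → rk u < rk v → ∃ l, v ∈ D l u := by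
      intro u v huv hlt
      obtain ⟨i, hi⟩ := hch' v u (mem_filter.2 ⟨mem_univ _, huv.symm, hlt⟩)
      obtain ⟨j, hj⟩ := hpart' v
      exact ⟨(i, col v, col u, j), mem_filter.2 ⟨mem_univ _, hi, rfl, rfl, hj⟩⟩
    intro u v huv
    rcases lt_or_gt_of_ne (hrk u v huv) with h1 | h1
    · obtain ⟨l, hl⟩ := aux u v huv h1
      exact ⟨l, Or.inl hl⟩
    · obtain ⟨l, hl⟩ := aux v u huv.symm h1
      exact ⟨l, Or.inr hl⟩

end Crest.Agent.R52
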