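import Crest.Agent.R52.Prob

set_option autoImplicit false
set_option linter.unusedSectionVars false

namespace Crest.Agent.R52

open Finset

theorem chernoff_rows {ι α : Type*} [Fintype ι] [DecidableEq ι] [Fintype α] [DecidableEq α]
    (q : ℝ) (hq0 : 0 ≤ q) (hq1 : q ≤ 1) (Y : Finset ι) (𝒜 : Finset (Finset α)) :
    prob (wt q) (fun ω : ι → Finset α =>
      ((Y.filter (fun y => ω y ∈ 𝒜)).card : ℝ) < Y.card / 4 * mu q 𝒜) ≤
      Real.exp (-(Y.card / 4 * mu q 𝒜)) := by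
  classical
  set s := (Y.card : ℝ) / 4 * mu q 𝒜 with hs
  let f : ι → Finset α → ℝ := fun y Z => if y ∈ Y then (if Z ∈ 𝒜 then 1 / 2 else 1) else 1
  have hf : ∀ ω : ι → Finset α, ∏ y, f y (ω y) = (1 / 2) ^ (Y.filter (fun y => ω y ∈ 𝒜)).card := by
    intro ω
    simp only [f]
    rw [prod_ite_mem, univ_inter, prod_ite, prod_const, prod_const_one, mul_one]
  refine (prob_le_exp _ (wt_nonneg hq0 hq1) _ (fun ω => Real.exp s * ∏ y, f y (ω y)) ?_ ?_).trans ?_
  · intro ω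
    rw [hf]
    positivity
  · intro ω h
    rw [hf]
    set X := (Y.filter (fun y => ω y ∈ 𝒜)).card
    have h1 : (2 : ℝ) ^ X ≤ Real.exp s := by
      calc (2 : ℝ) ^ X ≤ Real.exp 1 ^ X :=
            pow_le_pow_left₀ (by norm_num) (by linarith [Real.add_one_le_exp 1]) _
        _ = Real.exp X := by rw [← Real.exp_nat_mul, mul_one]
        _ ≤ _ := Real.exp_le_exp.2 h.le
    rw [one_div, inv_pow, ← div_eq_mul_inv, le_div_iff₀ (by positivity), one_mul]
    exact h1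
  · simp_rw [mul_left_comm _ (Real.exp s)]
    rw [← mul_sum, exp_prod]
    have h1 : ∀ y, ∑ Z, wt q Z * f y Z = if y ∈ Y then 1 - mu q 𝒜 / 2 else 1 := by
      intro y
      simp only [f]
      split_ifs
      · have : ∀ Z : Finset α, wt q Z * (if Z ∈ 𝒜 then (1 / 2 : ℝ) else 1) =
            wt q Z - (if Z ∈ 𝒜 then wt q Z / 2 else 0) := by
          intro Z
          split_ifs <;> ring
        simp_rw [this]
        rw [sum_sub_distrib, sum_wt, sum_ite_mem, univ_inter, ← sum_div, mu]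
      · simp [sum_wt]
    simp_rw [h1]
    rw [prod_ite_mem, univ_inter, prod_const]
    have h2 : (1 - mu q 𝒜 / 2) ^ Y.card ≤ Real.exp (-(2 * s)) := by
      have : -(2 * s) = Y.card * (-(mu q 𝒜 / 2)) := by rw [hs]; ring
      rw [this, Real.exp_nat_mul]
      apply pow_le_pow_left₀ (by linarith [mu_le_one hq0 hq1 𝒜])
      linarith [Real.add_one_le_exp (-(mu q 𝒜 / 2))]
    calc Real.exp s * (1 - mu q 𝒜 / 2) ^ Y.card ≤ Real.exp s * Real.exp (-(2 * s)) := by gcongr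
      _ = _ := by rw [← Real.exp_add]; congr 1; ring

theorem hall_match {W : Type*} [DecidableEq W] {n : ℕ} (q : ℝ) (hq0 : 0 ≤ q) (hq1 : q ≤ 1)
    (B : Finset W) (T : W → Finset (Fin n)) (Y : Finset (Fin n)) (δ : ℝ) (hδ0 : 0 < δ)
    (hδ : ∀ b ∈ B, δ ≤ mu q (up (T b)))
    (hRL : ∀ 𝒜 : Finset (Finset (Fin n)), δ ≤ mu q 𝒜 →
      ((B.filter (fun b => mu q (up (T b) \ 𝒜) < δ)).card : ℝ) ≤ Y.card / 4 * mu q 𝒜)
    (hB : B.card * Real.exp (-(Y.card / 4 * δ)) ≤ 1 / 4) :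
    1 / 2 ≤ prob (wt q) (fun ω : Fin n → Finset (Fin n) =>
      ∃ ψ : B → Fin n, Function.Injective ψ ∧ ∀ b, ψ b ∈ Y ∧ T b ⊆ ω (ψ b)) := by
  classical
  have hw0 : ∀ Z : Finset (Fin n), 0 ≤ wt q Z := wt_nonneg hq0 hq1
  let 𝒜 : Finset W → Finset (Finset (Fin n)) := fun U => U.biUnion (fun b => up (T b))
  let 𝒰 : Finset (Finset W) := (B.powerset.erase ∅).filter (fun U => δ * U.card ≤ mu q (𝒜 U))
  let bad : Finset W → (Fin n → Finset (Fin n)) → Prop := fun U ω =>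
    ((Y.filter (fun y => ω y ∈ 𝒜 U)).card : ℝ) < Y.card / 4 * mu q (𝒜 U)
  set c := Real.exp (-(Y.card / 4 * δ)) with hc
  have hc0 : 0 ≤ c := (Real.exp_pos _).le
  have h1 : prob (wt q) (fun ω => ∃ U ∈ 𝒰, bad U ω) ≤ 1 / 2 := by
    refine (prob_union_le _ hw0 𝒰 bad).trans ?_
    have h2 : ∀ U ∈ 𝒰, prob (wt q) (bad U) ≤ c ^ U.card := by
      intro U hU
      refine (chernoff_rows q hq0 hq1 Y (𝒜 U)).trans ?_
      rw [hc, ← Real.exp_nat_mul]
      apply Real.exp_le_exp.2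
      have := mul_le_mul_of_nonneg_left (mem_filter.1 hU).2
        (show (0 : ℝ) ≤ Y.card / 4 by positivity)
      linarith
    refine (sum_le_sum h2).trans ?_
    refine (sum_le_sum_of_subset_of_nonneg (filter_subset _ _)
      (fun U _ _ => pow_nonneg hc0 _)).trans ?_
    have h3 : ∑ U ∈ B.powerset, c ^ U.card = (c + 1) ^ B.card := by
      rw [← sum_pow_mul_eq_add_pow]
      simp
    rw [← add_sum_erase _ _ (empty_mem_powerset B), card_empty, pow_zero] at h3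
    have h4 : (c + 1) ^ B.card ≤ Real.exp (1 / 4) := by
      calc (c + 1) ^ B.card ≤ Real.exp c ^ B.card :=
            pow_le_pow_left₀ (by linarith) (Real.add_one_le_exp c) _
        _ = Real.exp (B.card * c) := (Real.exp_nat_mul _ _).symm
        _ ≤ _ := Real.exp_le_exp.2 hB
    have h5 : Real.exp (1 / 4) ≤ 3 / 2 := by
      have := Real.exp_bound_div_one_sub_of_interval (x := 1 / 4) (by norm_num) (by norm_num)
      linarith [show (1 : ℝ) / (1 - 1 / 4) ≤ 3 / 2 by norm_num]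
    linarith
  have h2 := prob_not (wt q) (sum_wt q) (fun ω : Fin n → Finset (Fin n) => ∃ U ∈ 𝒰, bad U ω)
  refine le_trans (by linarith) (prob_mono _ hw0
    (P := fun ω : Fin n → Finset (Fin n) => ¬ ∃ U ∈ 𝒰, bad U ω) ?_)
  intro ω hω
  have hall := (all_card_le_biUnion_card_iff_exists_injective
    (fun b : B => Y.filter (fun y => T b ⊆ ω y))).1 ?_
  · obtain ⟨ψ, h3, h4⟩ := hall
    exact ⟨ψ, h3, fun b => mem_filter.1 (h4 b)⟩
  intro s
  rcases s.eq_empty_or_nonempty with rfl | ⟨b0, hb0⟩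
  · simp
  set U := s.map (Function.Embedding.subtype _) with hU
  have hUB : U ⊆ B := by
    intro x hx
    obtain ⟨b, _, rfl⟩ := mem_map.1 hx
    exact b.2
  have hb0U : (b0 : W) ∈ U := mem_map.2 ⟨b0, hb0, rfl⟩
  have hsing : ({(b0 : W)} : Finset W) ∈
      U.powerset.filter (fun U' => δ * U'.card ≤ mu q (𝒜 U')) := by
    refine mem_filter.2 ⟨mem_powerset.2 (singleton_subset_iff.2 hb0U), ?_⟩
    simpa [𝒜] using hδ b0 b0.2
  obtain ⟨U', hU', hmax⟩ := exists_max_image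
    (U.powerset.filter (fun U' => δ * U'.card ≤ mu q (𝒜 U'))) card ⟨_, hsing⟩
  obtain ⟨g1, g2⟩ := mem_filter.1 hU'
  have g1' := mem_powerset.1 g1
  have g3 : 1 ≤ U'.card := by simpa using hmax _ hsing
  have g4 : δ ≤ mu q (𝒜 U') := by
    have : (1 : ℝ) ≤ U'.card := by exact_mod_cast g3
    nlinarith
  have g5 : U ⊆ B.filter (fun b => mu q (up (T b) \ 𝒜 U') < δ) := by
    intro b hb
    refine mem_filter.2 ⟨hUB hb, ?_⟩
    by_cases hbU : b ∈ U'
    · have : up (T b) \ 𝒜 U' = ∅ :=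
        sdiff_eq_empty_iff_subset.2 (subset_biUnion_of_mem (fun b => up (T b)) hbU)
      rw [this]
      simpa [mu] using hδ0
    · by_contra hcon
      have g6 : insert b U' ∈ U.powerset.filter (fun U' => δ * U'.card ≤ mu q (𝒜 U')) := by
        refine mem_filter.2 ⟨mem_powerset.2 (insert_subset hb g1'), ?_⟩
        have g7 : mu q (𝒜 (insert b U')) = mu q (up (T b) \ 𝒜 U') + mu q (𝒜 U') := by
          unfold mu
          rw [← sum_union sdiff_disjoint, sdiff_union_self_eq_union]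
          simp only [𝒜, biUnion_insert]
        rw [g7, card_insert_of_notMem hbU]
        push_cast
        linarith [not_lt.1 hcon]
      have := hmax _ g6
      rw [card_insert_of_notMem hbU] at this
      omega
  have g6 : U' ∈ 𝒰 := by
    refine mem_filter.2 ⟨mem_erase.2 ⟨?_, mem_powerset.2 (g1'.trans hUB)⟩, g2⟩
    rintro rfl
    simp at g3
  have g7 : ¬ bad U' ω := fun h => hω ⟨U', g6, h⟩
  have g8 : (s.card : ℝ) ≤ (Y.filter (fun y => ω y ∈ 𝒜 U')).card := by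
    have a1 : (s.card : ℝ) ≤ (B.filter (fun b => mu q (up (T b) \ 𝒜 U') < δ)).card := by
      have := card_le_card g5
      rw [hU, card_map] at this
      exact_mod_cast this
    exact a1.trans ((hRL _ g4).trans (not_lt.1 g7))
  refine (Nat.cast_le.1 g8).trans (card_le_card ?_)
  intro y hy
  obtain ⟨a1, a2⟩ := mem_filter.1 hy
  obtain ⟨b, hb, hb'⟩ := mem_biUnion.1 a2
  obtain ⟨b', hb'', rfl⟩ := mem_map.1 (g1' hb)
  exact mem_biUnion.2 ⟨b', hb'', mem_filter.2 ⟨a1, mem_up.1 hb'⟩⟩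

theorem bip_emb {W : Type*} [DecidableEq W] {n : ℕ} (q : ℝ) (hq0 : 0 ≤ q) (hq1 : q ≤ 1)
    (A B : Finset W) (hAB : Disjoint A B) (D : W → Finset W) (hD : ∀ u, u ∉ B → D u = ∅)
    (hDA : ∀ u, D u ⊆ A) (m : ℕ) (hm : m < n) (φ0 : W → Fin n) (hφ0 : Set.InjOn φ0 A)
    (hφm : ∀ a ∈ A, (φ0 a : ℕ) < m) (δ : ℝ) (hδ0 : 0 < δ)
    (hδ : ∀ b ∈ B, δ ≤ mu q (up ((D b).image φ0)))
    (hRL : ∀ 𝒜 : Finset (Finset (Fin n)), δ ≤ mu q 𝒜 →
      ((B.filter (fun b => mu q (up ((D b).image φ0) \ 𝒜) < δ)).card : ℝ) ≤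
        ((n : ℝ) - m) / 4 * mu q 𝒜)
    (hB : B.card * Real.exp (-(((n : ℝ) - m) / 4 * δ)) ≤ 1 / 4) :
    1 / 2 ≤ prob (wt q) (Emb (n := n) D (A ∪ B)) := by
  classical
  have hY : ((Ici (⟨m, hm⟩ : Fin n)).card : ℝ) = n - m := by
    rw [Fin.card_Ici, Nat.cast_sub hm.le]
  refine (hall_match q hq0 hq1 B (fun b => (D b).image φ0) (Ici ⟨m, hm⟩) δ hδ0 hδ
    (by rw [hY]; exact hRL) (by rw [hY]; exact hB)).trans
    (prob_mono _ (wt_nonneg hq0 hq1) ?_)
  rintro ω ⟨ψ, h1, h2⟩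
  have h3 : ∀ b, m ≤ (ψ b : ℕ) := fun b => Fin.le_def.1 (mem_Ici.1 (h2 b).1)
  have hA : ∀ a ∈ A, a ∉ B := fun a ha => disjoint_left.1 hAB ha
  refine ⟨fun x => if h : x ∈ B then ψ ⟨x, h⟩ else φ0 x, ?_, ?_⟩
  · intro x hx x' hx' hxx
    by_cases g1 : x ∈ B <;> by_cases g2 : x' ∈ B <;>
      simp only [g1, g2, dif_pos, dif_neg, not_false_eq_true] at hxx
    · exact congrArg Subtype.val (h1 hxx)
    · have a1 := hφm x' ((mem_union.1 hx').resolve_right g2)
      have a2 := h3 ⟨x, g1⟩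
      rw [hxx] at a2
      omega
    · have a1 := hφm x ((mem_union.1 hx).resolve_right g1)
      have a2 := h3 ⟨x', g2⟩
      rw [← hxx] at a2
      omega
    · exact hφ0 ((mem_union.1 hx).resolve_right g1) ((mem_union.1 hx').resolve_right g2) hxx
  · intro u v hv
    have hu : u ∈ B := by
      by_contra h
      rw [hD u h] at hv
      simp at hv
    have hvA := hDA u hv
    simp only [hu, hA v hvA, dif_pos, dif_neg, not_false_eq_true]
    refine ⟨?_, (h2 ⟨u, hu⟩).2 (mem_image_of_mem φ0 hv)⟩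
    have a1 := hφm v hvA
    have a2 := h3 ⟨u, hu⟩
    show (φ0 v : ℕ) < ψ ⟨u, hu⟩
    omega

end Crest.Agent.R52
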