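import Crest.Agent.R52.Prob

set_option autoImplicit false
set_option linter.unusedSectionVars false

namespace Crest.Agent.R52

open Finset

theorem up_inter {α : Type*} [Fintype α] [DecidableEq α] (S T : Finset α) :
    up S ∩ up T = up (S ∪ T) := by
  ext Z
  simp [union_subset_iff]

/-- second moment bound for a union of principal up-sets. -/
theorem mu_biUnion_ge {α β : Type*} [Fintype α] [DecidableEq α] [DecidableEq β]
    (q : ℝ) (hq0 : 0 < q) (hq1 : q ≤ 1) (C : Finset β) (hC : C.Nonempty) (T : β → Finset α)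
    (d : ℕ) (hd : ∀ b ∈ C, (T b).card ≤ d) (Δ : ℝ) (hΔ0 : 0 ≤ Δ)
    (hΔ : ∀ x : α, ((C.filter (fun b => x ∈ T b)).card : ℝ) ≤ Δ) :
    1 ≤ (1 + d * Δ / q ^ d / C.card) * mu q (C.biUnion (fun b => up (T b))) := by
  classical
  have hw0 : ∀ Z : Finset α, 0 ≤ wt q Z := wt_nonneg hq0.le hq1
  set 𝒵 := C.biUnion (fun b => up (T b))
  let X : Finset α → ℝ := fun Z => ∑ b ∈ C, if Z ∈ up (T b) then 1 / q ^ (T b).card else 0
  have hu : (0 : ℝ) < C.card := by exact_mod_cast card_pos.2 hC
  have hsub : ∀ b ∈ C, up (T b) ⊆ 𝒵 := fun b hb => subset_biUnion_of_mem (fun b => up (T b)) hb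
  have h1 : ∑ Z ∈ 𝒵, wt q Z * X Z = C.card := by
    simp only [X, mul_sum]
    rw [sum_comm, card_eq_sum_ones, Nat.cast_sum]
    apply sum_congr rfl
    intro b hb
    simp only [mul_ite, mul_zero]
    rw [sum_ite_mem, inter_eq_right.2 (hsub b hb), ← sum_mul]
    have := mu_up q (T b)
    unfold mu at this
    rw [this]
    field_simp
    simp
  have h2 : ∑ Z ∈ 𝒵, wt q Z * X Z ^ 2 ≤ C.card * (C.card + d * Δ / q ^ d) := by
    have h3 : ∀ Z, wt q Z * X Z ^ 2 = ∑ b ∈ C, ∑ b' ∈ C,
        if Z ∈ up (T b ∪ T b') then wt q Z * (1 / q ^ (T b).card * (1 / q ^ (T b').card))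
          else 0 := by
      intro Z
      simp only [X, sq]
      rw [sum_mul_sum, mul_sum]
      apply sum_congr rfl
      intro b _
      rw [mul_sum]
      apply sum_congr rfl
      intro b' _
      rw [← up_inter]
      by_cases h4 : Z ∈ up (T b) <;> by_cases h5 : Z ∈ up (T b') <;>
        simp only [mem_inter, h4, h5, if_true, if_false, and_self, and_false, false_and,
          mul_zero, zero_mul]
    simp_rw [h3]
    rw [sum_comm, ← nsmul_eq_mul, ← sum_const]
    apply sum_le_sum
    intro b hb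
    rw [sum_comm]
    have h4 : ∀ b' ∈ C, (∑ Z ∈ 𝒵, if Z ∈ up (T b ∪ T b') then
        wt q Z * (1 / q ^ (T b).card * (1 / q ^ (T b').card)) else 0) ≤
        1 + ∑ x ∈ T b, if x ∈ T b' then 1 / q ^ d else 0 := by
      intro b' _
      have h5 : up (T b ∪ T b') ⊆ 𝒵 := by
        rw [← up_inter]
        exact inter_subset_left.trans (hsub b hb)
      rw [sum_ite_mem, inter_eq_right.2 h5, ← sum_mul]
      have h6 := mu_up q (T b ∪ T b')
      unfold mu at h6
      rw [h6]
      have h7 : q ^ (T b ∪ T b').card * (1 / q ^ (T b).card * (1 / q ^ (T b').card)) =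
          1 / q ^ (T b ∩ T b').card := by
        have := card_union_add_card_inter (T b) (T b')
        field_simp
        rw [← pow_add, ← pow_add, this]
      rw [h7, sum_ite_mem, sum_const, nsmul_eq_mul]
      rcases Nat.eq_zero_or_pos (T b ∩ T b').card with h0 | h0
      · rw [h0]; simp
      · have h8 : 1 / q ^ (T b ∩ T b').card ≤ 1 / q ^ d := by
          apply one_div_le_one_div_of_le (by positivity)
          exact pow_le_pow_of_le_one hq0.le hq1
            ((card_le_card inter_subset_left).trans (hd b hb))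
        have h9 : (1 : ℝ) ≤ (T b ∩ T b').card := by exact_mod_cast h0
        have h10 : 0 < 1 / q ^ d := by positivity
        nlinarith
    refine (sum_le_sum h4).trans ?_
    rw [sum_add_distrib, sum_const, nsmul_eq_mul, mul_one, sum_comm]
    have h5 : ∀ x ∈ T b, (∑ b' ∈ C, if x ∈ T b' then 1 / q ^ d else 0) ≤ Δ / q ^ d := by
      intro x _
      rw [← sum_filter, sum_const, nsmul_eq_mul, mul_one_div]
      exact div_le_div_of_nonneg_right (hΔ x) (by positivity)
    have h6 := sum_le_sum h5
    rw [sum_const, nsmul_eq_mul] at h6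
    have h7 : ((T b).card : ℝ) * (Δ / q ^ d) ≤ d * Δ / q ^ d := by
      rw [mul_div_assoc]
      apply mul_le_mul_of_nonneg_right _ (by positivity)
      exact_mod_cast hd b hb
    linarith
  have h3 := sum_sq_le_sum_mul_sum_of_sq_le_mul 𝒵 (r := fun Z => wt q Z * X Z)
    (f := fun Z => wt q Z) (g := fun Z => wt q Z * X Z ^ 2) (fun Z _ => hw0 Z)
    (fun Z _ => mul_nonneg (hw0 Z) (sq_nonneg _)) (fun Z _ => le_of_eq (by ring))
  rw [h1] at h3
  have h4 : 0 ≤ mu q 𝒵 := mu_nonneg hq0.le hq1 _
  have h5 : (C.card : ℝ) ^ 2 ≤ mu q 𝒵 * (C.card * (C.card + d * Δ / q ^ d)) :=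
    h3.trans (mul_le_mul_of_nonneg_left h2 h4)
  have h6 : (1 + d * Δ / q ^ d / C.card) * mu q 𝒵 =
      mu q 𝒵 * (C.card * (C.card + d * Δ / q ^ d)) / (C.card : ℝ) ^ 2 := by
    field_simp
  rw [h6, le_div_iff₀ (by positivity), one_mul]
  exact h5

theorem layer_emb {W : Type*} [DecidableEq W] {n : ℕ} (hn : 0 < n) (q : ℝ) (hq0 : 0 < q)
    (hq1 : q ≤ 1) (D : W → Finset W) (U : Finset W) (hU : ∀ u, u ∉ U → D u = ∅)
    (hU' : ∀ u, ∀ v ∈ D u, v ∈ U) (rk : W → ℕ) (R : ℕ) (hR : ∀ u ∈ U, rk u < R)
    (hrk : ∀ u, ∀ v ∈ D u, rk v < rk u) (d : ℕ) (hd : ∀ u, (D u).card ≤ d) (Δ : ℝ) (hΔ0 : 0 ≤ Δ)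
    (hΔ : ∀ v, ((U.filter (fun u => v ∈ D u)).card : ℝ) ≤ Δ) (h : ℝ)
    (hh : ∑ j ∈ range U.card, (1 / (j + 1) : ℝ) ≤ h)
    (hV : 2 * (U.card + R * (d * Δ / q ^ d * h)) ≤ n) :
    1 / 2 ≤ prob (wt q) (Emb (n := n) D U) := by
  classical
  set K : ℝ := d * Δ / q ^ d with hK
  have hK0 : 0 ≤ K := by positivity
  let cost : ℕ → ℝ := fun u => ∑ j ∈ range u, (1 + K / (j + 1))
  have hcost0 : ∀ u, 0 ≤ cost u := fun u => sum_nonneg fun j _ => by positivity
  let V : Finset W → ℝ := fun E => ∑ r ∈ range R, cost ((U \ E).filter (fun u => rk u = r)).card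
  refine scan_emb q hq0.le hq1 D U hU 0 hn
    (fun y E φ => Set.InjOn φ E ∧ ∀ x ∈ E, (φ x : ℕ) < y) ?_ (fun _ _ _ h => h.1) V
    (fun E => sum_nonneg fun r _ => hcost0 _) ?_ (fun _ => ⟨0, hn⟩) ⟨by simp, by simp⟩ ?_
  · rintro y E φ ⟨h1, h2⟩
    exact ⟨h1, fun x hx => (h2 x hx).trans (Nat.lt_succ_self y)⟩
  · rintro y E φ - ⟨h1, h2⟩ hUE
    have hne : (U \ E).Nonempty := by
      obtain ⟨x, hx, hx'⟩ := not_subset.1 hUE
      exact ⟨x, mem_sdiff.2 ⟨hx, hx'⟩⟩
    obtain ⟨b0, hb0, hmin⟩ := exists_min_image (U \ E) rk hne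
    set C := (U \ E).filter (fun u => rk u = rk b0) with hC
    have hCne : C.Nonempty := ⟨b0, mem_filter.2 ⟨hb0, rfl⟩⟩
    have hDE : ∀ b ∈ C, ∀ v ∈ D b, v ∈ E := by
      intro b hb v hv
      by_contra hvE
      have h3 := hmin v (mem_sdiff.2 ⟨hU' b v hv, hvE⟩)
      have h4 := hrk b v hv
      have h5 := (mem_filter.1 hb).2
      omega
    refine ⟨1 + K / C.card, C.biUnion (fun b => up ((D b).image φ)), ?_, ?_⟩
    · apply mu_biUnion_ge q hq0 hq1 C hCne (fun b => (D b).image φ) d
        (fun b _ => card_image_le.trans (hd b)) Δ hΔ0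
      intro x
      rcases (C.filter (fun b => x ∈ (D b).image φ)).eq_empty_or_nonempty with h0 | ⟨b1, hb1⟩
      · rw [h0]; simpa using hΔ0
      obtain ⟨v, hv, hvx⟩ := mem_image.1 (mem_filter.1 hb1).2
      refine le_trans ?_ (hΔ v)
      have : C.filter (fun b => x ∈ (D b).image φ) ⊆ U.filter (fun u => v ∈ D u) := by
        intro b hb
        have hb' := mem_filter.1 hb
        obtain ⟨v', hv', hvx'⟩ := mem_image.1 hb'.2
        have : v' = v := h1 (hDE b hb'.1 v' hv') (hDE b1 (mem_filter.1 hb1).1 v hv)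
          (hvx'.trans hvx.symm)
        exact mem_filter.2 ⟨(mem_sdiff.1 (mem_filter.1 hb'.1).1).1, this ▸ hv'⟩
      exact_mod_cast card_le_card this
    · intro Z hZ
      obtain ⟨b, hb, hbZ⟩ := mem_biUnion.1 hZ
      have hb' := mem_filter.1 hb
      have hbE : b ∉ E := (mem_sdiff.1 hb'.1).2
      have hupd : ∀ x ∈ E, Function.update φ b y x = φ x := fun x hx =>
        Function.update_of_ne (fun (h : x = b) => hbE (h ▸ hx)) _ _
      refine ⟨insert b E, Function.update φ b y, ⟨?_, ?_⟩, ?_, subset_insert _ _, hupd, ?_⟩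
      · intro x hx x' hx' hxx
        rcases mem_insert.1 (mem_coe.1 hx) with g1 | g1 <;>
          rcases mem_insert.1 (mem_coe.1 hx') with g2 | g2
        · rw [g1, g2]
        · rw [hupd _ g2, g1, Function.update_self] at hxx
          have := h2 _ g2
          rw [← hxx] at this
          exact absurd this (lt_irrefl _)
        · rw [hupd _ g1, g2, Function.update_self] at hxx
          have := h2 _ g1
          rw [hxx] at this
          exact absurd this (lt_irrefl _)
        · rw [hupd _ g1, hupd _ g2] at hxx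
          exact h1 g1 g2 hxx
      · intro x hx
        rcases mem_insert.1 hx with rfl | hx
        · simp
        · rw [hupd _ hx]
          exact (h2 x hx).trans (Nat.lt_succ_self _)
      · have hr0 : rk b0 ∈ range R := mem_range.2 (hR b0 (mem_sdiff.1 hb0).1)
        simp only [V]
        rw [← add_sum_erase _ _ hr0, ← add_sum_erase (range R) _ hr0]
        have h3 : (U \ insert b E).filter (fun u => rk u = rk b0) = C.erase b := by
          ext x
          simp only [hC, mem_filter, mem_sdiff, mem_insert, mem_erase]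
          tauto
        have h4 : ∑ r ∈ (range R).erase (rk b0),
            cost ((U \ insert b E).filter (fun u => rk u = r)).card =
            ∑ r ∈ (range R).erase (rk b0), cost ((U \ E).filter (fun u => rk u = r)).card := by
          apply sum_congr rfl
          intro r hr
          congr 2
          ext x
          simp only [mem_filter, mem_sdiff, mem_insert]
          constructor
          · tauto
          · rintro ⟨⟨a1, a2⟩, a3⟩
            refine ⟨⟨a1, ?_⟩, a3⟩
            rintro (rfl | a4)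
            · exact (mem_erase.1 hr).1 (a3.symm.trans hb'.2)
            · exact a2 a4
        rw [h3, h4, ← hC, ← card_erase_add_one hb]
        simp only [cost]
        rw [sum_range_succ]
        push_cast
        linarith
      · intro u hu huE v hv
        rcases mem_insert.1 hu with rfl | hu
        · have hvE := hDE u hb v hv
          refine ⟨Function.update_self .., mem_insert_of_mem hvE, ?_, ?_⟩
          · rw [hupd _ hvE]; exact h2 v hvE
          · rw [hupd _ hvE]; exact mem_up.1 hbZ (mem_image_of_mem φ hv)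
        · exact absurd hu huE
  · have h1 : ∀ r, cost ((U \ ∅).filter (fun u => rk u = r)).card ≤
        ((U.filter (fun u => rk u = r)).card : ℝ) + K * h := by
      intro r
      rw [sdiff_empty]
      simp only [cost]
      rw [sum_add_distrib, sum_const, card_range, nsmul_eq_mul, mul_one]
      have h2 : ∑ j ∈ range (U.filter (fun u => rk u = r)).card, K / ((j : ℝ) + 1) ≤
          ∑ j ∈ range U.card, K / ((j : ℝ) + 1) :=
        sum_le_sum_of_subset_of_nonneg (range_subset_range.2 (card_filter_le _ _))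
          (fun j _ _ => by positivity)
      have h3 : ∑ j ∈ range U.card, K / ((j : ℝ) + 1) =
          K * ∑ j ∈ range U.card, 1 / ((j : ℝ) + 1) := by
        rw [mul_sum]
        exact sum_congr rfl fun j _ => by ring
      have h4 := mul_le_mul_of_nonneg_left hh hK0
      linarith
    have h2 := sum_le_sum (fun r (_ : r ∈ range R) => h1 r)
    rw [sum_add_distrib, sum_const, card_range, nsmul_eq_mul, ← Nat.cast_sum,
      ← card_eq_sum_card_fiberwise (fun u hu => mem_coe.2 (mem_range.2 (hR u hu)))] at h2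
    simp only [V, Nat.cast_zero, sub_zero]
    linarith

end Crest.Agent.R52
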