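import Crest.Agent.R52.Defs

/-! Robust Hoffman bound: few sets have no rich split. -/

set_option autoImplicit false
set_option linter.unusedSectionVars false

namespace Crest.Agent.R52.Sp

open Finset

variable {α : Type*} [Fintype α] [DecidableEq α]

noncomputable def xi (q : ℝ) (Z : Finset α) (x : α) : ℝ := (if x ∈ Z then 1 else 0) - q

noncomputable def coef (q : ℝ) (D : Finset (Finset α)) (T : Finset α) : ℝ :=
  ∑ Z ∈ D, wt q Z * ∏ x ∈ T, xi q Z x

lemma coef_empty (q : ℝ) (D : Finset (Finset α)) : coef q D ∅ = mu q D := by simp [coef, mu]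

lemma kernel (q c : ℝ) (D : Finset (Finset α)) (S : Finset α) :
    ∑ T ∈ S.powerset, c ^ T.card * coef q D T ^ 2
      = ∑ Z ∈ D, ∑ Z' ∈ D, wt q Z * wt q Z' * ∏ x ∈ S, (1 + c * (xi q Z x * xi q Z' x)) := by
  have h1 : ∀ T : Finset α, c ^ T.card * coef q D T ^ 2
      = ∑ Z ∈ D, ∑ Z' ∈ D, wt q Z * wt q Z' * ∏ x ∈ T, (c * (xi q Z x * xi q Z' x)) := by
    intro T
    rw [coef, sq, Finset.sum_mul_sum, Finset.mul_sum]
    refine Finset.sum_congr rfl fun Z _ => ?_
    rw [Finset.mul_sum]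
    refine Finset.sum_congr rfl fun Z' _ => ?_
    rw [Finset.prod_mul_distrib, Finset.prod_mul_distrib, Finset.prod_const]
    ring
  simp only [h1, Finset.prod_one_add, Finset.mul_sum]
  rw [Finset.sum_comm]
  refine Finset.sum_congr rfl fun Z _ => ?_
  rw [Finset.sum_comm]

lemma parseval {q : ℝ} (h0 : 0 < q) (h1 : q < 1) (D : Finset (Finset α)) :
    ∑ T : Finset α, (1 / (q * (1 - q))) ^ T.card * coef q D T ^ 2 = mu q D := by
  have h := kernel q (1 / (q * (1 - q))) D univ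
  rw [Finset.powerset_univ] at h
  rw [h, mu]
  refine Finset.sum_congr rfl fun Z hZ => ?_
  have key : ∀ Z' : Finset α, wt q Z' *
      ∏ x, (1 + 1 / (q * (1 - q)) * (xi q Z x * xi q Z' x)) = if Z = Z' then 1 else 0 := by
    intro Z'
    rw [wt, ← Finset.prod_mul_distrib]
    have h2 : ∀ x, (if x ∈ Z' then q else 1 - q) * (1 + 1 / (q * (1 - q)) * (xi q Z x * xi q Z' x))
        = if (x ∈ Z ↔ x ∈ Z') then 1 else 0 := by
      intro x
      have hq : q ≠ 0 := h0.ne'
      have hq' : 1 - q ≠ 0 := by linarith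
      by_cases a : x ∈ Z <;> by_cases b : x ∈ Z' <;>
        simp only [xi, a, b, if_true, if_false, iff_true, iff_false, not_true] <;>
        field_simp <;> ring
    simp only [h2]
    by_cases he : Z = Z'
    · simp [he]
    · rw [if_neg he]
      obtain ⟨x, hx⟩ := not_forall.mp (fun h => he (Finset.ext h))
      exact Finset.prod_eq_zero (Finset.mem_univ x) (if_neg hx)
  simp only [mul_assoc, key, mul_ite, mul_one, mul_zero, Finset.sum_ite_eq, hZ, if_true]

lemma hoff_ge (q : ℝ) (D : Finset (Finset α)) (S : Finset α) :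
    mu q D ^ 2 - ∑ T ∈ S.powerset.erase ∅, (1 / q ^ 2) ^ T.card * coef q D T ^ 2
      ≤ ∑ Z ∈ D, ∑ Z' ∈ D, wt q Z * wt q Z' *
          ∏ x ∈ S, (1 + (-(1 / q ^ 2)) * (xi q Z x * xi q Z' x)) := by
  rw [← kernel, ← Finset.add_sum_erase _ _ (Finset.empty_mem_powerset S), coef_empty]
  simp only [Finset.card_empty, pow_zero, one_mul, sub_eq_add_neg, ← Finset.sum_neg_distrib]
  gcongr with T hT
  rw [← neg_mul]
  gcongr
  rw [neg_pow (1 / q ^ 2)]
  have h1 : (0 : ℝ) ≤ (1 / q ^ 2) ^ T.card := by positivity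
  rcases neg_one_pow_eq_or ℝ T.card with h | h <;> rw [h] <;> linarith

lemma factor_le {q : ℝ} (h0 : 0 < q) (h1 : q < 1) (S Z Z' : Finset α) :
    ∏ x ∈ S, (1 + (-(1 / q ^ 2)) * (xi q Z x * xi q Z' x))
      ≤ if Z ∩ S ∪ Z' ∩ S = S then (1 / q) ^ (Z ∩ S).card * (1 / q) ^ (Z' ∩ S).card else 0 := by
  split_ifs with h
  · refine (le_abs_self _).trans ?_
    rw [Finset.abs_prod]
    have e1 : ∀ Y : Finset α, (1 / q) ^ (Y ∩ S).card = ∏ x ∈ S, if x ∈ Y then 1 / q else 1 := by
      intro Y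
      rw [Finset.prod_ite, Finset.prod_const_one, mul_one, Finset.prod_const]
      congr 2
      ext x; simp [and_comm]
    rw [e1, e1, ← Finset.prod_mul_distrib]
    refine Finset.prod_le_prod (fun _ _ => abs_nonneg _) fun x _ => ?_
    have hq : q ≠ 0 := h0.ne'
    by_cases a : x ∈ Z <;> by_cases b : x ∈ Z' <;> simp only [xi, a, b, if_true, if_false]
    · have : 1 + -(1 / q ^ 2) * ((1 - q) * (1 - q)) = (2 * q - 1) * (1 / q * (1 / q)) := by
        field_simp; ring
      rw [this, abs_mul, abs_of_nonneg (by positivity : 0 ≤ 1 / q * (1 / q))]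
      have : |2 * q - 1| ≤ 1 := abs_le.mpr ⟨by linarith, by linarith⟩
      exact mul_le_of_le_one_left (by positivity) this
    · have : 1 + -(1 / q ^ 2) * ((1 - q) * (0 - q)) = 1 / q * 1 := by field_simp; ring
      rw [this, abs_of_nonneg (by positivity)]
    · have : 1 + -(1 / q ^ 2) * ((0 - q) * (1 - q)) = 1 * (1 / q) := by field_simp; ring
      rw [this, abs_of_nonneg (by positivity)]
    · have : 1 + -(1 / q ^ 2) * ((0 - q) * (0 - q)) = 0 := by field_simp; ring
      rw [this]; simp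
  · have : ∃ x ∈ S, x ∉ Z ∧ x ∉ Z' := by
      by_contra hc
      push Not at hc
      apply h
      ext x
      simp only [Finset.mem_union, Finset.mem_inter]
      constructor
      · rintro (h | h) <;> exact h.2
      · intro hx
        by_cases a : x ∈ Z
        · exact Or.inl ⟨a, hx⟩
        · exact Or.inr ⟨hc x hx a, hx⟩
    obtain ⟨x, hx, a, b⟩ := this
    refine le_of_eq (Finset.prod_eq_zero hx ?_)
    have hq : q ≠ 0 := h0.ne'
    simp only [xi, a, b, if_false]
    field_simp; ring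

lemma card_pairs (S : Finset α) :
    ∑ S1 ∈ S.powerset, ((S.powerset.filter (fun S2 => S1 ∪ S2 = S)).card : ℝ) ≤ 3 ^ S.card := by
  have h1 : ∀ S1 ∈ S.powerset,
      ((S.powerset.filter (fun S2 => S1 ∪ S2 = S)).card : ℝ) ≤ 2 ^ S1.card * 1 ^ (S.card - S1.card) := by
    intro S1 _
    rw [one_pow, mul_one]
    have : (S.powerset.filter (fun S2 => S1 ∪ S2 = S)).card ≤ S1.powerset.card := by
      refine Finset.card_le_card_of_injOn (fun S2 => S2 ∩ S1) ?_ ?_
      · intro S2 _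
        simp
      · intro A hA B hB hAB
        have ha := (Finset.mem_filter.mp hA).2
        have hb := (Finset.mem_filter.mp hB).2
        ext x
        have e := Finset.ext_iff.mp hAB x
        have ea := Finset.ext_iff.mp ha x
        have eb := Finset.ext_iff.mp hb x
        simp only [Finset.mem_inter, Finset.mem_union] at e ea eb
        tauto
    rw [Finset.card_powerset] at this
    exact_mod_cast this
  refine (Finset.sum_le_sum h1).trans ?_
  rw [Finset.sum_pow_mul_eq_add_pow]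
  norm_num

/-- `S` has a `γ`-rich split with respect to `D`. -/
def Rich (q γ : ℝ) (D : Finset (Finset α)) (S1 : Finset α) : Prop :=
  γ * q ^ S1.card ≤ mu q (up S1 ∩ D)

lemma poor_le {q γ : ℝ} (h0 : 0 < q) (h1 : q < 1) (hγ : 0 ≤ γ) (D : Finset (Finset α)) (S : Finset α)
    (hS : ∀ S1 S2, S1 ∪ S2 = S → ¬ (Rich q γ D S1 ∧ Rich q γ D S2)) :
    ∑ Z ∈ D, ∑ Z' ∈ D, wt q Z * wt q Z' *
          ∏ x ∈ S, (1 + (-(1 / q ^ 2)) * (xi q Z x * xi q Z' x)) ≤ 3 ^ S.card * γ := by
  set m : Finset α → ℝ := fun S1 => (∑ Z ∈ D.filter (fun Z => Z ∩ S = S1), wt q Z) * (1 / q) ^ S1.card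
    with hm
  have hm0 : ∀ S1, 0 ≤ m S1 := fun S1 =>
    mul_nonneg (Finset.sum_nonneg fun Z _ => wt_nonneg h0.le h1.le Z) (by positivity)
  have hmle : ∀ S1, m S1 ≤ mu q (up S1 ∩ D) * (1 / q) ^ S1.card := by
    intro S1
    refine mul_le_mul_of_nonneg_right ?_ (by positivity)
    refine mu_mono h0.le h1.le fun Z hZ => ?_
    obtain ⟨a, b⟩ := Finset.mem_filter.mp hZ
    exact Finset.mem_inter.mpr ⟨mem_up.mpr (b ▸ Finset.inter_subset_left), a⟩
  have hqq : ∀ k : ℕ, q ^ k * (1 / q) ^ k = 1 := fun k => by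
    rw [← mul_pow, mul_one_div_cancel h0.ne', one_pow]
  have hm1 : ∀ S1, m S1 ≤ 1 := by
    intro S1
    refine (hmle S1).trans ?_
    have a : mu q (up S1 ∩ D) ≤ q ^ S1.card := by
      rw [← mu_up q S1]
      exact mu_mono h0.le h1.le (Finset.inter_subset_left (s₂ := D))
    exact (mul_le_mul_of_nonneg_right a (by positivity)).trans (hqq _).le
  have hmγ : ∀ S1, ¬ Rich q γ D S1 → m S1 ≤ γ := by
    intro S1 h
    refine (hmle S1).trans ?_
    have := (not_le.mp h).le
    calc mu q (up S1 ∩ D) * (1 / q) ^ S1.card ≤ γ * q ^ S1.card * (1 / q) ^ S1.card := by gcongr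
      _ = γ := by rw [mul_assoc, hqq, mul_one]
  calc ∑ Z ∈ D, ∑ Z' ∈ D, wt q Z * wt q Z' *
          ∏ x ∈ S, (1 + (-(1 / q ^ 2)) * (xi q Z x * xi q Z' x))
      ≤ ∑ Z ∈ D, ∑ Z' ∈ D, wt q Z * wt q Z' *
          (if Z ∩ S ∪ Z' ∩ S = S then (1 / q) ^ (Z ∩ S).card * (1 / q) ^ (Z' ∩ S).card else 0) := by
        refine Finset.sum_le_sum fun Z _ => Finset.sum_le_sum fun Z' _ => ?_
        exact mul_le_mul_of_nonneg_left (factor_le h0 h1 S Z Z')
          (mul_nonneg (wt_nonneg h0.le h1.le _) (wt_nonneg h0.le h1.le _))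
    _ = ∑ S1 ∈ S.powerset, ∑ S2 ∈ S.powerset, if S1 ∪ S2 = S then m S1 * m S2 else 0 := by
        have hmaps : ∀ Z ∈ D, Z ∩ S ∈ S.powerset := fun Z _ =>
          Finset.mem_powerset.mpr Finset.inter_subset_right
        rw [← Finset.sum_fiberwise_of_maps_to hmaps]
        refine Finset.sum_congr rfl fun S1 _ => ?_
        have : ∀ Z ∈ D.filter (fun Z => Z ∩ S = S1), ∑ Z' ∈ D, wt q Z * wt q Z' *
            (if Z ∩ S ∪ Z' ∩ S = S then (1 / q) ^ (Z ∩ S).card * (1 / q) ^ (Z' ∩ S).card else 0)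
            = ∑ S2 ∈ S.powerset, if S1 ∪ S2 = S then wt q Z * (1 / q) ^ S1.card * m S2 else 0 := by
          intro Z hZ
          rw [(Finset.mem_filter.mp hZ).2, ← Finset.sum_fiberwise_of_maps_to hmaps]
          refine Finset.sum_congr rfl fun S2 _ => ?_
          rw [Finset.sum_congr rfl (g := fun Z' => if S1 ∪ S2 = S then
            wt q Z * (1 / q) ^ S1.card * (wt q Z' * (1 / q) ^ S2.card) else 0)]
          · split_ifs
            · rw [hm]; simp only [Finset.sum_mul, Finset.mul_sum]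
            · simp
          · intro Z' hZ'
            rw [(Finset.mem_filter.mp hZ').2]
            split_ifs <;> ring
        rw [Finset.sum_congr rfl this, Finset.sum_comm]
        refine Finset.sum_congr rfl fun S2 _ => ?_
        split_ifs
        · rw [hm]; simp only [Finset.sum_mul]
        · simp
    _ ≤ ∑ S1 ∈ S.powerset, ((S.powerset.filter (fun S2 => S1 ∪ S2 = S)).card : ℝ) * γ := by
        refine Finset.sum_le_sum fun S1 _ => ?_
        rw [← Finset.sum_filter, ← nsmul_eq_mul]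
        refine Finset.sum_le_card_nsmul _ _ _ fun S2 h2 => ?_
        rcases not_and_or.mp (hS S1 S2 (Finset.mem_filter.mp h2).2) with h | h
        · calc m S1 * m S2 ≤ γ * 1 := mul_le_mul (hmγ _ h) (hm1 _) (hm0 _) hγ
            _ = γ := mul_one _
        · calc m S1 * m S2 ≤ 1 * γ := mul_le_mul (hm1 _) (hmγ _ h) (hm0 _) zero_le_one
            _ = γ := one_mul _
    _ ≤ 3 ^ S.card * γ := by
        rw [← Finset.sum_mul]
        exact mul_le_mul_of_nonneg_right (card_pairs S) hγ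

/-- Robust Hoffman bound. -/
lemma uncovered_le {β : Type*} (U : Finset β) (S : β → Finset α) {q γ : ℝ} (h0 : 0 < q)
    (h1 : q < 1) (hγ : 0 ≤ γ) (hγ3 : ∀ b ∈ U, 3 ^ (S b).card * γ ≤ 1 / 8)
    (N ρ : ℝ) (hN : 0 ≤ N) (hρ0 : 0 ≤ ρ) (hρq : ρ ≤ q)
    (hcod : ∀ T : Finset α, T.Nonempty →
      ((U.filter (fun b => T ⊆ S b)).card : ℝ) ≤ N * ρ ^ T.card)
    (D : Finset (Finset α)) (hD : 1 / 2 ≤ mu q D)
    (hU : ∀ b ∈ U, ∀ S1 S2, S1 ∪ S2 = S b → ¬ (Rich q γ D S1 ∧ Rich q γ D S2)) :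
    (U.card : ℝ) ≤ 8 * (N * (ρ / q)) * (1 - mu q D) := by
  have h2 : ∀ b ∈ U, (1 / 8 : ℝ) ≤ ∑ T ∈ univ.erase (∅ : Finset α),
      if T ⊆ S b then (1 / q ^ 2) ^ T.card * coef q D T ^ 2 else 0 := by
    intro b hb
    have a1 := hoff_ge q D (S b)
    have a2 := poor_le h0 h1 hγ D (S b) (hU b hb)
    have a3 := hγ3 b hb
    rw [← Finset.sum_filter]
    have : (univ.erase (∅ : Finset α)).filter (fun T => T ⊆ S b) = (S b).powerset.erase ∅ := by
      ext T; simp
    rw [this]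
    nlinarith
  have h3 := Finset.sum_le_sum h2
  rw [Finset.sum_const, nsmul_eq_mul, Finset.sum_comm] at h3
  have hp := parseval h0 h1 D
  rw [← Finset.add_sum_erase _ _ (Finset.mem_univ (∅ : Finset α)), coef_empty] at hp
  simp only [Finset.card_empty, pow_zero, one_mul] at hp
  have h4 : ∑ T ∈ univ.erase (∅ : Finset α), ∑ b ∈ U,
      (if T ⊆ S b then (1 / q ^ 2) ^ T.card * coef q D T ^ 2 else 0)
      ≤ ∑ T ∈ univ.erase (∅ : Finset α),
        N * (ρ / q) * ((1 / (q * (1 - q))) ^ T.card * coef q D T ^ 2) := by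
    refine Finset.sum_le_sum fun T hT => ?_
    have hne : T.Nonempty := Finset.nonempty_iff_ne_empty.mpr (Finset.ne_of_mem_erase hT)
    rw [← Finset.sum_filter, Finset.sum_const, nsmul_eq_mul]
    have hc := hcod T hne
    obtain ⟨k, hk⟩ : ∃ k, T.card = k + 1 := ⟨T.card - 1, by have := hne.card_pos; omega⟩
    have hrq : ρ / q ≤ 1 := (div_le_one h0).mpr hρq
    have hrq0 : 0 ≤ ρ / q := div_nonneg hρ0 h0.le
    have e1 : ρ ^ T.card * (1 / q ^ 2) ^ T.card = (ρ / q) ^ T.card * (1 / q) ^ T.card := by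
      rw [← mul_pow, ← mul_pow]; congr 1; field_simp
    have e2 : (ρ / q) ^ T.card ≤ ρ / q := by
      rw [hk, pow_succ]; exact mul_le_of_le_one_left hrq0 (pow_le_one₀ hrq0 hrq)
    have e3 : (1 / q) ^ T.card ≤ (1 / (q * (1 - q))) ^ T.card := by
      refine pow_le_pow_left₀ (by positivity) ?_ _
      exact one_div_le_one_div_of_le (mul_pos h0 (by linarith)) (by nlinarith)
    calc ((U.filter (fun b => T ⊆ S b)).card : ℝ) * ((1 / q ^ 2) ^ T.card * coef q D T ^ 2)
        ≤ N * ρ ^ T.card * ((1 / q ^ 2) ^ T.card * coef q D T ^ 2) := by gcongr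
      _ = N * ((ρ / q) ^ T.card * (1 / q) ^ T.card) * coef q D T ^ 2 := by rw [← e1]; ring
      _ ≤ N * ((ρ / q) * (1 / (q * (1 - q))) ^ T.card) * coef q D T ^ 2 := by gcongr
      _ = _ := by ring
  rw [← Finset.mul_sum] at h4
  have h5 : ∑ T ∈ univ.erase (∅ : Finset α), (1 / (q * (1 - q))) ^ T.card * coef q D T ^ 2
      ≤ 1 - mu q D := by
    have := mu_le_one h0.le h1.le D
    nlinarith
  have h6 : 0 ≤ N * (ρ / q) := mul_nonneg hN (div_nonneg hρ0 h0.le)
  have h7 := mul_le_mul_of_nonneg_left h5 h6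
  linarith

end Crest.Agent.R52.Sp
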