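import Crest.Agent.R52.Defs
import Crest.Agent.R52.SplitH

set_option autoImplicit false
set_option linter.unusedSectionVars false

namespace Crest.Agent.R52

open Finset

namespace Sp

variable {α : Type*} [Fintype α] [DecidableEq α]

/-- a strategy: two parts and a family -/
abbrev St (α : Type*) := Finset α × Finset α × Finset (Finset α)

/-- normalised indicator -/
noncomputable def nind (q : ℝ) (A : Finset (Finset α)) (Z : Finset α) : ℝ :=
  if Z ∈ A then 1 / mu q A else 0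

noncomputable def occ (q : ℝ) (s : St α) (Z : Finset α) : ℝ :=
  nind q (up s.1 ∩ s.2.2) Z + nind q (up s.2.1 ∩ s.2.2) Z

lemma nind_nonneg {q : ℝ} (h0 : 0 ≤ q) (h1 : q ≤ 1) (A : Finset (Finset α)) (Z : Finset α) :
    0 ≤ nind q A Z := by
  unfold nind; split_ifs
  · exact div_nonneg zero_le_one (mu_nonneg h0 h1 A)
  · exact le_rfl

lemma sum_nind_on {q : ℝ} (A B : Finset (Finset α)) :
    ∑ Z ∈ B, wt q Z * nind q A Z = mu q (A ∩ B) / mu q A := by
  simp only [nind, mul_ite, mul_zero]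
  rw [← Finset.sum_filter, ← Finset.sum_mul, mul_one_div]
  congr 2
  ext Z; simp [and_comm]

lemma sum_nind {q : ℝ} (A : Finset (Finset α)) (hA : 0 < mu q A) :
    ∑ Z, wt q Z * nind q A Z = 1 := by
  rw [sum_nind_on, Finset.inter_univ, div_self hA.ne']

lemma nind_le {q δ : ℝ} (hδ : 0 < δ) (A : Finset (Finset α)) (hA : 2 * δ ≤ mu q A)
    (Z : Finset α) : nind q A Z ≤ 1 / (2 * δ) := by
  unfold nind; split_ifs
  · exact one_div_le_one_div_of_le (by positivity) hA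
  · positivity

/-- validity of a strategy for the set `S` -/
def Valid (q δ : ℝ) (S : Finset α) (s : St α) : Prop :=
  s.1 ∪ s.2.1 = S ∧ 2 * δ ≤ mu q (up s.1 ∩ s.2.2) ∧ 2 * δ ≤ mu q (up s.2.1 ∩ s.2.2)

lemma occ_nonneg {q : ℝ} (h0 : 0 ≤ q) (h1 : q ≤ 1) (s : St α) (Z : Finset α) : 0 ≤ occ q s Z :=
  add_nonneg (nind_nonneg h0 h1 _ _) (nind_nonneg h0 h1 _ _)

lemma occ_le {q δ : ℝ} (hδ : 0 < δ) {S : Finset α} {s : St α} (h : Valid q δ S s) (Z : Finset α) :
    occ q s Z ≤ 1 / δ := by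
  have a := nind_le hδ _ h.2.1 Z
  have b := nind_le hδ _ h.2.2 Z
  have : 1 / (2 * δ) + 1 / (2 * δ) = 1 / δ := by field_simp; ring
  unfold occ; linarith

lemma sum_occ {q δ : ℝ} (hδ : 0 < δ) {S : Finset α} {s : St α} (h : Valid q δ S s) :
    ∑ Z, wt q Z * occ q s Z = 2 := by
  simp only [occ, mul_add, Finset.sum_add_distrib]
  rw [sum_nind _ (by linarith [h.2.1]), sum_nind _ (by linarith [h.2.2])]
  norm_num

lemma occ_eq_zero {q : ℝ} {s : St α} {Z : Finset α} (h : Z ∉ s.2.2) : occ q s Z = 0 := by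
  simp [occ, nind, h]

/-- one deviation -/
lemma deviate {q δ : ℝ} (h0 : 0 ≤ q) (h1 : q ≤ 1) (hδ : 0 < δ) (ℓ o ν : Finset α → ℝ) (τ : ℝ)
    (ho0 : ∀ Z, 0 ≤ o Z) (ho1 : ∀ Z, o Z ≤ 1 / δ) (hν0 : ∀ Z, 0 ≤ ν Z) (hν1 : ∀ Z, ν Z ≤ 1 / δ)
    (hνs : ∀ Z, τ < ℓ Z → ν Z = 0) (hν2 : ∑ Z, wt q Z * ν Z = 2)
    (hmin : ∑ Z, wt q Z * Real.exp (8 * ℓ Z) ≤ ∑ Z, wt q Z * Real.exp (8 * (ℓ Z - o Z + ν Z))) :
    ∑ Z, wt q Z * (if τ + 3 / δ ≤ ℓ Z then o Z else 0) ≤ δ / 4 := by
  have key : ∀ Z, Real.exp (8 * (ℓ Z - o Z + ν Z)) - Real.exp (8 * ℓ Z)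
      ≤ 8 * (Real.exp (8 * (τ + 1 / δ)) * ν Z
        - Real.exp (8 * (τ + 2 / δ)) * (if τ + 3 / δ ≤ ℓ Z then o Z else 0)) := by
    intro Z
    set y := ℓ Z - o Z + ν Z with hy
    have c1 : Real.exp (8 * y) - Real.exp (8 * ℓ Z) ≤ Real.exp (8 * y) * (8 * (ν Z - o Z)) := by
      have a := Real.add_one_le_exp (8 * ℓ Z - 8 * y)
      have b : Real.exp (8 * ℓ Z) = Real.exp (8 * y) * Real.exp (8 * ℓ Z - 8 * y) := by
        rw [← Real.exp_add]; congr 1; ring
      have c := mul_le_mul_of_nonneg_left a (Real.exp_pos (8 * y)).le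
      have d : 8 * ℓ Z - 8 * y = -(8 * (ν Z - o Z)) := by rw [hy]; ring
      rw [b]; rw [d] at c ⊢; linarith
    have c2 : Real.exp (8 * y) * ν Z ≤ Real.exp (8 * (τ + 1 / δ)) * ν Z := by
      by_cases h : τ < ℓ Z
      · simp [hνs Z h]
      · refine mul_le_mul_of_nonneg_right (Real.exp_le_exp.mpr ?_) (hν0 Z)
        have := ho0 Z; have := hν1 Z
        push Not at h
        rw [hy]; linarith
    have c3 : Real.exp (8 * (τ + 2 / δ)) * (if τ + 3 / δ ≤ ℓ Z then o Z else 0)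
        ≤ Real.exp (8 * y) * o Z := by
      split_ifs with h
      · refine mul_le_mul_of_nonneg_right (Real.exp_le_exp.mpr ?_) (ho0 Z)
        have := ho1 Z; have := hν0 Z
        have e : 3 / δ = 2 / δ + 1 / δ := by ring
        rw [hy]; linarith
      · rw [mul_zero]; exact mul_nonneg (Real.exp_pos _).le (ho0 Z)
    nlinarith
  have h2 := Finset.sum_le_sum fun Z (_ : Z ∈ (univ : Finset (Finset α))) =>
    mul_le_mul_of_nonneg_left (key Z) (wt_nonneg h0 h1 Z)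
  set M := ∑ Z, wt q Z * (if τ + 3 / δ ≤ ℓ Z then o Z else 0) with hM
  have e1 : ∑ Z, wt q Z * (8 * (Real.exp (8 * (τ + 1 / δ)) * ν Z
        - Real.exp (8 * (τ + 2 / δ)) * (if τ + 3 / δ ≤ ℓ Z then o Z else 0)))
      = 8 * (Real.exp (8 * (τ + 1 / δ)) * 2 - Real.exp (8 * (τ + 2 / δ)) * M) := by
    rw [← hν2, hM, Finset.mul_sum, Finset.mul_sum, ← Finset.sum_sub_distrib, Finset.mul_sum]
    exact Finset.sum_congr rfl fun Z _ => by ring
  simp only [mul_sub (wt q _), Finset.sum_sub_distrib] at h2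
  rw [e1] at h2
  have e2 : Real.exp (8 * (τ + 2 / δ)) = Real.exp (8 * (τ + 1 / δ)) * Real.exp (8 / δ) := by
    rw [← Real.exp_add]; congr 1; ring
  have h3 : Real.exp (8 / δ) * M ≤ 2 := by
    have hp := Real.exp_pos (8 * (τ + 1 / δ))
    rw [e2] at h2
    by_contra hc
    push Not at hc
    nlinarith
  have h4 : 8 / δ ≤ Real.exp (8 / δ) := by linarith [Real.add_one_le_exp (8 / δ)]
  have hM0 : 0 ≤ M := Finset.sum_nonneg fun Z _ => mul_nonneg (wt_nonneg h0 h1 Z) (by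
    split_ifs
    · exact ho0 Z
    · exact le_rfl)
  have h5 : 8 / δ * M ≤ 2 := (mul_le_mul_of_nonneg_right h4 hM0).trans h3
  rw [div_mul_eq_mul_div, div_le_iff₀ hδ] at h5
  linarith

open Classical in
theorem split_univ {β : Type*} [Fintype β] [DecidableEq β]
    (S : β → Finset α) (d : ℕ) (hd : ∀ b, (S b).card ≤ d)
    (q : ℝ) (hq0 : 0 < q) (hq1 : q < 1) (N ρ E δ : ℝ) (hN : 0 ≤ N) (hρ0 : 0 ≤ ρ) (hρq : ρ ≤ q)
    (hE0 : 0 < E) (hBE : (Fintype.card β : ℝ) ≤ E) (hρE : 8 * ρ * N ≤ q * E)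
    (hcod : ∀ T : Finset α, T.Nonempty →
      ((univ.filter (fun b => T ⊆ S b)).card : ℝ) ≤ N * ρ ^ T.card)
    (hδ0 : 0 < δ) (hδ : 16 * 3 ^ d * δ ≤ q ^ d) (J : ℕ) (hJ1 : (1 / 2 : ℝ) ^ J ≤ δ / 4)
    (hJ2 : 3 * (J : ℝ) ≤ δ * E) :
    ∃ S' : Bool → β → Finset α, (∀ b, S' true b ∪ S' false b = S b) ∧
      ∀ (l : Bool) (𝒜 : Finset (Finset α)), δ ≤ mu q 𝒜 →
        ((univ.filter (fun b => mu q (up (S' l b) \ 𝒜) < δ)).card : ℝ) ≤ 12 * E * mu q 𝒜 := by
  have hqd : 0 < q ^ d := pow_pos hq0 d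
  set γ : ℝ := 2 * δ / q ^ d with hγ
  have hγ0 : 0 ≤ γ := by positivity
  have h3d : (1 : ℝ) ≤ 3 ^ d := one_le_pow₀ (by norm_num)
  have hrich : ∀ (D : Finset (Finset α)) (S1 : Finset α), S1.card ≤ d → Rich q γ D S1 →
      2 * δ ≤ mu q (up S1 ∩ D) := by
    intro D S1 hc h
    refine le_trans ?_ h
    have : q ^ d ≤ q ^ S1.card := pow_le_pow_of_le_one hq0.le hq1.le hc
    calc 2 * δ = γ * q ^ d := by rw [hγ]; field_simp
      _ ≤ γ * q ^ S1.card := by gcongr
  set ld : (β → St α) → Finset α → ℝ := fun σ Z => ∑ b, occ q (σ b) Z with hld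
  obtain ⟨σ, hσ, hmin⟩ := Finset.exists_min_image
    (univ.filter fun σ : β → St α => ∀ b, Valid q δ (S b) (σ b))
    (fun σ => ∑ Z, wt q Z * Real.exp (8 * ld σ Z)) ⟨fun b => (S b, S b, univ), by
      refine Finset.mem_filter.mpr ⟨Finset.mem_univ _, fun b => ?_⟩
      have : 2 * δ ≤ mu q (up (S b) ∩ univ) := by
        rw [Finset.inter_univ, mu_up]
        have : q ^ d ≤ q ^ (S b).card := pow_le_pow_of_le_one hq0.le hq1.le (hd b)
        nlinarith
      exact ⟨Finset.union_self _, this, this⟩⟩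
  have hv : ∀ b, Valid q δ (S b) (σ b) := (Finset.mem_filter.mp hσ).2
  set ℓ := ld σ with hℓ
  have hℓ0 : ∀ Z, 0 ≤ ℓ Z := fun Z => Finset.sum_nonneg fun b _ => occ_nonneg hq0.le hq1.le _ _
  set M : ℝ → ℝ := fun c => ∑ Z, wt q Z * (if c ≤ ℓ Z then ℓ Z else 0) with hM
  have hMsum : ∀ c, M c = ∑ b, ∑ Z, wt q Z * (if c ≤ ℓ Z then occ q (σ b) Z else 0) := by
    intro c
    rw [Finset.sum_comm]
    refine Finset.sum_congr rfl fun Z _ => ?_
    rw [← Finset.mul_sum]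
    congr 1
    split_ifs
    · rfl
    · simp
  have hb2 : ∀ c b, ∑ Z, wt q Z * (if c ≤ ℓ Z then occ q (σ b) Z else 0) ≤ 2 := by
    intro c b
    rw [← sum_occ hδ0 (hv b)]
    refine Finset.sum_le_sum fun Z _ => mul_le_mul_of_nonneg_left ?_ (wt_nonneg hq0.le hq1.le Z)
    split_ifs
    · exact le_rfl
    · exact occ_nonneg hq0.le hq1.le _ _
  have hM2 : ∀ c, M c ≤ 2 * E := by
    intro c
    rw [hMsum]
    refine (Finset.sum_le_sum fun b _ => hb2 c b).trans ?_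
    rw [Finset.sum_const, nsmul_eq_mul, Finset.card_univ]
    linarith
  have hstep : ∀ τ, 4 * E ≤ τ → M (τ + 3 / δ) ≤ M τ / 2 + δ / 4 * E := by
    intro τ hτ
    set D : Finset (Finset α) := univ.filter fun Z => ℓ Z ≤ τ with hD
    have hDc : τ * (1 - mu q D) ≤ M τ := by
      rw [← sum_wt (α := α) q, mu, hD, Finset.sum_filter, ← Finset.sum_sub_distrib, Finset.mul_sum]
      refine Finset.sum_le_sum fun Z _ => ?_
      have := wt_nonneg hq0.le hq1.le Z
      have := hℓ0 Z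
      split_ifs with a b b
      · nlinarith
      · simp
      · push Not at a; nlinarith
      · push Not at a b; linarith
    have hD1 := mu_le_one hq0.le hq1.le D
    have hDE : 4 * E * (1 - mu q D) ≤ M τ := le_trans (by gcongr) hDc
    have hD2 : 1 / 2 ≤ mu q D := by
      have := hM2 τ
      by_contra hc
      push Not at hc
      nlinarith
    set U : Finset β := univ.filter fun b =>
      ∀ S1 S2, S1 ∪ S2 = S b → ¬ (Rich q γ D S1 ∧ Rich q γ D S2) with hU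
    have hUc := uncovered_le U S hq0 hq1 hγ0 (fun b _ => by
        have : (3 : ℝ) ^ (S b).card ≤ 3 ^ d := pow_le_pow_right₀ (by norm_num) (hd b)
        calc (3 : ℝ) ^ (S b).card * γ ≤ 3 ^ d * γ := by gcongr
          _ = 2 * (3 ^ d * δ) / q ^ d := by rw [hγ]; ring
          _ ≤ 1 / 8 := by rw [div_le_iff₀ hqd]; linarith) N ρ hN hρ0 hρq
      (fun T hT => le_trans (by
        exact_mod_cast Finset.card_le_card (Finset.filter_subset_filter _ (Finset.subset_univ U)))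
        (hcod T hT)) D hD2 (fun b hb => (Finset.mem_filter.mp hb).2)
    have hNE : 8 * (N * (ρ / q)) ≤ E := by
      rw [← mul_div_assoc, ← mul_div_assoc, div_le_iff₀ hq0]; linarith
    have hUE : (U.card : ℝ) ≤ E * (1 - mu q D) := hUc.trans (by gcongr)
    have hper : ∀ b, ∑ Z, wt q Z * (if τ + 3 / δ ≤ ℓ Z then occ q (σ b) Z else 0)
        ≤ (if b ∈ U then 2 else 0) + δ / 4 := by
      intro b
      split_ifs with hb
      · have := hb2 (τ + 3 / δ) b
        linarith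
      · rw [zero_add]
        have hb' : ∃ S1 S2, S1 ∪ S2 = S b ∧ Rich q γ D S1 ∧ Rich q γ D S2 := by
          by_contra hc
          exact hb (Finset.mem_filter.mpr ⟨Finset.mem_univ _, fun S1 S2 h h' =>
            hc ⟨S1, S2, h, h'⟩⟩)
        obtain ⟨S1, S2, h12, r1, r2⟩ := hb'
        have hval : Valid q δ (S b) (S1, S2, D) :=
          ⟨h12, hrich D S1 ((Finset.card_le_card (h12 ▸ Finset.subset_union_left)).trans (hd b)) r1,
            hrich D S2 ((Finset.card_le_card (h12 ▸ Finset.subset_union_right)).trans (hd b)) r2⟩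
        refine deviate hq0.le hq1.le hδ0 ℓ (occ q (σ b)) (occ q (S1, S2, D)) τ
          (occ_nonneg hq0.le hq1.le _) (occ_le hδ0 (hv b)) (occ_nonneg hq0.le hq1.le _)
          (occ_le hδ0 hval) (fun Z hZ => occ_eq_zero (by simpa [hD] using hZ))
          (sum_occ hδ0 hval) ?_
        have h := hmin (Function.update σ b (S1, S2, D)) (Finset.mem_filter.mpr
          ⟨Finset.mem_univ _, fun b' => by
            by_cases e : b' = b
            · subst e; simpa using hval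
            · simpa [Function.update_of_ne e] using hv b'⟩)
        refine h.trans (le_of_eq (Finset.sum_congr rfl fun Z _ => ?_))
        congr 3
        simp only [hℓ, hld]
        rw [← Finset.add_sum_erase _ _ (Finset.mem_univ b),
          ← Finset.add_sum_erase _ (fun b' => occ q (σ b') Z) (Finset.mem_univ b),
          Finset.sum_congr rfl (fun b' hb' => by
            rw [Function.update_of_ne (Finset.ne_of_mem_erase hb')])]
        simp only [Function.update_self]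
        ring
    rw [hMsum]
    refine (Finset.sum_le_sum fun b _ => hper b).trans ?_
    rw [Finset.sum_add_distrib, ← Finset.sum_filter, Finset.filter_mem_eq_inter, Finset.univ_inter,
      Finset.sum_const, Finset.sum_const, nsmul_eq_mul, nsmul_eq_mul, Finset.card_univ]
    nlinarith
  have hiter : ∀ j : ℕ, M (4 * E + j * (3 / δ)) ≤ (1 / 2) ^ j * (2 * E) + δ / 2 * E := by
    intro j
    induction j with
    | zero => have := hM2 (4 * E); simp only [Nat.cast_zero, zero_mul, add_zero, pow_zero]; nlinarith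
    | succ j ih =>
      have := hstep (4 * E + j * (3 / δ)) (by
        have : (0 : ℝ) ≤ j * (3 / δ) := by positivity
        linarith)
      have e : 4 * E + ((j + 1 : ℕ) : ℝ) * (3 / δ) = 4 * E + j * (3 / δ) + 3 / δ := by
        push_cast; ring
      rw [e, pow_succ]
      linarith
  set c : ℝ := 4 * E + J * (3 / δ) with hc
  have hc5 : c ≤ 5 * E := by
    have : J * (3 / δ) ≤ E := by
      rw [← mul_div_assoc, div_le_iff₀ hδ0]; linarith
    linarith
  have hc0 : 0 ≤ c := by positivity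
  have hMc : M c ≤ δ * E := by
    have := hiter J
    nlinarith
  refine ⟨fun l b => if l then (σ b).1 else (σ b).2.1, fun b => (hv b).1, fun l 𝒜 h𝒜 => ?_⟩
  set X := univ.filter (fun b => mu q (up (if l then (σ b).1 else (σ b).2.1) \ 𝒜) < δ) with hX
  have hlow : ∀ b ∈ X, (1 / 2 : ℝ) ≤ ∑ Z ∈ 𝒜, wt q Z * occ q (σ b) Z := by
    intro b hb
    have hb' := (Finset.mem_filter.mp hb).2
    set P := (if l then (σ b).1 else (σ b).2.1) with hP
    have h2 : 2 * δ ≤ mu q (up P ∩ (σ b).2.2) := by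
      cases l
      · exact (hv b).2.2
      · exact (hv b).2.1
    have h3 : ∑ Z ∈ 𝒜, wt q Z * nind q (up P ∩ (σ b).2.2) Z ≤ ∑ Z ∈ 𝒜, wt q Z * occ q (σ b) Z := by
      refine Finset.sum_le_sum fun Z _ => mul_le_mul_of_nonneg_left ?_ (wt_nonneg hq0.le hq1.le Z)
      cases l
      · exact le_add_of_nonneg_left (nind_nonneg hq0.le hq1.le _ _)
      · exact le_add_of_nonneg_right (nind_nonneg hq0.le hq1.le _ _)
    refine le_trans ?_ h3
    rw [sum_nind_on, le_div_iff₀ (by linarith)]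
    have h4 : mu q (up P ∩ (σ b).2.2) ≤ mu q (up P ∩ (σ b).2.2 ∩ 𝒜) + mu q (up P \ 𝒜) := by
      rw [mu, ← Finset.sum_inter_add_sum_sdiff (up P ∩ (σ b).2.2) 𝒜]
      gcongr
      · exact le_rfl
      · exact mu_mono hq0.le hq1.le (Finset.sdiff_subset_sdiff Finset.inter_subset_left
          Finset.Subset.rfl)
    linarith
  have hup : ∑ b, ∑ Z ∈ 𝒜, wt q Z * occ q (σ b) Z ≤ c * mu q 𝒜 + M c := by
    rw [Finset.sum_comm]
    have : ∀ Z ∈ 𝒜, ∑ b, wt q Z * occ q (σ b) Z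
        ≤ c * wt q Z + wt q Z * (if c ≤ ℓ Z then ℓ Z else 0) := by
      intro Z _
      rw [← Finset.mul_sum]
      change wt q Z * ℓ Z ≤ _
      have := wt_nonneg hq0.le hq1.le Z
      split_ifs with h
      · nlinarith
      · push Not at h; nlinarith
    refine (Finset.sum_le_sum this).trans ?_
    rw [Finset.sum_add_distrib, ← Finset.mul_sum]
    gcongr
    · exact le_rfl
    · refine Finset.sum_le_sum_of_subset_of_nonneg (Finset.subset_univ _) fun Z _ _ =>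
        mul_nonneg (wt_nonneg hq0.le hq1.le Z) ?_
      split_ifs
      · exact hℓ0 Z
      · exact le_rfl
  have h5 := Finset.sum_le_sum hlow
  rw [Finset.sum_const, nsmul_eq_mul] at h5
  have h6 : ∑ b ∈ X, ∑ Z ∈ 𝒜, wt q Z * occ q (σ b) Z ≤ ∑ b, ∑ Z ∈ 𝒜, wt q Z * occ q (σ b) Z :=
    Finset.sum_le_sum_of_subset_of_nonneg (Finset.subset_univ _) fun b _ _ =>
      Finset.sum_nonneg fun Z _ => mul_nonneg (wt_nonneg hq0.le hq1.le Z)
        (occ_nonneg hq0.le hq1.le _ _)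
  have h7 : c * mu q 𝒜 ≤ 5 * E * mu q 𝒜 := by
    have := mu_nonneg hq0.le hq1.le 𝒜
    gcongr
  have h8 : δ * E ≤ mu q 𝒜 * E := by gcongr
  linarith

end Sp

/-- Robust Hoffman split (task R52-Split). -/
theorem split {α β : Type*} [Fintype α] [DecidableEq α] [DecidableEq β]
    (B : Finset β) (S : β → Finset α) (d : ℕ) (hd : ∀ b ∈ B, (S b).card ≤ d)
    (q : ℝ) (hq0 : 0 < q) (hq1 : q < 1) (N ρ E δ : ℝ) (hN : 0 ≤ N) (hρ0 : 0 ≤ ρ) (hρq : ρ ≤ q)
    (hE0 : 0 < E) (hBE : (B.card : ℝ) ≤ E) (hρE : 8 * ρ * N ≤ q * E)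
    (hcod : ∀ T : Finset α, T.Nonempty →
      ((B.filter (fun b => T ⊆ S b)).card : ℝ) ≤ N * ρ ^ T.card)
    (hδ0 : 0 < δ) (hδ : 16 * 3 ^ d * δ ≤ q ^ d) (J : ℕ) (hJ1 : (1 / 2 : ℝ) ^ J ≤ δ / 4)
    (hJ2 : 3 * (J : ℝ) ≤ δ * E) :
    ∃ S' : Bool → β → Finset α, (∀ b ∈ B, S' true b ∪ S' false b = S b) ∧
      ∀ (l : Bool) (𝒜 : Finset (Finset α)), δ ≤ mu q 𝒜 →
        ((B.filter (fun b => mu q (up (S' l b) \ 𝒜) < δ)).card : ℝ) ≤ 12 * E * mu q 𝒜 := by
  classical
  have hcard : ∀ (P : β → Prop) [DecidablePred P],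
      (univ.filter (fun b : B => P b)).card = (B.filter P).card := by
    intro P _
    rw [Finset.univ_eq_attach, Finset.filter_attach, Finset.card_map, Finset.card_attach]
  obtain ⟨S', h1, h2⟩ := Sp.split_univ (β := B) (fun b => S b) d (fun b => hd b b.2) q hq0 hq1
    N ρ E δ hN hρ0 hρq hE0 (by simpa using hBE) hρE (fun T hT => by
      rw [hcard (fun b => T ⊆ S b)]; exact hcod T hT) hδ0 hδ J hJ1 hJ2
  refine ⟨fun l b => if h : b ∈ B then S' l ⟨b, h⟩ else ∅, fun b hb => by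
    simpa [hb] using h1 ⟨b, hb⟩, fun l 𝒜 h𝒜 => ?_⟩
  rw [← hcard]
  simpa using h2 l 𝒜 h𝒜

end Crest.Agent.R52
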