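import Crest.Agent.R52.Case1
import Crest.Agent.R52.Layer
import Crest.Agent.R52.Hall
import Crest.Agent.R52.Split

set_option autoImplicit false
set_option linter.unusedSectionVars false

namespace Crest.Agent.R52

open Finset

variable {W : Type} [Fintype W] [DecidableEq W]

theorem bip_piece {H : SimpleGraph W} {n : ℕ} {p q : ℝ} (h : NoCover H n p) (hp : 0 < p)
    (hq1 : q ≤ 1 / 2) (hpq : 10 ^ 9 * p ≤ q) (v : ℝ) (hv : 2 ^ 11 ≤ v)
    (hv2 : v ^ 20 ≤ 2 ^ 21 * n) (t : ℕ) (ht : (t : ℝ) ≤ v) (ht2 : 2 * n ≤ 2 ^ t)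
    (d : ℕ) (hdv : (d : ℝ) ≤ v) (hpd : 1 / v ≤ p ^ d) (J : ℕ) (hJ : (J : ℝ) ≤ v)
    (hJ2 : 64 * v ^ 2 ≤ 2 ^ J) (A B : Finset W) (hAB : Disjoint A B)
    (hA : (A.card : ℝ) ≤ v ^ 11) (hB : B.card ≤ n / 128 + 1) (S : W → Finset W)
    (hSA : ∀ b, S b ⊆ A) (hSd : ∀ b, (S b).card ≤ d) (hadj : ∀ b, ∀ a ∈ S b, H.Adj b a) :
    ∃ D : Bool → W → Finset W, (∀ l, (∀ u, u ∉ A ∪ B → D l u = ∅) ∧
      (∀ u, ∀ x ∈ D l u, x ∈ A ∪ B) ∧ 1 / 2 ≤ prob (wt q) (Emb (n := n) (D l) (A ∪ B))) ∧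
      ∀ b ∈ B, ∀ a ∈ S b, ∃ l, a ∈ D l b := by
  classical
  have hv0 : 0 < v := by linarith [show (0 : ℝ) < 2 ^ 11 by norm_num]
  have hv1 : 1 ≤ v := by linarith [show (1 : ℝ) ≤ 2 ^ 11 by norm_num]
  have hq0 : 0 < q := by linarith [show (0 : ℝ) < 10 ^ 9 * p by positivity]
  have hpq' : p ≤ q := by nlinarith
  have hp3 : p ≤ 1 / 10 ^ 9 := by rw [le_div_iff₀ (by norm_num)]; linarith
  -- `n` is large
  have hv4 : (2 : ℝ) ^ 44 ≤ v ^ 4 := by
    calc (2 : ℝ) ^ 44 = (2 ^ 11) ^ 4 := by norm_num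
      _ ≤ v ^ 4 := by gcongr
  have hnv : 2 ^ 23 * v ^ 16 ≤ n := by
    have : 2 ^ 44 * v ^ 16 ≤ v ^ 20 := by
      calc 2 ^ 44 * v ^ 16 ≤ v ^ 4 * v ^ 16 := by gcongr
        _ = v ^ 20 := by ring
    linarith
  have hpow : ∀ k : ℕ, k ≤ 16 → v ^ k ≤ v ^ 16 := fun k hk => pow_le_pow_right₀ hv1 hk
  have h16 : 1 ≤ v ^ 16 := one_le_pow₀ hv1
  have hn0 : (0 : ℝ) < n := by linarith [show (0 : ℝ) < 2 ^ 23 * v ^ 16 by positivity]
  have hAn : 2 * (A.card : ℝ) ≤ n := by linarith [hpow 11 (by norm_num)]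
  have hm : A.card < n := by
    have : (A.card : ℝ) < n := by linarith [show (0 : ℝ) ≤ A.card from Nat.cast_nonneg _]
    exact_mod_cast this
  let φ0 : W → Fin n := fun a =>
    if ha : a ∈ A then ⟨A.equivFin ⟨a, ha⟩, (A.equivFin ⟨a, ha⟩).2.trans hm⟩
      else ⟨0, by omega⟩
  have hφ0 : Set.InjOn φ0 A := by
    intro a ha b hb hab
    simp only [φ0, mem_coe.1 ha, mem_coe.1 hb, dif_pos, Fin.mk.injEq] at hab
    exact congrArg Subtype.val (A.equivFin.injective (Fin.ext hab))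
  have hφm : ∀ a ∈ A, (φ0 a : ℕ) < A.card := by
    intro a ha
    simp only [φ0, ha, dif_pos]
    exact (A.equivFin ⟨a, ha⟩).2
  set E : ℝ := ((n / 128 + 1 : ℕ) : ℝ) with hE
  have hE1 : (n : ℝ) / 128 ≤ E := by
    have : n ≤ 128 * (n / 128 + 1) := by omega
    have h2 : (n : ℝ) ≤ 128 * E := by rw [hE]; exact_mod_cast this
    linarith
  have hE2 : E ≤ n / 128 + 1 := by
    have h3 : ((n / 128 : ℕ) : ℝ) ≤ n / 128 := Nat.cast_div_le
    rw [hE]
    push_cast
    linarith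
  have hBE : (B.card : ℝ) ≤ E := by rw [hE]; exact_mod_cast hB
  set δ : ℝ := 1 / (16 * v ^ 2) with hδ
  have hδ0 : 0 < δ := by positivity
  have hqd : 1 / v ≤ q ^ d := hpd.trans (pow_le_pow_left₀ hp.le hpq' d)
  have h3d : (3 : ℝ) ^ d ≤ v := by
    have h1 : (3 : ℝ) ^ d * p ^ d ≤ 1 := by
      rw [← mul_pow]
      exact pow_le_one₀ (by positivity) (by linarith [show (1 : ℝ) / 10 ^ 9 ≤ 1 / 3 by norm_num])
    have h2 : (3 : ℝ) ^ d * (1 / v) ≤ 1 := le_trans (by gcongr) h1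
    rwa [mul_one_div, div_le_one hv0] at h2
  have hδq : 16 * 3 ^ d * δ ≤ q ^ d := by
    refine le_trans ?_ hqd
    calc 16 * 3 ^ d * δ ≤ 16 * v * δ := by gcongr
      _ = 1 / v := by rw [hδ]; field_simp
  obtain ⟨S', hS'1, hS'2⟩ := split B (fun b => (S b).image φ0) d
    (fun b _ => card_image_le.trans (hSd b)) q hq0 (by linarith) n (6 * p) E δ hn0.le
    (by positivity) (by nlinarith) (by linarith) hBE (by nlinarith) (by
      intro T hT
      set X := B.filter (fun b => T ⊆ (S b).image φ0) with hX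
      by_contra hcon
      push Not at hcon
      have hXpos : (0 : ℝ) < X.card := lt_of_le_of_lt (by positivity) hcon
      have hXpos' : 0 < X.card := by exact_mod_cast hXpos
      obtain ⟨b0, hb0⟩ := card_pos.1 hXpos'
      have hTb0 := (mem_filter.1 hb0).2
      set T0 := A.filter (fun a => φ0 a ∈ T) with hT0
      have hT0c : T0.card = T.card := by
        rw [← card_image_of_injOn (f := φ0) (hφ0.mono (by
          intro a ha; exact (mem_filter.1 (mem_coe.1 ha)).1))]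
        congr 1
        ext z
        simp only [hT0, mem_image, mem_filter]
        constructor
        · rintro ⟨a, ⟨_, h2⟩, rfl⟩
          exact h2
        · intro hz
          obtain ⟨a, ha, rfl⟩ := mem_image.1 (hTb0 hz)
          exact ⟨a, ⟨hSA b0 ha, hz⟩, rfl⟩
      have hτ : T.card ≤ d := (card_le_card hTb0).trans (card_image_le.trans (hSd b0))
      have hτ1 : 1 ≤ T.card := card_pos.2 hT
      have h1 := h.codeg hp.le T0 X (hAB.mono (filter_subset _ _) (filter_subset _ _)) (by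
        intro a ha b hb
        obtain ⟨a', ha', h2⟩ := mem_image.1 ((mem_filter.1 hb).2 (mem_filter.1 ha).2)
        have : a' = a := hφ0 (hSA b ha') (mem_filter.1 ha).1 h2
        exact (hadj b a (this ▸ ha')).symm) hXpos'
      rw [hT0c] at h1
      set τ := T.card
      have h2 : 3 * n * p ^ τ / X.card ≤ 1 / 2 := by
        rw [div_le_iff₀ hXpos]
        have h3 : (6 : ℝ) ^ 1 ≤ 6 ^ τ := pow_le_pow_right₀ (by norm_num) hτ1
        rw [mul_pow] at hcon
        have h4 : 0 ≤ n * p ^ τ := by positivity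
        nlinarith
      have h3 : (n : ℝ) ^ τ * (3 * n * p ^ τ / X.card) ^ X.card ≤
          (n : ℝ) ^ τ * (1 / 2) ^ X.card := by gcongr
      have h4 : (2 : ℝ) ^ X.card < 2 ^ (t * τ) := by
        have h5 : (2 : ℝ) ^ X.card < 2 * (n : ℝ) ^ τ := by
          have h6 := h1.trans_le h3
          rw [one_div, inv_pow, ← div_eq_mul_inv, lt_div_iff₀ (by positivity)] at h6
          linarith
        have h6 : 2 * (n : ℝ) ^ τ ≤ (2 * n) ^ τ := by
          rw [mul_pow]
          have : (2 : ℝ) ^ 1 ≤ 2 ^ τ := pow_le_pow_right₀ (by norm_num) hτ1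
          gcongr
          simpa using this
        have h7 : (2 * n : ℝ) ^ τ ≤ (2 ^ t) ^ τ := by
          gcongr
          exact_mod_cast ht2
        rw [pow_mul]
        linarith
      have h5 : (X.card : ℝ) < t * τ := by
        have := (pow_lt_pow_iff_right₀ (by norm_num : (1 : ℝ) < 2)).1 h4
        exact_mod_cast this
      have h6 : (t : ℝ) * τ ≤ v * v := by
        have : (τ : ℝ) ≤ v := le_trans (by exact_mod_cast hτ) hdv
        gcongr
      have h7 : 1 / v ≤ (6 * p) ^ τ := by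
        refine hpd.trans ((pow_le_pow_of_le_one hp.le (by
          linarith [show (1 : ℝ) / 10 ^ 9 ≤ 1 by norm_num]) hτ).trans ?_)
        gcongr
        linarith
      have h8 : n * (1 / v) < v * v := by
        calc n * (1 / v) ≤ n * (6 * p) ^ τ := by gcongr
          _ < _ := by linarith
      rw [mul_one_div, div_lt_iff₀ hv0] at h8
      have := hpow 3 (by norm_num)
      nlinarith) hδ0 hδq J (by
        rw [hδ, one_div, inv_pow, div_div, one_div]
        apply inv_anti₀ (by positivity)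
        linarith) (by
        rw [hδ, one_div, inv_mul_eq_div, le_div_iff₀ (by positivity)]
        have := hpow 3 (by norm_num)
        have h2 : 3 * (J : ℝ) * (16 * v ^ 2) ≤ 3 * v * (16 * v ^ 2) := by gcongr
        nlinarith)
  let D : Bool → W → Finset W := fun l b =>
    if b ∈ B then (S b).filter (fun a => φ0 a ∈ S' l b) else ∅
  have hD : ∀ l u, u ∉ B → D l u = ∅ := fun l u hu => if_neg hu
  have hDA : ∀ l u, D l u ⊆ A := by
    intro l u
    simp only [D]
    split_ifs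
    · exact (filter_subset _ _).trans (hSA u)
    · exact empty_subset _
  have hsub : ∀ l, ∀ b ∈ B, S' l b ⊆ (S b).image φ0 := by
    intro l b hb
    rw [← hS'1 b hb]
    cases l
    · exact subset_union_right
    · exact subset_union_left
  have himg : ∀ l, ∀ b ∈ B, (D l b).image φ0 = S' l b := by
    intro l b hb
    ext z
    simp only [D, hb, if_true, mem_image, mem_filter]
    constructor
    · rintro ⟨a, ⟨_, h2⟩, rfl⟩
      exact h2
    · intro hz
      obtain ⟨a, ha, rfl⟩ := mem_image.1 (hsub l b hb hz)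
      exact ⟨a, ⟨ha, hz⟩, rfl⟩
  refine ⟨D, fun l => ⟨fun u hu => hD l u fun h => hu (mem_union_right _ h),
    fun u x hx => mem_union_left _ (hDA l u hx), ?_⟩, ?_⟩
  · apply bip_emb q hq0.le (by linarith) A B hAB (D l) (hD l) (hDA l) A.card hm φ0 hφ0 hφm δ hδ0
    · intro b hb
      rw [mu_up, himg l b hb]
      have h1 : (S' l b).card ≤ d :=
        (card_le_card (hsub l b hb)).trans (card_image_le.trans (hSd b))
      refine le_trans ?_ (pow_le_pow_of_le_one hq0.le (by linarith) h1)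
      refine le_trans ?_ hδq
      have : (1 : ℝ) ≤ 3 ^ d := one_le_pow₀ (by norm_num)
      nlinarith
    · intro 𝒜 h𝒜
      rw [filter_congr (q := fun b => mu q (up (S' l b) \ 𝒜) < δ)
        (fun b hb => by rw [himg l b hb])]
      refine (hS'2 l 𝒜 h𝒜).trans ?_
      apply mul_le_mul_of_nonneg_right _ (hδ0.le.trans h𝒜)
      linarith
    · set y := ((n : ℝ) - A.card) / 4 * δ with hy
      have hy1 : n / (128 * v ^ 2) ≤ y := by
        have : (n : ℝ) / (128 * v ^ 2) = n / 8 * δ := by rw [hδ]; field_simp; norm_num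
        rw [this, hy]
        exact mul_le_mul_of_nonneg_right (by linarith) hδ0.le
      have hy0 : 0 ≤ y := le_trans (by positivity) hy1
      have h1 : y ^ 2 / 2 ≤ Real.exp y := by
        have := Real.pow_div_factorial_le_exp y hy0 2
        simpa using this
      have h2 : 4 * (n : ℝ) ≤ (n / (128 * v ^ 2)) ^ 2 / 2 := by
        rw [div_pow, div_div, le_div_iff₀ (by positivity)]
        have := hpow 4 (by norm_num)
        have h3 : 4 * ((128 * v ^ 2) ^ 2 * 2) ≤ n := by nlinarith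
        nlinarith
      have h3 : (n / (128 * v ^ 2)) ^ 2 / 2 ≤ y ^ 2 / 2 := by gcongr
      rw [Real.exp_neg, ← div_eq_mul_inv, div_le_iff₀ (Real.exp_pos _)]
      linarith
  · intro b hb a ha
    have h1 := mem_image_of_mem φ0 ha
    rw [← hS'1 b hb] at h1
    rcases mem_union.1 h1 with h2 | h2
    · exact ⟨true, by simp only [D, hb, if_true]; exact mem_filter.2 ⟨ha, h2⟩⟩
    · exact ⟨false, by simp only [D, hb, if_true]; exact mem_filter.2 ⟨ha, h2⟩⟩

theorem case2 {H : SimpleGraph W} [DecidableRel H.Adj] {n : ℕ} {p q : ℝ} (h : NoCover H n p)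
    (hW : Fintype.card W ≤ n) (hp : 0 < p)
    (hq1 : q ≤ 1 / 2) (hpq : 10 ^ 9 * p ≤ q) (v : ℝ) (hv : 2 ^ 11 ≤ v) (hv1 : 2 * n ≤ v ^ 20)
    (hv2 : v ^ 20 ≤ 2 ^ 21 * n) (t : ℕ) (ht : (t : ℝ) ≤ v) (ht2 : 2 * n ≤ 2 ^ t)
    (d d' : ℕ) (hdd : d ≤ 160 * d') (hd1 : (d : ℝ) + 1 ≤ v) (hdv : (d' : ℝ) ≤ v)
    (hpd : 1 / v ≤ p ^ d') (J : ℕ) (hJ : (J : ℝ) ≤ v) (hJ2 : 64 * v ^ 2 ≤ 2 ^ J)
    (hharm : ∑ j ∈ range n, (1 / (j + 1) : ℝ) ≤ v)
    (rk : W → ℕ) (hrk : ∀ u v, H.Adj u v → rk u ≠ rk v) (hR : ∀ u, rk u < t * (d + 1))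
    (hdeg : ∀ v, (univ.filter (fun u => H.Adj v u ∧ rk u < rk v)).card ≤ d) :
    Pieces H n q := by
  classical
  have hv0 : 0 < v := by linarith [show (0 : ℝ) < 2 ^ 11 by norm_num]
  have hv1' : 1 ≤ v := by linarith [show (1 : ℝ) ≤ 2 ^ 11 by norm_num]
  have hq0 : 0 < q := by linarith [show (0 : ℝ) < 10 ^ 9 * p by positivity]
  have hpq' : p ≤ q := by nlinarith
  have hv4 : (2 : ℝ) ^ 44 ≤ v ^ 4 := by
    calc (2 : ℝ) ^ 44 = (2 ^ 11) ^ 4 := by norm_num
      _ ≤ v ^ 4 := by gcongr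
  have hnv : 2 ^ 23 * v ^ 16 ≤ n := by
    have : 2 ^ 44 * v ^ 16 ≤ v ^ 20 := by
      calc 2 ^ 44 * v ^ 16 ≤ v ^ 4 * v ^ 16 := by gcongr
        _ = v ^ 20 := by ring
    linarith
  have h16 : 1 ≤ v ^ 16 := one_le_pow₀ hv1'
  have hn0 : (0 : ℝ) < n := by linarith [show (0 : ℝ) < 2 ^ 23 * v ^ 16 by positivity]
  have hn0' : 0 < n := by exact_mod_cast hn0
  obtain ⟨part, hpart, hpart'⟩ := exists_parts n hW
  let S : W → Finset W := fun b => univ.filter (fun u => H.Adj b u ∧ rk u < rk b)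
  choose ch hch hch' using fun b : W => exists_chunks d' 160 (S b) ((hdeg b).trans hdd)
  let fwd : W → ℕ := fun a => (univ.filter (fun b => a ∈ S b)).card
  set A := univ.filter (fun a => v ^ 10 ≤ (fwd a : ℝ)) with hAdef
  have hA : (A.card : ℝ) ≤ v ^ 11 := by
    have h1 : ∑ a, fwd a = ∑ b, (S b).card := by
      simp only [fwd, card_filter]
      rw [sum_comm]
      apply sum_congr rfl
      intro b _
      rw [← card_filter]
      simp
    have h2 : ∑ b, (S b).card ≤ n * d := by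
      refine (sum_le_card_nsmul _ _ d fun b _ => hdeg b).trans ?_
      rw [card_univ, smul_eq_mul]
      exact Nat.mul_le_mul_right _ hW
    have h3 : (A.card : ℝ) * v ^ 10 ≤ ∑ a, (fwd a : ℝ) := by
      rw [← nsmul_eq_mul, ← sum_const]
      refine (sum_le_sum fun a ha => (mem_filter.1 ha).2).trans ?_
      exact sum_le_sum_of_subset_of_nonneg (subset_univ _) fun a _ _ => Nat.cast_nonneg _
    have h4 : ∑ a, (fwd a : ℝ) ≤ n * d := by exact_mod_cast h1.trans_le h2
    have h5 : (n : ℝ) * d ≤ v ^ 20 * v := by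
      apply mul_le_mul (by linarith) (by linarith) (Nat.cast_nonneg _) (by positivity)
    have h6 : (A.card : ℝ) * v ^ 10 ≤ v ^ 11 * v ^ 10 := by
      calc (A.card : ℝ) * v ^ 10 ≤ v ^ 20 * v := by linarith
        _ = _ := by ring
    exact le_of_mul_le_mul_right h6 (by positivity)
  -- low degree pieces
  let D1 : Fin 160 × Fin 128 × Fin 128 → W → Finset W := fun l b =>
    if b ∈ part l.2.1 then (ch b l.1).filter (fun a => a ∈ part l.2.2 ∧ (b ∈ A ∨ a ∉ A)) else ∅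
  have hD1 : ∀ l b a, a ∈ D1 l b ↔
      b ∈ part l.2.1 ∧ a ∈ ch b l.1 ∧ a ∈ part l.2.2 ∧ (b ∈ A ∨ a ∉ A) := by
    intro l b a
    simp only [D1]
    split_ifs with hb
    · simp [hb]
    · simp [hb]
  have key1 : ∀ l, (∀ u, u ∉ part l.2.1 ∪ part l.2.2 → D1 l u = ∅) ∧
      (∀ u, ∀ x ∈ D1 l u, x ∈ part l.2.1 ∪ part l.2.2) ∧
      1 / 2 ≤ prob (wt q) (Emb (n := n) (D1 l) (part l.2.1 ∪ part l.2.2)) := by
    intro l
    have g1 : ∀ u, u ∉ part l.2.1 ∪ part l.2.2 → D1 l u = ∅ := fun u hu =>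
      if_neg fun h => hu (mem_union_left _ h)
    have g2 : ∀ u, ∀ x ∈ D1 l u, x ∈ part l.2.1 ∪ part l.2.2 := fun u x hx =>
      mem_union_right _ ((hD1 l u x).1 hx).2.2.1
    refine ⟨g1, g2, ?_⟩
    apply layer_emb hn0' q hq0 (by linarith) (D1 l) _ g1 g2 rk (t * (d + 1)) (fun u _ => hR u)
      (fun u x hx => (mem_filter.1 ((hch u l.1).1 ((hD1 l u x).1 hx).2.1)).2.2) d'
      (fun u => le_trans (card_le_card fun x hx => ((hD1 l u x).1 hx).2.1) (hch u l.1).2)
      (v ^ 11) (by positivity) ?_ v ?_ ?_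
    · intro a
      by_cases ha : a ∈ A
      · refine le_trans ?_ hA
        have : (part l.2.1 ∪ part l.2.2).filter (fun u => a ∈ D1 l u) ⊆ A := fun u hu =>
          ((hD1 l u a).1 (mem_filter.1 hu).2).2.2.2.resolve_right (not_not.2 ha)
        exact_mod_cast card_le_card this
      · have h1 : ¬ v ^ 10 ≤ (fwd a : ℝ) := fun h => ha (mem_filter.2 ⟨mem_univ _, h⟩)
        have h2 : (part l.2.1 ∪ part l.2.2).filter (fun u => a ∈ D1 l u) ⊆
            univ.filter (fun b => a ∈ S b) := fun u hu =>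
          mem_filter.2 ⟨mem_univ _, (hch u l.1).1 ((hD1 l u a).1 (mem_filter.1 hu).2).2.1⟩
        have h3 : (((part l.2.1 ∪ part l.2.2).filter (fun u => a ∈ D1 l u)).card : ℝ) ≤ fwd a := by
          exact_mod_cast card_le_card h2
        have h4 : v ^ 10 ≤ v ^ 11 := pow_le_pow_right₀ hv1' (by norm_num)
        linarith [not_le.1 h1]
    · refine le_trans ?_ hharm
      exact sum_le_sum_of_subset_of_nonneg
        (range_subset_range.2 ((card_le_univ _).trans hW)) fun j _ _ => by positivity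
    · have h1 : ((part l.2.1 ∪ part l.2.2).card : ℝ) ≤ n / 64 + 2 := by
        have a1 := card_union_le (part l.2.1) (part l.2.2)
        have a2 := hpart l.2.1
        have a3 := hpart l.2.2
        have a4 : 64 * (part l.2.1 ∪ part l.2.2).card ≤ n + 128 := by omega
        have a5 : 64 * ((part l.2.1 ∪ part l.2.2).card : ℝ) ≤ n + 128 := by exact_mod_cast a4
        linarith
      have hqd : 1 / v ≤ q ^ d' := hpd.trans (pow_le_pow_left₀ hp.le hpq' d')
      have h2 : ((t * (d + 1) : ℕ) : ℝ) * (d' * v ^ 11 / q ^ d' * v) ≤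
          (v * v) * (v * v ^ 11 / (1 / v) * v) := by
        push_cast
        gcongr
      have h3 : (v * v) * (v * v ^ 11 / (1 / v) * v) = v ^ 16 := by field_simp
      linarith
  -- bipartite pieces
  have key2 : ∀ l : Fin 160 × Fin 128, ∃ D : Bool → W → Finset W,
      (∀ s, (∀ u, u ∉ A ∪ (part l.2 \ A) → D s u = ∅) ∧
      (∀ u, ∀ x ∈ D s u, x ∈ A ∪ (part l.2 \ A)) ∧
        1 / 2 ≤ prob (wt q) (Emb (n := n) (D s) (A ∪ (part l.2 \ A)))) ∧
      ∀ b ∈ part l.2 \ A, ∀ a ∈ ch b l.1 ∩ A, ∃ s, a ∈ D s b := by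
    intro l
    exact bip_piece h hp hq1 hpq v hv hv2 t ht ht2 d' hdv hpd J hJ hJ2 A (part l.2 \ A)
      disjoint_sdiff hA ((card_le_card sdiff_subset).trans (hpart _)) (fun b => ch b l.1 ∩ A)
      (fun b => inter_subset_right)
      (fun b => (card_le_card inter_subset_left).trans (hch b l.1).2)
      (fun b a ha => (mem_filter.1 ((hch b l.1).1 (mem_inter.1 ha).1)).2.1)
  choose D2 hD2 hD2' using key2
  refine ⟨(Fin 160 × Fin 128 × Fin 128) ⊕ ((Fin 160 × Fin 128) × Bool), inferInstance,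
    Sum.elim D1 (fun l => D2 l.1 l.2),
    Sum.elim (fun l => part l.2.1 ∪ part l.2.2) (fun l => A ∪ (part l.1.2 \ A)), by simp, ?_, ?_⟩
  · rintro (l | l)
    · exact key1 l
    · exact hD2 l.1 l.2
  · have aux : ∀ a b, H.Adj a b → rk a < rk b → ∃ l : (Fin 160 × Fin 128 × Fin 128) ⊕
        ((Fin 160 × Fin 128) × Bool), a ∈ Sum.elim D1 (fun l => D2 l.1 l.2) l b := by
      intro a b hab hlt
      obtain ⟨i, hi⟩ := hch' b a (mem_filter.2 ⟨mem_univ _, hab.symm, hlt⟩)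
      obtain ⟨j1, hj1⟩ := hpart' b
      obtain ⟨j2, hj2⟩ := hpart' a
      by_cases hc : b ∈ A ∨ a ∉ A
      · exact ⟨Sum.inl (i, j1, j2), (hD1 _ b a).2 ⟨hj1, hi, hj2, hc⟩⟩
      · push Not at hc
        obtain ⟨s, hs⟩ := hD2' (i, j1) b (mem_sdiff.2 ⟨hj1, hc.1⟩) a (mem_inter.2 ⟨hi, hc.2⟩)
        exact ⟨Sum.inr ((i, j1), s), hs⟩
    intro u x huv
    rcases lt_or_gt_of_ne (hrk u x huv) with h1 | h1
    · obtain ⟨l, hl⟩ := aux u x huv h1
      exact ⟨l, Or.inr hl⟩
    · obtain ⟨l, hl⟩ := aux x u huv.symm h1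
      exact ⟨l, Or.inl hl⟩

end Crest.Agent.R52
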