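import Crest.Agent.R52.Select

set_option autoImplicit false
set_option linter.unusedSectionVars false

namespace Crest.Agent.R52

open Finset

variable {α : Type*} [Fintype α] [DecidableEq α] {I : ℕ}

theorem geom_half (n : ℕ) : ∑ i : Fin n, (1 / 2 : ℝ) ^ (i : ℕ) ≤ 2 := by
  rw [Fin.sum_univ_eq_sum_range (fun i => (1 / 2 : ℝ) ^ i)]
  exact sum_geometric_two_le n

/-- sum of product weights over all functions agreeing with `j'` off `U`. -/
theorem sum_agree {ι : Type*} [Fintype ι] [DecidableEq ι] (π : ι → ℝ) (hπ1 : ∑ i, π i = 1)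
    (j' : α → ι) (U : Finset α) :
    ∑ j ∈ univ.filter (fun j : α → ι => ∀ x, x ∉ U → j x = j' x), ∏ x, π (j x) =
      ∏ x ∈ Uᶜ, π (j' x) := by
  have h1 : univ.filter (fun j : α → ι => ∀ x, x ∉ U → j x = j' x) =
      Fintype.piFinset (fun x => if x ∈ U then univ else {j' x}) := by
    ext j
    simp only [mem_filter, mem_univ, true_and, Fintype.mem_piFinset]
    refine forall_congr' fun x => ?_
    split_ifs with h <;> simp [h]
  rw [h1, ← prod_univ_sum (fun x => if x ∈ U then univ else {j' x}) (fun _ i => π i),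
    ← prod_mul_prod_compl U]
  rw [prod_congr rfl (g := fun _ => 1) (fun x hx => by simp [hx, hπ1]), prod_const_one, one_mul]
  apply prod_congr rfl
  intro x hx
  simp [mem_compl.1 hx]

open Classical in
theorem bad_le (F : Finset (Finset α)) (l : Finset α → α → ℝ) (π : Fin (I + 1) → ℝ)
    (hπ0 : ∀ i, 0 ≤ π i) (hπ1 : ∑ i, π i = 1) (p q : ℝ) (hp : 0 ≤ p) (hq : 0 < q)
    (hπ : ∀ i : Fin (I + 1), (i : ℕ) < I → π i = q * 4 ^ (i : ℕ)) (hpq : p ≤ q / 2 ^ 10)
    (hF : ∀ G : Finset (Finset α), (∀ H ∈ F, ∃ S ∈ G, S ⊆ H) → 1 / 2 < ∑ S ∈ G, p ^ S.card) :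
    ∑ j ∈ univ.filter (fun j : α → Fin (I + 1) => ∀ A ∈ F, ¬ feas l A j 0), ∏ x, π (j x) ≤
      2 / 7 := by
  let adm : (α → Fin (I + 1)) → Finset (Finset α) := fun j' => univ.filter (fun U =>
    U.Nonempty ∧ (∀ x ∈ U, (j' x : ℕ) < I) ∧
      ∀ x ∈ U, x ∈ Tset F l j' (fun k => (U.filter (fun z => j' z = k)).card) (j' x))
  let y : Fin (I + 1) → ℝ := fun i => p / (q * 4 ^ (i : ℕ))
  have hP0 : ∀ j : α → Fin (I + 1), 0 ≤ ∏ x, π (j x) := fun j => prod_nonneg fun x _ => hπ0 _
  have hP1 : ∑ j : α → Fin (I + 1), ∏ x, π (j x) = 1 := by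
    rw [← Fintype.piFinset_univ, ← prod_univ_sum (fun _ => univ) (fun _ i => π i)]
    simp [hπ1]
  -- the count
  have hcount : ∀ j', ∑ U ∈ adm j', ∏ x ∈ U, y (j' x) ≤ 1 / 7 := by
    intro j'
    apply count_le j' (Tset F l j') (fun i => 2 ^ ((i : ℕ) + 2)) y
    · intro i; positivity
    · intro i; positivity
    · exact Tset_card F l j'
    · have h1 : ∑ i : Fin (I + 1), (2 : ℝ) ^ ((i : ℕ) + 2) * y i ≤ 8 * (p / q) := by
        have : ∀ i : Fin (I + 1), (2 : ℝ) ^ ((i : ℕ) + 2) * y i =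
            4 * (p / q) * (1 / 2) ^ (i : ℕ) := by
          intro i
          have : (4 : ℝ) ^ (i : ℕ) = 2 ^ (i : ℕ) * 2 ^ (i : ℕ) := by rw [← mul_pow]; norm_num
          simp only [y, this, pow_add, one_div, inv_pow]
          field_simp
          ring
        rw [sum_congr rfl (fun i _ => this i), ← mul_sum]
        have h2 := geom_half (I + 1)
        have h3 : 0 ≤ 4 * (p / q) := by positivity
        nlinarith
      have h2 : p / q ≤ 1 / 2 ^ 10 := by
        rw [div_le_iff₀ hq]; linarith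
      have h3 : Real.exp (1 / 2) ≤ 2 := by
        have := Real.exp_one_lt_d9
        have h4 : Real.exp (1 / 2) * Real.exp (1 / 2) = Real.exp 1 := by
          rw [← Real.exp_add]; norm_num
        nlinarith [Real.exp_pos (1 / 2)]
      refine le_trans (Real.exp_le_exp.2 ?_) h3
      norm_num at h2
      linarith
    · intro U hU
      exact (mem_filter.1 hU).2.1
    · intro U hU
      exact (mem_filter.1 hU).2.2.2
  -- each bad `j`
  let val : (α → Fin (I + 1)) → (α → Fin (I + 1)) → Prop := fun j j' =>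
    (∀ x, j' x ≤ j x) ∧ low j j' ∈ adm j'
  have hbad : ∀ j : α → Fin (I + 1), (∀ A ∈ F, ¬ feas l A j 0) →
      1 / 2 ≤ ∑ j' ∈ univ.filter (val j), p ^ (low j j').card := by
    intro j hj
    refine (hF ((univ.filter (val j)).image (low j)) ?_).le.trans ?_
    · intro H hH
      obtain ⟨j', h1, h2, h3, h4⟩ := select F l j hj H hH
      refine ⟨low j j', mem_image_of_mem _ (mem_filter.2 ⟨mem_univ _, h1,
        mem_filter.2 ⟨mem_univ _, h3, ?_, h4⟩⟩), h2⟩
      intro x hx
      have h5 : (j' x : ℕ) < j x := (mem_filter.1 hx).2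
      have := (j x).2
      omega
    · exact sum_image_le_of_nonneg (fun U _ => pow_nonneg hp _)
  have hmain : ∀ j' : α → Fin (I + 1),
      ∑ j ∈ univ.filter (fun j => val j j'), (∏ x, π (j x)) * p ^ (low j j').card ≤
        (∏ x, π (j' x)) * (1 / 7) := by
    intro j'
    rw [← sum_fiberwise_of_maps_to (s := univ.filter (fun j => val j j')) (t := adm j')
      (g := fun j => low j j') (fun j hj => (mem_filter.1 hj).2.2)]
    refine le_trans (sum_le_sum (g := fun U => (∏ x, π (j' x)) * ∏ x ∈ U, y (j' x)) ?_) ?_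
    · intro U hU
      have hU' := (mem_filter.1 hU).2
      calc ∑ j ∈ (univ.filter (fun j => val j j')).filter (fun j => low j j' = U),
            (∏ x, π (j x)) * p ^ (low j j').card
          = ∑ j ∈ (univ.filter (fun j => val j j')).filter (fun j => low j j' = U),
            (∏ x, π (j x)) * p ^ U.card := by
            apply sum_congr rfl
            intro j hj
            rw [(mem_filter.1 hj).2]
        _ ≤ ∑ j ∈ univ.filter (fun j : α → Fin (I + 1) => ∀ x, x ∉ U → j x = j' x),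
            (∏ x, π (j x)) * p ^ U.card := by
            apply sum_le_sum_of_subset_of_nonneg
            · intro j hj
              have h1 := mem_filter.1 hj
              have h2 := (mem_filter.1 h1.1).2
              refine mem_filter.2 ⟨mem_univ _, fun x hx => ?_⟩
              by_contra hne
              apply hx
              rw [← h1.2]
              exact mem_filter.2 ⟨mem_univ _, lt_of_le_of_ne (h2.1 x) (Ne.symm hne)⟩
            · intro j _ _
              exact mul_nonneg (hP0 j) (pow_nonneg hp _)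
        _ = (∏ x ∈ Uᶜ, π (j' x)) * p ^ U.card := by rw [← sum_mul, sum_agree π hπ1]
        _ = (∏ x, π (j' x)) * ∏ x ∈ U, y (j' x) := by
            rw [← prod_mul_prod_compl U (fun x => π (j' x)), mul_comm (∏ x ∈ U, π (j' x)),
              mul_assoc, ← prod_mul_distrib, ← prod_const]
            congr 1
            apply prod_congr rfl
            intro x hx
            rw [hπ _ (hU'.2.1 x hx)]
            simp only [y]
            field_simp
    · rw [← mul_sum]
      exact mul_le_mul_of_nonneg_left (hcount j') (hP0 j')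
  have h1 : ∑ j ∈ univ.filter (fun j : α → Fin (I + 1) => ∀ A ∈ F, ¬ feas l A j 0),
      (∏ x, π (j x)) * (1 / 2) ≤
      ∑ j : α → Fin (I + 1), ∑ j' ∈ univ.filter (val j), (∏ x, π (j x)) * p ^ (low j j').card := by
    refine le_trans (sum_le_sum (g := fun j => ∑ j' ∈ univ.filter (val j),
      (∏ x, π (j x)) * p ^ (low j j').card) ?_) ?_
    · intro j hj
      rw [← mul_sum]
      exact mul_le_mul_of_nonneg_left (hbad j (mem_filter.1 hj).2) (hP0 j)
    · apply sum_le_sum_of_subset_of_nonneg (filter_subset _ _)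
      intro j _ _
      exact sum_nonneg fun j' _ => mul_nonneg (hP0 j) (pow_nonneg hp _)
  have h2 : ∑ j : α → Fin (I + 1), ∑ j' ∈ univ.filter (val j),
      (∏ x, π (j x)) * p ^ (low j j').card =
      ∑ j' : α → Fin (I + 1), ∑ j ∈ univ.filter (fun j => val j j'),
        (∏ x, π (j x)) * p ^ (low j j').card := by
    apply sum_comm'
    intro j j'
    simp
  have h3 := sum_le_sum (fun j' (_ : j' ∈ univ) => hmain j')
  rw [← sum_mul, hP1] at h3
  rw [← sum_mul] at h1
  linarith

/-- the weight of a point in a member of the family. -/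
noncomputable def lam (g : Finset α → ℝ) (A : Finset α) (x : α) : ℝ :=
  ∑ S ∈ A.powerset.filter (fun S => x ∈ S), g S / S.card

theorem sum_lam (g : Finset α → ℝ) (A : Finset α) (h : α → ℝ) :
    ∑ x ∈ A, lam g A x * h x = ∑ S ∈ A.powerset, g S / S.card * ∑ x ∈ S, h x := by
  simp only [lam, sum_mul, mul_sum]
  apply sum_comm'
  intro x S
  simp only [mem_filter, mem_powerset]
  constructor
  · rintro ⟨_, b, c⟩
    exact ⟨c, b⟩
  · rintro ⟨c, b⟩
    exact ⟨b c, b, c⟩

theorem good_mass (g : Finset α → ℝ) (hg : ∀ S, 0 ≤ g S) (hg0 : g ∅ ≤ 1 / 2) (A : Finset α)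
    (hA : 1 ≤ ∑ S ∈ A.powerset, g S) (j : α → Fin (I + 1)) (hf : feas (lam g) A j 0) :
    1 / 4 ≤ ∑ S ∈ univ.erase (∅ : Finset α), g S * ∏ x ∈ S, (8 * (1 / 8 : ℝ) ^ (j x : ℕ)) := by
  have h1 := abel_le (fun x => (j x : ℝ) - 1 / 2) A.card A (lam g A) le_rfl
    (fun x _ => sum_nonneg fun S _ => div_nonneg (hg S) (Nat.cast_nonneg _)) (by
      intro y hy
      change ∑ x ∈ lev (lam g) A y, _ ≤ _
      set L := lev (lam g) A y
      have h2 : ∑ x ∈ L, (j x : ℝ) = ∑ i : Fin I, (cnt (lam g) A y j i : ℝ) := by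
        unfold cnt
        simp only [card_filter, Nat.cast_sum]
        rw [sum_comm]
        apply sum_congr rfl
        intro x _
        rw [← Nat.cast_sum, ← card_filter]
        congr 1
        rw [Fin.card_filter_val_lt]
        have := (j x).2
        omega
      have h3 : ∀ i : Fin I, (cnt (lam g) A y j i : ℝ) ≤ L.card / 4 * (1 / 2) ^ (i : ℕ) := by
        intro i
        rcases hf y hy i with h0 | h0
        · rw [h0]; push_cast; positivity
        · have h4 : (2 : ℝ) ^ ((i : ℕ) + 2) * cnt (lam g) A y j i ≤ L.card := by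
            simp only [Pi.zero_apply, add_zero] at h0
            exact_mod_cast h0
          rw [one_div, inv_pow, ← div_eq_mul_inv, div_div, le_div_iff₀ (by positivity)]
          rw [pow_add] at h4
          linarith
      have h4 := sum_le_sum (fun i (_ : i ∈ univ) => h3 i)
      rw [← mul_sum] at h4
      have h5 := geom_half I
      rw [sum_sub_distrib, h2, sum_const, nsmul_eq_mul]
      have h6 : (0 : ℝ) ≤ L.card / 4 := by positivity
      nlinarith)
  rw [sum_lam] at h1
  have hmem : (∅ : Finset α) ∈ A.powerset := empty_mem_powerset A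
  rw [← add_sum_erase _ _ hmem] at h1 hA
  simp only [sum_empty, mul_zero, zero_add] at h1
  have h2 : ∀ S ∈ A.powerset.erase ∅, g S / 2 - g S / S.card * ∑ x ∈ S, ((j x : ℝ) - 1 / 2) ≤
      g S * ∏ x ∈ S, (8 * (1 / 8 : ℝ) ^ (j x : ℕ)) := by
    intro S hS
    have hne : S.Nonempty := nonempty_iff_ne_empty.2 (mem_erase.1 hS).1
    have hc : (0 : ℝ) < S.card := by exact_mod_cast card_pos.2 hne
    rw [sum_sub_distrib, sum_const, nsmul_eq_mul, prod_mul_distrib, prod_const,
      prod_pow_eq_pow_sum, ← Nat.cast_sum]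
    set s := ∑ x ∈ S, (j x : ℕ)
    have h3 : g S / 2 - g S / S.card * ((s : ℝ) - S.card * (1 / 2)) = g S * (1 - s / S.card) := by
      field_simp
      ring
    rw [h3]
    apply mul_le_mul_of_nonneg_left _ (hg S)
    by_cases hs : s ≤ S.card
    · have h4 : (1 : ℝ) ≤ 8 ^ S.card * (1 / 8) ^ s := by
        rw [one_div, inv_pow, ← div_eq_mul_inv, le_div_iff₀ (by positivity), one_mul]
        exact pow_le_pow_right₀ (by norm_num) hs
      have h5 : (0 : ℝ) ≤ s / S.card := by positivity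
      linarith
    · have h4 : (1 : ℝ) ≤ s / S.card := by
        rw [le_div_iff₀ hc, one_mul]
        exact_mod_cast (not_le.1 hs).le
      have h5 : (0 : ℝ) ≤ 8 ^ S.card * (1 / 8) ^ s := by positivity
      linarith
  have h3 := sum_le_sum h2
  rw [sum_sub_distrib, ← sum_div] at h3
  have h4 : ∑ S ∈ A.powerset.erase ∅, g S * ∏ x ∈ S, (8 * (1 / 8 : ℝ) ^ (j x : ℕ)) ≤
      ∑ S ∈ univ.erase (∅ : Finset α), g S * ∏ x ∈ S, (8 * (1 / 8 : ℝ) ^ (j x : ℕ)) := by
    apply sum_le_sum_of_subset_of_nonneg (erase_subset_erase _ (subset_univ _))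
    intro S _ _
    exact mul_nonneg (hg S) (prod_nonneg fun x _ => by positivity)
  linarith

open Classical in
theorem good_le (F : Finset (Finset α)) (π : Fin (I + 1) → ℝ)
    (hπ0 : ∀ i, 0 ≤ π i) (hπ1 : ∑ i, π i = 1) (r : ℝ) (hr : 0 ≤ r)
    (hπ : ∀ i : Fin (I + 1), π i ≤ r / 128 * 4 ^ (i : ℕ))
    (g : Finset α → ℝ) (hg : ∀ S, 0 ≤ g S) (hcov : ∀ H ∈ F, 1 ≤ ∑ S ∈ H.powerset, g S)
    (hcost : ∑ S, g S * r ^ S.card ≤ 1 / 2) :
    ∑ j ∈ univ.filter (fun j : α → Fin (I + 1) => ∃ A ∈ F, feas (lam g) A j 0), ∏ x, π (j x) ≤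
      1 / 4 := by
  have hP0 : ∀ j : α → Fin (I + 1), 0 ≤ ∏ x, π (j x) := fun j => prod_nonneg fun x _ => hπ0 _
  have hg0 : g ∅ ≤ 1 / 2 := by
    have := single_le_sum (f := fun S => g S * r ^ S.card)
      (fun S _ => mul_nonneg (hg S) (pow_nonneg hr _)) (mem_univ (∅ : Finset α))
    simp only [card_empty, pow_zero, mul_one] at this
    linarith
  set φ : Fin (I + 1) → ℝ := fun i => 8 * (1 / 8 : ℝ) ^ (i : ℕ) with hφ
  have hE : ∑ i, π i * φ i ≤ r / 8 := by
    calc ∑ i, π i * φ i ≤ ∑ i : Fin (I + 1), r / 16 * (1 / 2) ^ (i : ℕ) := by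
          apply sum_le_sum
          intro i _
          calc π i * φ i ≤ (r / 128 * 4 ^ (i : ℕ)) * φ i :=
                mul_le_mul_of_nonneg_right (hπ i) (by positivity)
            _ = r / 16 * (4 ^ (i : ℕ) * (1 / 8) ^ (i : ℕ)) := by simp only [hφ]; ring
            _ = _ := by rw [← mul_pow]; norm_num
      _ ≤ r / 8 := by
          rw [← mul_sum]
          have := geom_half (I + 1)
          nlinarith
  have hE0 : 0 ≤ ∑ i, π i * φ i := sum_nonneg fun i _ => mul_nonneg (hπ0 i) (by positivity)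
  have hS : ∀ S : Finset α, ∑ j : α → Fin (I + 1), (∏ x, π (j x)) * ∏ x ∈ S, φ (j x) =
      (∑ i, π i * φ i) ^ S.card := by
    intro S
    have h1 : ∀ j : α → Fin (I + 1), (∏ x, π (j x)) * ∏ x ∈ S, φ (j x) =
        ∏ x, (π (j x) * if x ∈ S then φ (j x) else 1) := by
      intro j
      rw [prod_mul_distrib (f := fun x => π (j x)), prod_ite_mem, univ_inter]
    simp_rw [h1]
    rw [← Fintype.piFinset_univ, ← prod_univ_sum (fun _ => univ)
      (fun x i => π i * if x ∈ S then φ i else 1), ← prod_mul_prod_compl S]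
    rw [prod_congr rfl (s₂ := Sᶜ) (g := fun _ => 1) (fun x hx => by simp [mem_compl.1 hx, hπ1]),
      prod_const_one, mul_one, ← prod_const]
    apply prod_congr rfl
    intro x hx
    simp [hx]
  have h1 : ∑ j ∈ univ.filter (fun j : α → Fin (I + 1) => ∃ A ∈ F, feas (lam g) A j 0),
      (∏ x, π (j x)) * (1 / 4) ≤ ∑ j : α → Fin (I + 1), (∏ x, π (j x)) *
        ∑ S ∈ univ.erase (∅ : Finset α), g S * ∏ x ∈ S, φ (j x) := by
    refine le_trans (sum_le_sum (g := fun j => (∏ x, π (j x)) *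
        ∑ S ∈ univ.erase (∅ : Finset α), g S * ∏ x ∈ S, φ (j x)) ?_) ?_
    · intro j hj
      obtain ⟨A, hA, hf⟩ := (mem_filter.1 hj).2
      exact mul_le_mul_of_nonneg_left (good_mass g hg hg0 A (hcov A hA) j hf) (hP0 j)
    · apply sum_le_sum_of_subset_of_nonneg (filter_subset _ _)
      intro j _ _
      exact mul_nonneg (hP0 j) (sum_nonneg fun S _ =>
        mul_nonneg (hg S) (prod_nonneg fun x _ => by positivity))
  have h2 : ∑ j : α → Fin (I + 1), (∏ x, π (j x)) *
        ∑ S ∈ univ.erase (∅ : Finset α), g S * ∏ x ∈ S, φ (j x) =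
      ∑ S ∈ univ.erase (∅ : Finset α), g S * (∑ i, π i * φ i) ^ S.card := by
    simp_rw [mul_sum]
    rw [sum_comm]
    apply sum_congr rfl
    intro S _
    rw [← hS, mul_sum]
    apply sum_congr rfl
    intro j _
    ring
  have h3 : ∑ S ∈ univ.erase (∅ : Finset α), g S * (∑ i, π i * φ i) ^ S.card ≤
      ∑ S ∈ univ.erase (∅ : Finset α), (1 / 8) * (g S * r ^ S.card) := by
    apply sum_le_sum
    intro S hS
    have hc : 1 ≤ S.card := card_pos.2 (nonempty_iff_ne_empty.2 (mem_erase.1 hS).1)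
    have h4 : (∑ i, π i * φ i) ^ S.card ≤ (1 / 8) * r ^ S.card := by
      calc (∑ i, π i * φ i) ^ S.card ≤ (r / 8) ^ S.card := pow_le_pow_left₀ hE0 hE _
        _ = (1 / 8) ^ S.card * r ^ S.card := by rw [← mul_pow]; congr 1; ring
        _ ≤ (1 / 8) ^ 1 * r ^ S.card := by
          apply mul_le_mul_of_nonneg_right _ (pow_nonneg hr _)
          exact pow_le_pow_of_le_one (by norm_num) (by norm_num) hc
        _ = _ := by ring
    nlinarith [hg S]
  have h4 : ∑ S ∈ univ.erase (∅ : Finset α), g S * r ^ S.card ≤ ∑ S, g S * r ^ S.card :=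
    sum_le_sum_of_subset_of_nonneg (erase_subset _ _)
      (fun S _ _ => mul_nonneg (hg S) (pow_nonneg hr _))
  rw [← mul_sum] at h3
  rw [← sum_mul] at h1
  linarith

theorem exists_types (q : ℝ) (hq : 0 < q) :
    ∃ (I : ℕ) (π : Fin (I + 1) → ℝ), (∀ i, 0 ≤ π i) ∧ ∑ i, π i = 1 ∧
      (∀ i : Fin (I + 1), (i : ℕ) < I → π i = q * 4 ^ (i : ℕ)) ∧
      ∀ i : Fin (I + 1), π i ≤ q * 4 ^ (i : ℕ) := by
  classical
  have hex : ∃ I : ℕ, 1 ≤ ∑ i ∈ range (I + 1), q * 4 ^ i := by
    obtain ⟨I, hI⟩ := pow_unbounded_of_one_lt (1 / q) (by norm_num : (1 : ℝ) < 4)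
    refine ⟨I, ?_⟩
    rw [sum_range_succ]
    have h1 : 0 ≤ ∑ i ∈ range I, q * 4 ^ i := sum_nonneg fun i _ => by positivity
    rw [div_lt_iff₀ hq] at hI
    linarith
  set I := Nat.find hex
  have h1 : 1 ≤ ∑ i ∈ range (I + 1), q * 4 ^ i := Nat.find_spec hex
  have h2 : ∑ i ∈ range I, q * 4 ^ i ≤ 1 := by
    rcases Nat.eq_zero_or_pos I with h | h
    · rw [h]; simp
    · have := Nat.find_min hex (m := I - 1) (by omega)
      rw [show I - 1 + 1 = I by omega] at this
      exact (not_le.1 this).le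
  rw [sum_range_succ] at h1
  refine ⟨I, fun i => if (i : ℕ) < I then q * 4 ^ (i : ℕ) else 1 - ∑ i ∈ range I, q * 4 ^ i,
    ?_, ?_, ?_, ?_⟩
  · intro i
    dsimp only
    split_ifs
    · positivity
    · linarith
  · rw [Fin.sum_univ_castSucc]
    simp only [Fin.val_castSucc, Fin.is_lt, if_true, Fin.val_last, lt_irrefl, if_false]
    rw [Fin.sum_univ_eq_sum_range (fun i => q * 4 ^ i)]
    ring
  · intro i hi
    simp [hi]
  · intro i
    dsimp only
    split_ifs with h
    · exact le_rfl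
    · have : (i : ℕ) = I := by have := i.2; omega
      rw [this]
      linarith

/-- Talagrand's fractional versus integral expectation threshold theorem. -/
theorem core {α : Type} [Fintype α] [DecidableEq α] (F : Finset (Finset α)) (r : ℝ)
    (hr0 : 0 ≤ r) (g : Finset α → ℝ) (hg : ∀ S, 0 ≤ g S)
    (hcov : ∀ H ∈ F, 1 ≤ ∑ S ∈ H.powerset, g S) (hcost : ∑ S, g S * r ^ S.card ≤ 1 / 2) :
    ∃ G : Finset (Finset α), (∀ H ∈ F, ∃ S ∈ G, S ⊆ H) ∧
      ∑ S ∈ G, (r / 2 ^ 40) ^ S.card ≤ 1 / 2 := by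
  classical
  rcases hr0.eq_or_lt with rfl | hr
  · refine ⟨univ.erase ∅, fun H hH => ⟨H, mem_erase.2 ⟨?_, mem_univ _⟩, Subset.rfl⟩, ?_⟩
    · rintro rfl
      have h1 := hcov _ hH
      have := single_le_sum (f := fun S => g S * (0 : ℝ) ^ S.card)
        (fun S _ => mul_nonneg (hg S) (pow_nonneg le_rfl _)) (mem_univ (∅ : Finset α))
      simp only [card_empty, pow_zero, mul_one] at this
      simp only [powerset_empty, sum_singleton] at h1
      linarith
    · rw [sum_eq_zero]
      · norm_num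
      · intro S hS
        have hc : S.card ≠ 0 := by simpa using (mem_erase.1 hS).1
        simp [hc]
  by_contra hcon
  push Not at hcon
  obtain ⟨I, π, hπ0, hπ1, hπ2, hπ3⟩ := exists_types (r / 128) (by positivity)
  have h1 := bad_le F (lam g) π hπ0 hπ1 (r / 2 ^ 40) (r / 128) (by positivity) (by positivity)
    hπ2 (by rw [div_div]; apply div_le_div_of_nonneg_left hr.le <;> norm_num) hcon
  have h2 := good_le F π hπ0 hπ1 r hr.le hπ3 g hg hcov hcost
  have hP1 : ∑ j : α → Fin (I + 1), ∏ x, π (j x) = 1 := by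
    rw [← Fintype.piFinset_univ, ← prod_univ_sum (fun _ => univ) (fun _ i => π i)]
    simp [hπ1]
  rw [← sum_filter_add_sum_filter_not univ
    (fun j : α → Fin (I + 1) => ∃ A ∈ F, feas (lam g) A j 0)] at hP1
  have h3 : univ.filter (fun j : α → Fin (I + 1) => ¬ ∃ A ∈ F, feas (lam g) A j 0) =
      univ.filter (fun j : α → Fin (I + 1) => ∀ A ∈ F, ¬ feas (lam g) A j 0) := by
    apply filter_congr
    intro j _
    simp
  rw [h3] at hP1
  linarith

end Crest.Agent.R52
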