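import Crest.Agent.R52.Hoff
import Crest.Agent.R52.Core

/-! Talagrand's discrete convexity problem: Hoffman bound (fractional cover) + rounding. -/

set_option autoImplicit false
set_option linter.unusedSectionVars false

namespace Crest.Agent.R52.Hoff

open Finset Crest.FinProb

variable {ι : Type} [Fintype ι] [DecidableEq ι]

/-- Fractional discrete convexity: an explicit fractional cover of the sets that are not covered
by two members of a family of measure `≥ 2/3`. -/
lemma frac_cover {q : ℝ} (h0 : 0 < q) (h1 : q < 1) (A : (ι → Bool) → Prop) [DecidablePred A]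
    (hA : 2 / 3 ≤ ∑ ω, bernoulliWeight q ω * (if A ω then 1 else 0)) :
    ∃ g : Finset ι → ℝ, (∀ S, 0 ≤ g S) ∧
      (∀ S : Finset ι, (∀ ω ω', A ω → A ω' → ∃ x ∈ S, ω x = false ∧ ω' x = false) →
        1 ≤ ∑ T ∈ S.powerset, g T) ∧
      ∑ S, g S * (q / (1 - q)) ^ S.card ≤ 1 / 2 := by
  set f : (ι → Bool) → ℝ := fun ω => if A ω then 1 else 0 with hf
  set μ : ℝ := ∑ ω, bernoulliWeight q ω * f ω with hμ
  have hμ0 : 0 < μ := by linarith
  have hc0 : coef q f ∅ = μ := coef_empty q f
  refine ⟨fun T => if T = ∅ then 0 else (1 / q ^ 2) ^ T.card * coef q f T ^ 2 / μ ^ 2, ?_, ?_, ?_⟩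
  · intro S
    dsimp only
    split_ifs
    · exact le_rfl
    · positivity
  · intro S hS
    have h := hoff_ge q f S
    have hz : ∑ ω, ∑ ω', bernoulliWeight q ω * f ω * (bernoulliWeight q ω' * f ω') *
          ∏ x ∈ S, (1 + (-(1 / q ^ 2)) * (xi q (ω x) * xi q (ω' x))) = 0 := by
      refine Finset.sum_eq_zero fun ω _ => Finset.sum_eq_zero fun ω' _ => ?_
      by_cases ha : A ω
      · by_cases ha' : A ω'
        · obtain ⟨x, hx, e1, e2⟩ := hS ω ω' ha ha'
          rw [Finset.prod_eq_zero hx (by rw [e1, e2]; exact hoff_factor_ff h0), mul_zero]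
        · simp [hf, ha']
      · simp [hf, ha]
    rw [hz, hc0] at h
    rw [← Finset.add_sum_erase _ _ (Finset.empty_mem_powerset S)]
    rw [if_pos rfl, zero_add, Finset.sum_congr rfl
      (fun T hT => if_neg (Finset.ne_of_mem_erase hT)), ← Finset.sum_div,
      le_div_iff₀ (by positivity)]
    linarith
  · have hp := parseval h0 h1 f
    have hff : ∑ ω, bernoulliWeight q ω * f ω ^ 2 = μ := by
      refine Finset.sum_congr rfl fun ω _ => ?_
      by_cases ha : A ω <;> simp [hf, ha]
    rw [hff, ← Finset.add_sum_erase _ _ (Finset.mem_univ (∅ : Finset ι)), hc0] at hp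
    rw [← Finset.add_sum_erase _ _ (Finset.mem_univ (∅ : Finset ι))]
    beta_reduce
    rw [if_pos rfl, zero_mul, zero_add]
    have h2 : ∑ T ∈ univ.erase (∅ : Finset ι),
        (if T = ∅ then 0 else (1 / q ^ 2) ^ T.card * coef q f T ^ 2 / μ ^ 2) * (q / (1 - q)) ^ T.card
        = (∑ T ∈ univ.erase (∅ : Finset ι), (1 / (q * (1 - q))) ^ T.card * coef q f T ^ 2) / μ ^ 2 := by
      rw [Finset.sum_div]
      refine Finset.sum_congr rfl fun T hT => ?_
      rw [if_neg (Finset.ne_of_mem_erase hT)]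
      have hq' : 1 - q ≠ 0 := by linarith
      have : (1 / (q * (1 - q))) = 1 / q ^ 2 * (q / (1 - q)) := by field_simp
      rw [this, mul_pow]
      ring
    rw [h2, div_le_iff₀ (by positivity)]
    simp only [Finset.card_empty, pow_zero, one_mul] at hp
    nlinarith

/-- covered by `m` members of `D` -/
def Cov (D : Finset (Finset ι)) (m : ℕ) (ω : ι → Bool) : Prop :=
  ∃ f : Fin m → Finset ι, (∀ i, f i ∈ D) ∧ ∀ x, ω x = true → ∃ i, x ∈ f i

lemma sum_mem_eq (p : ℝ) (D : Finset (Finset ι)) :
    ∑ ω : ι → Bool, bernoulliWeight p ω * (if univ.filter (fun x => ω x = true) ∈ D then 1 else 0)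
      = ∑ S ∈ D, p ^ S.card * (1 - p) ^ (Fintype.card ι - S.card) := by
  simp only [mul_ite, mul_one, mul_zero]
  rw [← Finset.sum_filter]
  refine Finset.sum_bij' (fun ω _ => univ.filter (fun x => ω x = true))
    (fun S _ => fun x => decide (x ∈ S)) ?_ ?_ ?_ ?_ ?_
  · intro ω h; exact (Finset.mem_filter.mp h).2
  · intro S h; simpa using h
  · intro ω _; funext x; simp
  · intro S _; ext x; simp
  · intro ω _
    rw [bernoulliWeight, Finset.prod_ite, Finset.prod_const, Finset.prod_const]
    congr 2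
    have := Finset.card_filter_add_card_filter_not (s := (univ : Finset ι)) (fun x => ω x = true)
    rw [Finset.card_univ] at this
    omega

open Classical in
lemma cov_ge {p ε : ℝ} (h0 : 0 ≤ p) (h1 : p ≤ 1) (D : Finset (Finset ι))
    (hD : 1 - ε ≤ ∑ S ∈ D, p ^ S.card * (1 - p) ^ (Fintype.card ι - S.card)) (m : ℕ) :
    1 - m * ε ≤ ∑ ω, bernoulliWeight (1 - (1 - p) ^ m) ω * (if Cov D m ω then 1 else 0) := by
  induction m with
  | zero =>
    have hw : ∀ ω : ι → Bool, bernoulliWeight (1 - (1 - p) ^ 0) ω * (if Cov D 0 ω then 1 else 0)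
        = bernoulliWeight (1 - (1 - p) ^ 0) ω := by
      intro ω
      by_cases h : ∀ x, ω x = false
      · rw [if_pos, mul_one]
        exact ⟨fun i => i.elim0, fun i => i.elim0, fun x hx => by simp [h x] at hx⟩
      · push Not at h
        obtain ⟨x, hx⟩ := h
        have : bernoulliWeight (1 - (1 - p) ^ 0) ω = 0 :=
          Finset.prod_eq_zero (Finset.mem_univ x) (by simp at hx; simp [hx])
        rw [this, zero_mul]
    simp only [hw, sum_bw]
    simp
  | succ m ih =>
    have hq0 : 0 ≤ 1 - (1 - p) ^ m := by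
      have : (1 - p) ^ m ≤ 1 := pow_le_one₀ (by linarith) (by linarith)
      linarith
    have hq1 : 1 - (1 - p) ^ m ≤ 1 := by
      have : 0 ≤ (1 - p) ^ m := pow_nonneg (by linarith) _
      linarith
    have he : 1 - (1 - p) ^ (m + 1) = p + (1 - (1 - p) ^ m) - p * (1 - (1 - p) ^ m) := by ring
    rw [he, ← sum_or]
    rw [← sum_mem_eq] at hD
    have hle : ∀ ω ω' : ι → Bool,
        bernoulliWeight p ω * bernoulliWeight (1 - (1 - p) ^ m) ω' *
          ((if univ.filter (fun x => ω x = true) ∈ D then 1 else 0)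
            + (if Cov D m ω' then 1 else 0) - 1)
        ≤ bernoulliWeight p ω * bernoulliWeight (1 - (1 - p) ^ m) ω' *
          (if Cov D (m + 1) (fun x => ω x || ω' x) then 1 else 0) := by
      intro ω ω'
      refine mul_le_mul_of_nonneg_left ?_ (mul_nonneg (bw_nonneg h0 h1 _) (bw_nonneg hq0 hq1 _))
      by_cases ha : univ.filter (fun x => ω x = true) ∈ D
      · by_cases hb : Cov D m ω'
        · rw [if_pos ha, if_pos hb, if_pos]
          · norm_num
          · obtain ⟨f, hf, hc⟩ := hb
            refine ⟨Fin.cons (univ.filter (fun x => ω x = true)) f, ?_, ?_⟩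
            · intro i
              refine Fin.cases ?_ (fun j => ?_) i
              · simpa using ha
              · simpa using hf j
            · intro x hx
              rcases Bool.or_eq_true_iff.mp hx with h | h
              · exact ⟨0, by simpa using h⟩
              · obtain ⟨i, hi⟩ := hc x h
                exact ⟨i.succ, by simpa using hi⟩
        · rw [if_pos ha, if_neg hb]; split_ifs <;> norm_num
      · rw [if_neg ha]; split_ifs <;> norm_num
    refine le_trans ?_ (Finset.sum_le_sum fun ω _ => Finset.sum_le_sum fun ω' _ => hle ω ω')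
    have e1 : ∑ ω : ι → Bool, ∑ ω' : ι → Bool,
        bernoulliWeight p ω * bernoulliWeight (1 - (1 - p) ^ m) ω' *
          ((if univ.filter (fun x => ω x = true) ∈ D then 1 else 0)
            + (if Cov D m ω' then 1 else 0) - 1)
        = (∑ ω : ι → Bool, bernoulliWeight p ω *
            (if univ.filter (fun x => ω x = true) ∈ D then 1 else 0)) *
            (∑ ω' : ι → Bool, bernoulliWeight (1 - (1 - p) ^ m) ω')
          + (∑ ω : ι → Bool, bernoulliWeight p ω) *
            (∑ ω' : ι → Bool, bernoulliWeight (1 - (1 - p) ^ m) ω' * (if Cov D m ω' then 1 else 0))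
          - (∑ ω : ι → Bool, bernoulliWeight p ω) *
            (∑ ω' : ι → Bool, bernoulliWeight (1 - (1 - p) ^ m) ω') := by
      simp only [Finset.sum_mul_sum, ← Finset.sum_add_distrib, ← Finset.sum_sub_distrib]
      refine Finset.sum_congr rfl fun ω _ => Finset.sum_congr rfl fun ω' _ => by ring
    rw [e1, sum_bw, sum_bw]
    push_cast
    linarith

open Classical in
theorem convex_general (k m : ℕ) (hm : 2 ^ 40 ≤ m) (hk : 3 * m ≤ k) (p : ℝ)
    (hp0 : 0 < p) (hp1 : p < 1) (D : Finset (Finset ι))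
    (hD : 1 - 1 / (k : ℝ) ≤ ∑ S ∈ D, p ^ S.card * (1 - p) ^ (Fintype.card ι - S.card)) :
    ∃ G : Finset (Finset ι),
      (∀ S : Finset ι,
        (∀ f : Fin k → Finset ι, (∀ i, f i ∈ D) → ¬ S ⊆ Finset.univ.biUnion f) →
          ∃ I ∈ G, I ⊆ S) ∧
      ∑ I ∈ G, p ^ I.card ≤ 1 / 2 := by
  have hm0 : 0 < m := lt_of_lt_of_le (by norm_num) hm
  have hk0 : (0 : ℝ) < k := by exact_mod_cast (by omega : 0 < k)
  set q : ℝ := 1 - (1 - p) ^ m with hq
  have hpow0 : 0 < (1 - p) ^ m := pow_pos (by linarith) _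
  have hpow1 : (1 - p) ^ m < 1 := pow_lt_one₀ (by linarith) (by linarith) hm0.ne'
  have hq0 : 0 < q := by linarith
  have hq1 : q < 1 := by linarith
  have hcov := cov_ge hp0.le hp1.le D hD m
  have h23 : (2 : ℝ) / 3 ≤ 1 - m * (1 / (k : ℝ)) := by
    have : (3 : ℝ) * m ≤ k := by exact_mod_cast hk
    have : m * (1 / (k : ℝ)) ≤ 1 / 3 := by
      rw [mul_one_div, div_le_iff₀ hk0]; linarith
    linarith
  obtain ⟨g, hg0, hgc, hgcost⟩ := frac_cover hq0 hq1 (Cov D m) (h23.trans hcov)
  obtain ⟨G, hG, hGc⟩ := core (univ.filter fun S : Finset ι =>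
      ∀ f : Fin k → Finset ι, (∀ i, f i ∈ D) → ¬ S ⊆ Finset.univ.biUnion f)
    (q / (1 - q)) (div_nonneg hq0.le (by linarith)) g hg0 (by
      intro S hS
      refine hgc S fun ω ω' ⟨f, hf, hc⟩ ⟨f', hf', hc'⟩ => ?_
      by_contra hcon
      push Not at hcon
      refine (Finset.mem_filter.mp hS).2 (fun i => if h : (i : ℕ) < m then f ⟨i, h⟩ else
        if h : (i : ℕ) - m < m then f' ⟨i - m, h⟩ else f ⟨0, hm0⟩) ?_ ?_
      · intro i
        split_ifs
        · exact hf _
        · exact hf' _
        · exact hf _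
      · intro x hx
        rw [Finset.mem_biUnion]
        cases hω : ω x
        · have hω' : ω' x = true := by simpa using hcon x hx hω
          obtain ⟨i, hi⟩ := hc' x hω'
          refine ⟨⟨m + i, by omega⟩, Finset.mem_univ _, ?_⟩
          have e1 : ¬ (m + (i : ℕ) < m) := by omega
          have e2 : m + (i : ℕ) - m < m := by omega
          simp only [e1, e2, dif_neg, not_false_eq_true, dif_pos]
          simpa using hi
        · obtain ⟨i, hi⟩ := hc x hω
          refine ⟨⟨i, by omega⟩, Finset.mem_univ _, ?_⟩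
          simpa using hi) hgcost
  refine ⟨G, fun S hS => hG S (Finset.mem_filter.mpr ⟨Finset.mem_univ _, hS⟩), le_trans ?_ hGc⟩
  refine Finset.sum_le_sum fun I _ => pow_le_pow_left₀ hp0.le ?_ _
  rw [le_div_iff₀ (by positivity), le_div_iff₀ (by linarith)]
  have hb : 1 + (m : ℝ) * p ≤ (1 + p) ^ m := one_add_mul_le_pow (by linarith) m
  have hc : (1 + p) ^ m * (1 - p) ^ m ≤ 1 := by
    rw [← mul_pow]
    exact pow_le_one₀ (by nlinarith) (by nlinarith)
  have hm' : (2 : ℝ) ^ 40 ≤ m := by exact_mod_cast hm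
  have e : 1 - q = (1 - p) ^ m := by rw [hq]; ring
  rw [e, hq]
  have h3 : (1 + (m : ℝ) * p) * (1 - p) ^ m ≤ 1 :=
    le_trans (mul_le_mul_of_nonneg_right hb hpow0.le) hc
  have h4 : p * 2 ^ 40 * (1 - p) ^ m ≤ p * m * (1 - p) ^ m := by gcongr
  nlinarith

end Crest.Agent.R52.Hoff
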