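import Mathlib

set_option autoImplicit false
set_option linter.unusedSectionVars false

namespace Crest.Agent.R52

open Finset

variable {α : Type*} [Fintype α] [DecidableEq α]

/-- product weight of a subset -/
noncomputable def wt (q : ℝ) (Z : Finset α) : ℝ := ∏ x, if x ∈ Z then q else 1 - q

/-- product measure of a family -/
noncomputable def mu (q : ℝ) (𝒜 : Finset (Finset α)) : ℝ := ∑ Z ∈ 𝒜, wt q Z

/-- principal up-set -/
def up (S : Finset α) : Finset (Finset α) := univ.filter (fun Z => S ⊆ Z)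

@[simp] theorem mem_up {S Z : Finset α} : Z ∈ up S ↔ S ⊆ Z := by simp [up]

theorem wt_nonneg {q : ℝ} (h0 : 0 ≤ q) (h1 : q ≤ 1) (Z : Finset α) : 0 ≤ wt q Z :=
  prod_nonneg fun x _ => by split_ifs <;> linarith

/-- independence: expectation of a product. -/
theorem sum_wt_prod (q : ℝ) (f g : α → ℝ) :
    ∑ Z : Finset α, wt q Z * ∏ x, (if x ∈ Z then f x else g x) =
      ∏ x, (q * f x + (1 - q) * g x) := by
  rw [prod_add, powerset_univ]
  apply sum_congr rfl
  intro Z _
  unfold wt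
  rw [← prod_mul_distrib, ← prod_mul_prod_compl Z, compl_eq_univ_sdiff]
  congr 1
  · exact prod_congr rfl fun x hx => by simp [hx]
  · exact prod_congr rfl fun x hx => by simp [(mem_sdiff.1 hx).2]

theorem sum_wt (q : ℝ) : ∑ Z : Finset α, wt q Z = 1 := by
  have := sum_wt_prod (α := α) q (fun _ => 1) (fun _ => 1)
  simpa using this

theorem wt_eq (q : ℝ) (Z : Finset α) :
    wt q Z = q ^ Z.card * (1 - q) ^ (Fintype.card α - Z.card) := by
  unfold wt
  rw [← prod_mul_prod_compl Z, ← card_compl, ← prod_const, ← prod_const]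
  congr 1
  · exact prod_congr rfl fun x hx => by simp [hx]
  · exact prod_congr rfl fun x hx => by simp [mem_compl.1 hx]

theorem mu_up (q : ℝ) (S : Finset α) : mu q (up S) = q ^ S.card := by
  have := sum_wt_prod (α := α) q (fun _ => 1) (fun x => if x ∈ S then 0 else 1)
  have h2 : ∏ x : α, (q * 1 + (1 - q) * if x ∈ S then 0 else 1) = q ^ S.card := by
    rw [← prod_mul_prod_compl S, ← prod_const,
      prod_congr rfl (s₂ := Sᶜ) (g := fun _ => 1) (fun x hx => by simp [mem_compl.1 hx]),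
      prod_const_one, mul_one]
    exact prod_congr rfl fun x hx => by simp [hx]
  rw [h2] at this
  rw [← this, mu, up, sum_filter]
  apply sum_congr rfl
  intro Z _
  split_ifs with h
  · rw [prod_eq_one, mul_one]
    intro x _
    split_ifs with h1 h2
    · rfl
    · exact absurd (h h2) h1
    · rfl
  · obtain ⟨x, hx, hx'⟩ := not_subset.1 h
    rw [prod_eq_zero (mem_univ x), mul_zero]
    simp [hx, hx']

theorem mu_nonneg {q : ℝ} (h0 : 0 ≤ q) (h1 : q ≤ 1) (𝒜 : Finset (Finset α)) : 0 ≤ mu q 𝒜 :=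
  sum_nonneg fun Z _ => wt_nonneg h0 h1 Z

theorem mu_mono {q : ℝ} (h0 : 0 ≤ q) (h1 : q ≤ 1) {𝒜 ℬ : Finset (Finset α)} (h : 𝒜 ⊆ ℬ) :
    mu q 𝒜 ≤ mu q ℬ :=
  sum_le_sum_of_subset_of_nonneg h fun Z _ _ => wt_nonneg h0 h1 Z

theorem mu_univ (q : ℝ) : mu q (univ : Finset (Finset α)) = 1 := sum_wt q

theorem mu_le_one {q : ℝ} (h0 : 0 ≤ q) (h1 : q ≤ 1) (𝒜 : Finset (Finset α)) : mu q 𝒜 ≤ 1 :=
  (mu_mono h0 h1 (subset_univ _)).trans (mu_univ q).le

end Crest.Agent.R52
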