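import Crest.Agent.R52.Prob
import Crest.Prelude.Def_CopyThreshold

set_option autoImplicit false
set_option linter.unusedSectionVars false

namespace Crest.Agent.R52

open Finset Crest.CombinatoricsR.RandomGraph Crest.FinProb

variable {n : ℕ}

/-- the coins read off from the rows -/
def coins (ω : Fin n → Finset (Fin n)) (z : EdgeSlot n) : Bool :=
  decide (z.1.inf ∈ ω z.1.sup)

theorem prod_slot (g : EdgeSlot n → ℝ) :
    ∏ z, g z = ∏ y : Fin n, ∏ x : Fin n,
      if h : x < y then g ⟨s(x, y), by simpa using h.ne⟩ else 1 := by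
  rw [← Fintype.prod_prod_type', ← prod_filter_mul_prod_filter_not univ
    (fun p : Fin n × Fin n => p.2 < p.1)]
  rw [prod_congr rfl (s₂ := univ.filter (fun p : Fin n × Fin n => ¬ p.2 < p.1)) (g := fun _ => 1)
    (fun p hp => dif_neg (mem_filter.1 hp).2), prod_const_one, mul_one]
  symm
  refine prod_bij (fun p hp => ⟨s(p.2, p.1), by simpa using (mem_filter.1 hp).2.ne⟩) ?_ ?_ ?_ ?_
  · intro p _; exact mem_univ _
  · intro p hp p' hp' h
    have h1 := (mem_filter.1 hp).2
    have h2 := (mem_filter.1 hp').2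
    have h3 : s(p.2, p.1) = s(p'.2, p'.1) := congrArg Subtype.val h
    rcases Sym2.eq_iff.1 h3 with h4 | h4
    · exact Prod.ext h4.2 h4.1
    · rw [h4.1, h4.2] at h1
      exact absurd h1 (not_lt.2 h2.le)
  · rintro ⟨z, hz⟩ _
    induction z using Sym2.ind with
    | _ a b =>
      have hab : a ≠ b := by simpa using hz
      rcases lt_or_gt_of_ne hab with h | h
      · exact ⟨(b, a), mem_filter.2 ⟨mem_univ _, h⟩, rfl⟩
      · exact ⟨(a, b), mem_filter.2 ⟨mem_univ _, h⟩, Subtype.ext Sym2.eq_swap⟩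
  · intro p hp
    exact dif_pos (mem_filter.1 hp).2

theorem fiber_coins (q : ℝ) (η : EdgeSlot n → Bool) :
    ∑ ω : Fin n → Finset (Fin n), (∏ y, wt q (ω y)) * (if coins ω = η then 1 else 0) =
      bernoulliWeight q η := by
  classical
  let f : Fin n → Fin n → ℝ := fun y x =>
    if h : x < y then (if η ⟨s(x, y), by simpa using h.ne⟩ then 1 else 0) else 1
  let g : Fin n → Fin n → ℝ := fun y x =>
    if h : x < y then (if η ⟨s(x, y), by simpa using h.ne⟩ then 0 else 1) else 1
  have h1 : ∀ ω : Fin n → Finset (Fin n), (if coins ω = η then (1 : ℝ) else 0) =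
      ∏ y, ∏ x, (if x ∈ ω y then f y x else g y x) := by
    intro ω
    have h2 : (if coins ω = η then (1 : ℝ) else 0) =
        ∏ z, if coins ω z = η z then (1 : ℝ) else 0 := by
      rw [Fintype.prod_ite_zero]
      simp [funext_iff]
    rw [h2, prod_slot]
    apply prod_congr rfl
    intro y _
    apply prod_congr rfl
    intro x _
    by_cases h : x < y
    · simp only [h, dif_pos, f, g, coins, Sym2.inf_mk, Sym2.sup_mk, inf_eq_left.2 h.le,
        sup_eq_right.2 h.le]
      by_cases h3 : x ∈ ω y <;> cases η ⟨s(x, y), by simpa using h.ne⟩ <;> simp [h3]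
    · simp [h, f, g]
  simp_rw [h1]
  rw [exp_prod (wt q) (fun y Z => ∏ x, (if x ∈ Z then f y x else g y x))]
  simp_rw [sum_wt_prod]
  unfold bernoulliWeight
  rw [prod_slot]
  apply prod_congr rfl
  intro y _
  apply prod_congr rfl
  intro x _
  by_cases h : x < y
  · simp only [h, dif_pos, f, g]
    split_ifs <;> ring
  · simp [h, f, g]

theorem prob_coins (q : ℝ) (E : Set (EdgeSlot n → Bool)) :
    prob (wt q) (fun ω : Fin n → Finset (Fin n) => coins ω ∈ E) = bernoulliProb q E := by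
  classical
  unfold prob bernoulliProb
  simp_rw [← fiber_coins]
  rw [sum_comm]
  apply sum_congr rfl
  intro ω _
  rw [← mul_sum]
  congr 1
  rw [sum_ite_eq]
  simp

theorem exists_extend {W : Type*} [Fintype W] [DecidableEq W] (hW : Fintype.card W ≤ n)
    (U : Finset W) (φ : W → Fin n) (hφ : Set.InjOn φ U) :
    ∃ ψ : W → Fin n, Function.Injective ψ ∧ ∀ x ∈ U, ψ x = φ x := by
  classical
  have h1 : Fintype.card (Uᶜ : Finset W) ≤ Fintype.card ((U.image φ)ᶜ : Finset (Fin n)) := by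
    simp only [Fintype.card_coe, card_compl, Fintype.card_fin, card_image_of_injOn hφ]
    omega
  obtain ⟨e⟩ := Function.Embedding.nonempty_of_card_le h1
  refine ⟨fun x => if h : x ∈ U then φ x else e ⟨x, mem_compl.2 h⟩, ?_, fun x hx => dif_pos hx⟩
  intro x y hxy
  by_cases hx : x ∈ U <;> by_cases hy : y ∈ U <;> simp only [hx, hy, dif_pos, dif_neg,
    not_false_eq_true] at hxy
  · exact hφ hx hy hxy
  · have := (e ⟨y, mem_compl.2 hy⟩).2
    rw [← hxy] at this
    exact absurd (mem_image_of_mem φ hx) (mem_compl.1 this)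
  · have := (e ⟨x, mem_compl.2 hx⟩).2
    rw [hxy] at this
    exact absurd (mem_image_of_mem φ hy) (mem_compl.1 this)
  · exact congrArg Subtype.val (e.injective (Subtype.ext hxy))

theorem link {W : Type*} [Fintype W] [DecidableEq W] (hW : Fintype.card W ≤ n) (q : ℝ)
    (hq0 : 0 ≤ q) (hq1 : q ≤ 1) (D : W → Finset W) (U : Finset W)
    (hU : ∀ u, u ∉ U → D u = ∅) (hU' : ∀ u, ∀ v ∈ D u, v ∈ U) (Γ : SimpleGraph W)
    (hΓ : ∀ u v, Γ.Adj u v → v ∈ D u ∨ u ∈ D v) :
    prob (wt q) (Emb (n := n) D U) ≤ gnpProb n q {G | Γ.IsContained G} := by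
  unfold gnpProb
  rw [← prob_coins]
  apply prob_mono _ (wt_nonneg hq0 hq1)
  rintro ω ⟨φ, h1, h2⟩
  obtain ⟨ψ, hψ, hψ'⟩ := exists_extend hW U φ h1
  have key : ∀ u v, v ∈ D u → (graphOf (coins ω)).Adj (ψ u) (ψ v) := by
    intro u v hv
    have hu : u ∈ U := by
      by_contra h
      rw [hU u h] at hv
      simp at hv
    rw [hψ' u hu, hψ' v (hU' u v hv)]
    obtain ⟨a, b⟩ := h2 u v hv
    unfold graphOf
    rw [SimpleGraph.fromEdgeSet_adj]
    refine ⟨⟨by simpa using a.ne', ?_⟩, a.ne'⟩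
    simp [coins, inf_eq_right.2 a.le, sup_eq_left.2 a.le, b]
  refine ⟨⟨⟨ψ, fun {u v} h => ?_⟩, hψ⟩⟩
  rcases hΓ u v h with h | h
  · exact key u v h
  · exact (key v u h).symm

end Crest.Agent.R52
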