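import Crest.Agent.R52.Case2
import Crest.Agent.R52.Link

set_option autoImplicit false
set_option linter.unusedSectionVars false
set_option exponentiation.threshold 500

namespace Crest.Agent.R52

open Finset Crest.CombinatoricsR.RandomGraph

variable {W : Type} [Fintype W] [DecidableEq W]

theorem lin_le_two_pow (j : ℕ) (hj : 10 ≤ j) : 20 * j + 21 ≤ 2 ^ (j + 1) := by
  induction j, hj using Nat.le_induction with
  | base => norm_num
  | succ j hj ih => rw [pow_succ]; omega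

theorem harm_le (n t : ℕ) (hn : 0 < n) (h : n ≤ 2 ^ t) :
    ∑ j ∈ range n, (1 / (j + 1) : ℝ) ≤ t + 1 := by
  have h1 := harmonic_le_one_add_log n
  have h2 : ((harmonic n : ℚ) : ℝ) = ∑ j ∈ range n, (1 / (j + 1) : ℝ) := by
    unfold harmonic
    push_cast
    exact sum_congr rfl fun j _ => by rw [one_div]
  have h3 : Real.log n ≤ t := by
    calc Real.log n ≤ Real.log (2 ^ t) := by
          apply Real.log_le_log (by exact_mod_cast hn)
          exact_mod_cast h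
      _ = t * Real.log 2 := by rw [Real.log_pow]
      _ ≤ t * 1 := by
          gcongr
          linarith [Real.log_two_lt_d9]
      _ = t := mul_one _
  linarith

theorem pieces {H : SimpleGraph W} (hH : H ≠ ⊥) {n : ℕ} {p q : ℝ} (h : NoCover H n p)
    (hW : Fintype.card W ≤ n) (hp : 0 < p) (hq1 : q ≤ 1 / 2) (hpq : 2 ^ 400 * p ≤ q) :
    Pieces H n q := by
  classical
  have hq0 : 0 < q := lt_of_lt_of_le (by positivity) hpq
  have hpq' : 10 ^ 9 * p ≤ q := le_trans (by gcongr; norm_num) hpq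
  have hp16 : p ≤ 1 / 16 := by nlinarith
  have hn : 2 ^ 200 ≤ n := by
    obtain ⟨C, h1, h2⟩ := exists_cover_edge H hH n p hp.le
    have h3 := (h C h1).trans_le h2
    by_contra hcon
    have h4 : (n : ℝ) ≤ 2 ^ 200 := by exact_mod_cast (not_le.1 hcon).le
    have h5 : (n : ℝ) ^ 2 * p ≤ (2 ^ 200) ^ 2 * p := by gcongr
    rw [← pow_mul] at h5
    exact absurd (h3.trans_le (h5.trans (hpq.trans hq1))) (lt_irrefl _)
  have hn0 : 0 < n := lt_of_lt_of_le (by positivity) hn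
  have hn0' : (1 : ℝ) ≤ n := by exact_mod_cast hn0
  have hex : ∃ d : ℕ, (2 * n : ℝ) ^ 4 * p ^ (d + 1) ≤ 1 := by
    obtain ⟨d, hd⟩ := exists_pow_lt_of_lt_one (x := 1 / (2 * n : ℝ) ^ 4) (y := p)
      (by positivity) (by linarith)
    refine ⟨d, ?_⟩
    rw [lt_div_iff₀ (by positivity)] at hd
    have : p ^ (d + 1) ≤ p ^ d := pow_le_pow_of_le_one hp.le (by linarith) (Nat.le_succ d)
    nlinarith [show (0 : ℝ) < (2 * n : ℝ) ^ 4 by positivity]
  set d := Nat.find hex with hd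
  set k := Nat.log 2 (2 * n) with hk
  have hk1 : 2 ^ k ≤ 2 * n := Nat.pow_log_le_self 2 (by omega)
  have hk2 : 2 * n < 2 ^ (k + 1) := Nat.lt_pow_succ_log_self (by norm_num) _
  obtain ⟨col, rk, h1, h2, h3, h4⟩ := exists_rank H d
    (h.degen hn0 hp.le (by linarith) d (Nat.find_spec hex)) (k + 1) (by omega)
  by_cases hd160 : d ≤ 160
  · exact case1 h hW hp.le hq0 hq1 hpq' (le_trans (by norm_num) hn) d hd160 col rk h1 h2 h4
  have hd' : 1 < (2 * n : ℝ) ^ 4 * p ^ d := by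
    have := Nat.find_min hex (m := d - 1) (by omega)
    rw [show d - 1 + 1 = d by omega] at this
    exact not_le.1 this
  have hk200 : 200 ≤ k := by
    have : 2 ^ 200 < 2 ^ (k + 1) := by omega
    have := (Nat.pow_lt_pow_iff_right (by norm_num : 1 < 2)).1 this
    omega
  have hdk : d ≤ k := by
    have a1 : p ^ d ≤ (1 / 16) ^ d := pow_le_pow_left₀ hp.le hp16 d
    have a2 : 1 < (2 * n : ℝ) ^ 4 * (1 / 16) ^ d := hd'.trans_le (by gcongr)
    rw [one_div, inv_pow, ← div_eq_mul_inv, lt_div_iff₀ (by positivity), one_mul] at a2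
    have a3 : ((2 : ℝ) ^ d) ^ 4 < (2 * n : ℝ) ^ 4 := by
      rw [← pow_mul, mul_comm d 4, pow_mul]
      norm_num at a2 ⊢
      exact a2
    have a4 : (2 : ℝ) ^ d < 2 * n := lt_of_pow_lt_pow_left₀ 4 (by positivity) a3
    have a5 : 2 ^ d < 2 * n := by exact_mod_cast a4
    have := (Nat.pow_lt_pow_iff_right (by norm_num : 1 < 2)).1 (a5.trans hk2)
    omega
  set j := k / 20 with hj
  have hlin := lin_le_two_pow j (by omega)
  have hv1 : 2 * n ≤ (2 ^ (j + 1)) ^ 20 := by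
    rw [← pow_mul]
    exact hk2.le.trans (Nat.pow_le_pow_right (by norm_num) (by omega))
  have hv2 : (2 ^ (j + 1)) ^ 20 ≤ 2 ^ 21 * n := by
    rw [← pow_mul]
    calc 2 ^ ((j + 1) * 20) ≤ 2 ^ (20 + k) := Nat.pow_le_pow_right (by norm_num) (by omega)
      _ = 2 ^ 20 * 2 ^ k := pow_add _ _ _
      _ ≤ 2 ^ 20 * (2 * n) := Nat.mul_le_mul_left _ hk1
      _ = 2 ^ 21 * n := by ring
  set v : ℝ := ((2 ^ (j + 1) : ℕ) : ℝ) with hv
  have hv1' : 2 * (n : ℝ) ≤ v ^ 20 := by rw [hv]; exact_mod_cast hv1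
  have hv0 : 0 < v := by rw [hv]; positivity
  refine case2 h hW hp hq1 hpq' v ?_ hv1' (by rw [hv]; exact_mod_cast hv2) (k + 1) ?_ hk2.le
    d (d / 160 + 1) (by omega) ?_ ?_ ?_ (2 * (j + 1) + 6) ?_ ?_ ?_ rk h2 h3 h4
  · rw [hv]
    exact_mod_cast Nat.pow_le_pow_right (by norm_num) (by omega : 11 ≤ j + 1)
  · rw [hv]
    exact_mod_cast (by omega : k + 1 ≤ 2 ^ (j + 1))
  · rw [hv]
    exact_mod_cast (by omega : d + 1 ≤ 2 ^ (j + 1))
  · rw [hv]
    exact_mod_cast (by omega : d / 160 + 1 ≤ 2 ^ (j + 1))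
  · apply le_of_pow_le_pow_left₀ (n := 160) (by norm_num) (by positivity)
    have a1 : p ^ (d * 2) ≤ (p ^ (d / 160 + 1)) ^ 160 := by
      rw [← pow_mul]
      exact pow_le_pow_of_le_one hp.le (by linarith) (by omega)
    refine le_trans ?_ a1
    have a2 : 1 ≤ (v ^ 20) ^ 4 * p ^ d := hd'.le.trans (by gcongr)
    have a3 : 1 ≤ ((v ^ 20) ^ 4 * p ^ d) ^ 2 := one_le_pow₀ a2
    rw [one_div, inv_pow, inv_le_iff_one_le_mul₀ (by positivity)]
    calc (1 : ℝ) ≤ ((v ^ 20) ^ 4 * p ^ d) ^ 2 := a3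
      _ = _ := by ring
  · rw [hv]
    exact_mod_cast (by omega : 2 * (j + 1) + 6 ≤ 2 ^ (j + 1))
  · rw [hv]
    push_cast
    apply le_of_eq
    ring
  · refine (harm_le n k hn0 (by rw [pow_succ] at hk2; omega)).trans ?_
    rw [hv]
    exact_mod_cast (by omega : k + 1 ≤ 2 ^ (j + 1))

theorem labelling {H : SimpleGraph W} (hH : H ≠ ⊥) {n : ℕ} {q : ℝ} (hq0 : 0 ≤ q) (hq1 : q ≤ 1)
    (hW : Fintype.card W ≤ n) (h : Pieces H n q) :
    ∃ c : H.edgeSet → Fin (10 ^ 9), ∀ i,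
      1 / 2 ≤ gnpProb n q {G | (pieceGraph H c i).IsContained G} := by
  classical
  obtain ⟨Λ, _, D, U, h1, h2, h3⟩ := h
  obtain ⟨e⟩ : Nonempty (Λ ↪ Fin (10 ^ 9)) :=
    Function.Embedding.nonempty_of_card_le (by rwa [Fintype.card_fin])
  have h4 : ∀ z : H.edgeSet, ∃ l, ∀ u v, z.1 = s(u, v) → v ∈ D l u ∨ u ∈ D l v := by
    rintro ⟨z, hz⟩
    induction z using Sym2.ind with
    | _ a b =>
      obtain ⟨l, hl⟩ := h3 a b hz
      refine ⟨l, fun u v huv => ?_⟩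
      rcases Sym2.eq_iff.1 huv with ⟨rfl, rfl⟩ | ⟨rfl, rfl⟩
      · exact hl
      · exact hl.symm
  choose lab hlab using h4
  obtain ⟨u0, v0, huv0⟩ := SimpleGraph.ne_bot_iff_exists_adj.1 hH
  refine ⟨fun z => e (lab z), fun i => ?_⟩
  have h5 : ∃ l, ∀ z, e (lab z) = i → lab z = l := by
    by_cases hi : ∃ l, e l = i
    · obtain ⟨l, rfl⟩ := hi
      exact ⟨l, fun z hz => e.injective hz⟩
    · exact ⟨lab ⟨s(u0, v0), huv0⟩, fun z hz => absurd ⟨_, hz⟩ hi⟩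
  obtain ⟨l, hl⟩ := h5
  refine (h2 l).2.2.trans (link hW q hq0 hq1 (D l) (U l) (h2 l).1 (h2 l).2.1 _ ?_)
  intro u v huv
  unfold pieceGraph at huv
  rw [SimpleGraph.fromEdgeSet_adj] at huv
  obtain ⟨⟨a1, a2⟩, _⟩ := huv
  have := hlab ⟨s(u, v), a1⟩ u v rfl
  rwa [hl _ a2] at this

theorem gnp_one {n : ℕ} (hW : Fintype.card W ≤ n) (Γ : SimpleGraph W) :
    1 / 2 ≤ gnpProb n 1 {G | Γ.IsContained G} := by
  classical
  unfold gnpProb Crest.FinProb.bernoulliProb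
  have h1 : (fun _ => true) ∈ {ω : EdgeSlot n → Bool | graphOf ω ∈ {G | Γ.IsContained G}} := by
    obtain ⟨e⟩ : Nonempty (W ↪ Fin n) :=
      Function.Embedding.nonempty_of_card_le (by rwa [Fintype.card_fin])
    refine ⟨⟨⟨e, fun {u v} h => ?_⟩, e.injective⟩⟩
    have : e u ≠ e v := fun h' => h.ne (e.injective h')
    unfold graphOf
    rw [SimpleGraph.fromEdgeSet_adj]
    exact ⟨⟨by simpa using this, rfl⟩, this⟩
  refine le_trans ?_ (single_le_sum (f := Crest.FinProb.bernoulliWeight 1) (a := fun _ => true)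
    (fun ω _ => prod_nonneg fun z _ => by split_ifs <;> norm_num) ?_)
  · simp [Crest.FinProb.bernoulliWeight]
    norm_num
  · simp only [mem_filter, mem_univ, true_and]
    exact h1

theorem main (n : ℕ) (H : SimpleGraph W) (hW : Fintype.card W ≤ n) (hH : H ≠ ⊥) :
    ∃ c : H.edgeSet → Fin (10 ^ 9), ∀ i, ∃ p : ℝ, 0 ≤ p ∧ p ≤ 1 ∧
      (∃ C : Finset (Finset (EdgeSlot n)),
        (∀ A : Finset (EdgeSlot n), H.IsContained (edgeGraph A) → ∃ S ∈ C, S ⊆ A) ∧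
        ∑ S ∈ C, p ^ S.card ≤ 1 / 2) ∧
      1 / 2 ≤ gnpProb n (min 1 (2 ^ 401 * p)) {G | (pieceGraph H c i).IsContained G} := by
  classical
  have hnc : ∀ p : ℝ, ¬ NoCover H n p → ∃ C : Finset (Finset (EdgeSlot n)),
      (∀ A : Finset (EdgeSlot n), H.IsContained (edgeGraph A) → ∃ S ∈ C, S ⊆ A) ∧
      ∑ S ∈ C, p ^ S.card ≤ 1 / 2 := by
    intro p hp
    unfold NoCover at hp
    push Not at hp
    exact hp
  have hex : ∃ j : ℕ, ¬ NoCover H n ((1 / 2) ^ j / 2 ^ 401) := by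
    obtain ⟨j, hj⟩ := exists_pow_lt_of_lt_one (x := 1 / ((n : ℝ) ^ 2 + 1)) (y := 1 / 2)
      (by positivity) (by norm_num)
    refine ⟨j, fun h => ?_⟩
    obtain ⟨C, h1, h2⟩ := exists_cover_edge H hH n ((1 / 2) ^ j / 2 ^ 401) (by positivity)
    have h3 := (h C h1).trans_le h2
    rw [lt_div_iff₀ (by positivity)] at hj
    have h4 : (0 : ℝ) < (1 / 2) ^ j := by positivity
    have h5 : (n : ℝ) ^ 2 * ((1 / 2) ^ j / 2 ^ 401) ≤ (n : ℝ) ^ 2 * ((1 / 2) ^ j / 2) := by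
      gcongr
      norm_num
    nlinarith
  have hL : (1 : ℝ) ≤ 2 ^ 401 := one_le_pow₀ (by norm_num)
  have hL0 : (0 : ℝ) < 2 ^ 401 := by positivity
  set j := Nat.find hex with hj
  have h1 := hnc _ (Nat.find_spec hex)
  have hq1 : (1 / 2 : ℝ) ^ j ≤ 1 := pow_le_one₀ (by norm_num) (by norm_num)
  have hp1 : (1 / 2 : ℝ) ^ j / 2 ^ 401 ≤ 1 := by rw [div_le_one hL0]; linarith
  have hmin : min 1 (2 ^ 401 * ((1 / 2 : ℝ) ^ j / 2 ^ 401)) = (1 / 2) ^ j := by
    rw [mul_div_cancel₀ _ hL0.ne', min_eq_right hq1]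
  rcases Nat.eq_zero_or_pos j with h0 | h0
  · refine ⟨fun _ => ⟨0, by norm_num⟩, fun i => ⟨_, by positivity, hp1, h1, ?_⟩⟩
    rw [hmin, h0, pow_zero]
    exact gnp_one hW _
  · have h2 : NoCover H n ((1 / 2) ^ (j - 1) / 2 ^ 401) :=
      not_not.1 (Nat.find_min hex (m := j - 1) (by omega))
    have h3 : (1 / 2 : ℝ) ^ j = (1 / 2) ^ (j - 1) * (1 / 2) := by
      rw [← pow_succ, show j - 1 + 1 = j by omega]
    have h4 : (1 / 2 : ℝ) ^ (j - 1) ≤ 1 := pow_le_one₀ (by norm_num) (by norm_num)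
    obtain ⟨c, hc⟩ := labelling hH (q := (1 / 2) ^ j) (by positivity) hq1 hW
      (pieces hH h2 hW (by positivity) (by rw [h3]; linarith) (by
        rw [h3, pow_succ (2 : ℝ) 400]
        apply le_of_eq
        field_simp))
    exact ⟨c, fun i => ⟨_, by positivity, hp1, h1, by rw [hmin]; exact hc i⟩⟩

end Crest.Agent.R52
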