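import Mathlib
import Crest.Prelude.Def_FinProb

/-! p-biased Fourier coefficients on the Boolean cube: the Hoffman kernel identity, Parseval,
and the union of two independent random sets. -/

set_option autoImplicit false
set_option linter.unusedSectionVars false

namespace Crest.Agent.R52.Hoff

open Finset Crest.FinProb

variable {ι : Type*} [Fintype ι] [DecidableEq ι]

/-- one-coordinate weight -/
noncomputable def wt (q : ℝ) (b : Bool) : ℝ := if b then q else 1 - q

lemma bw_eq (q : ℝ) (ω : ι → Bool) : bernoulliWeight q ω = ∏ i, wt q (ω i) := rfl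

lemma wt_nonneg {q : ℝ} (h0 : 0 ≤ q) (h1 : q ≤ 1) (b : Bool) : 0 ≤ wt q b := by
  cases b <;> simp [wt] <;> linarith

lemma bw_nonneg {q : ℝ} (h0 : 0 ≤ q) (h1 : q ≤ 1) (ω : ι → Bool) : 0 ≤ bernoulliWeight q ω :=
  Finset.prod_nonneg fun i _ => wt_nonneg h0 h1 (ω i)

lemma sum_prod (φ : ι → Bool → ℝ) :
    ∑ ω : ι → Bool, ∏ i, φ i (ω i) = ∏ i, (φ i true + φ i false) := by
  have := Finset.prod_univ_sum (fun _ : ι => (univ : Finset Bool)) φ
  rw [Fintype.piFinset_univ] at this
  rw [← this]
  simp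

lemma sum_bw_prod (q : ℝ) (φ : ι → Bool → ℝ) :
    ∑ ω : ι → Bool, bernoulliWeight q ω * ∏ i, φ i (ω i)
      = ∏ i, (q * φ i true + (1 - q) * φ i false) := by
  have := sum_prod (fun i b => wt q b * φ i b)
  simp only [Finset.prod_mul_distrib] at this
  simpa [bw_eq, wt] using this

lemma sum_bw (q : ℝ) : ∑ ω : ι → Bool, bernoulliWeight q ω = 1 := by
  simpa using sum_bw_prod (ι := ι) q (fun _ _ => 1)

/-- centred coordinate -/
noncomputable def xi (q : ℝ) (b : Bool) : ℝ := (if b then 1 else 0) - q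

/-- unnormalised Fourier coefficient -/
noncomputable def coef (q : ℝ) (f : (ι → Bool) → ℝ) (T : Finset ι) : ℝ :=
  ∑ ω, bernoulliWeight q ω * f ω * ∏ x ∈ T, xi q (ω x)

lemma coef_empty (q : ℝ) (f : (ι → Bool) → ℝ) :
    coef q f ∅ = ∑ ω, bernoulliWeight q ω * f ω := by simp [coef]

lemma kernel (q c : ℝ) (f : (ι → Bool) → ℝ) (S : Finset ι) :
    ∑ T ∈ S.powerset, c ^ T.card * coef q f T ^ 2
      = ∑ ω, ∑ ω', bernoulliWeight q ω * f ω * (bernoulliWeight q ω' * f ω') *
          ∏ x ∈ S, (1 + c * (xi q (ω x) * xi q (ω' x))) := by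
  have h1 : ∀ T : Finset ι, c ^ T.card * coef q f T ^ 2
      = ∑ ω, ∑ ω', bernoulliWeight q ω * f ω * (bernoulliWeight q ω' * f ω') *
          ∏ x ∈ T, (c * (xi q (ω x) * xi q (ω' x))) := by
    intro T
    rw [coef, sq, Finset.sum_mul_sum, Finset.mul_sum]
    refine Finset.sum_congr rfl fun ω _ => ?_
    rw [Finset.mul_sum]
    refine Finset.sum_congr rfl fun ω' _ => ?_
    rw [Finset.prod_mul_distrib, Finset.prod_mul_distrib, Finset.prod_const]
    ring
  simp only [h1, Finset.prod_one_add, Finset.mul_sum]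
  rw [Finset.sum_comm]
  refine Finset.sum_congr rfl fun ω _ => ?_
  rw [Finset.sum_comm]

lemma parseval {q : ℝ} (h0 : 0 < q) (h1 : q < 1) (f : (ι → Bool) → ℝ) :
    ∑ T : Finset ι, (1 / (q * (1 - q))) ^ T.card * coef q f T ^ 2
      = ∑ ω, bernoulliWeight q ω * f ω ^ 2 := by
  have h := kernel q (1 / (q * (1 - q))) f univ
  rw [Finset.powerset_univ] at h
  rw [h]
  refine Finset.sum_congr rfl fun ω _ => ?_
  have key : ∀ ω' : ι → Bool, bernoulliWeight q ω' *
      ∏ x, (1 + 1 / (q * (1 - q)) * (xi q (ω x) * xi q (ω' x))) = if ω = ω' then 1 else 0 := by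
    intro ω'
    rw [bw_eq, ← Finset.prod_mul_distrib]
    have h2 : ∀ x, wt q (ω' x) * (1 + 1 / (q * (1 - q)) * (xi q (ω x) * xi q (ω' x)))
        = if ω x = ω' x then 1 else 0 := by
      intro x
      have hq : q ≠ 0 := h0.ne'
      have hq' : 1 - q ≠ 0 := by linarith
      cases ω x <;> cases ω' x <;>
        simp only [wt, xi, Bool.false_eq_true, Bool.true_eq_false, if_true, if_false] <;>
        field_simp <;> ring
    simp only [h2]
    by_cases he : ω = ω'
    · simp [he]
    · rw [if_neg he]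
      obtain ⟨x, hx⟩ := Function.ne_iff.mp he
      exact Finset.prod_eq_zero (Finset.mem_univ x) (if_neg hx)
  have : ∀ ω' : ι → Bool, bernoulliWeight q ω * f ω * (bernoulliWeight q ω' * f ω') *
      ∏ x, (1 + 1 / (q * (1 - q)) * (xi q (ω x) * xi q (ω' x)))
      = if ω = ω' then bernoulliWeight q ω * f ω * f ω' else 0 := by
    intro ω'
    have := key ω'
    split_ifs with he
    · rw [if_pos he] at this
      linear_combination (bernoulliWeight q ω * f ω * f ω') * this
    · rw [if_neg he] at this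
      linear_combination (bernoulliWeight q ω * f ω * f ω') * this
  simp only [this, Finset.sum_ite_eq, Finset.mem_univ, if_true]
  ring

/-- the Hoffman factor vanishes when both coordinates are absent -/
lemma hoff_factor_ff {q : ℝ} (h0 : 0 < q) :
    1 + (-(1 / q ^ 2)) * (xi q false * xi q false) = 0 := by
  simp [xi]; field_simp; ring

/-- Hoffman inequality: the kernel sum dominates `mean² - (non-trivial Fourier mass below S)`. -/
lemma hoff_ge (q : ℝ) (f : (ι → Bool) → ℝ) (S : Finset ι) :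
    coef q f ∅ ^ 2 - ∑ T ∈ S.powerset.erase ∅, (1 / q ^ 2) ^ T.card * coef q f T ^ 2
      ≤ ∑ ω, ∑ ω', bernoulliWeight q ω * f ω * (bernoulliWeight q ω' * f ω') *
          ∏ x ∈ S, (1 + (-(1 / q ^ 2)) * (xi q (ω x) * xi q (ω' x))) := by
  rw [← kernel, ← Finset.add_sum_erase _ _ (Finset.empty_mem_powerset S)]
  simp only [Finset.card_empty, pow_zero, one_mul, sub_eq_add_neg, ← Finset.sum_neg_distrib]
  gcongr with T hT
  rw [← neg_mul]
  gcongr
  rw [neg_pow (1 / q ^ 2)]
  have h1 : (0 : ℝ) ≤ (1 / q ^ 2) ^ T.card := by positivity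
  rcases neg_one_pow_eq_or ℝ T.card with h | h <;> rw [h] <;> linarith

/-- union of two independent random sets -/
lemma sum_or (p p' : ℝ) (F : (ι → Bool) → ℝ) :
    ∑ ω : ι → Bool, ∑ ω' : ι → Bool,
        bernoulliWeight p ω * bernoulliWeight p' ω' * F (fun x => ω x || ω' x)
      = ∑ η, bernoulliWeight (p + p' - p * p') η * F η := by
  have h1 : ∀ ω ω' : ι → Bool, F (fun x => ω x || ω' x)
      = ∑ η, F η * ∏ x, (if η x = (ω x || ω' x) then (1 : ℝ) else 0) := by
    intro ω ω'
    rw [Finset.sum_eq_single (fun x => ω x || ω' x)]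
    · simp
    · intro η _ hη
      obtain ⟨x, hx⟩ := Function.ne_iff.mp hη
      rw [Finset.prod_eq_zero (Finset.mem_univ x) (if_neg hx), mul_zero]
    · simp
  have h2 : ∀ η : ι → Bool, ∑ ω : ι → Bool, ∑ ω' : ι → Bool,
      bernoulliWeight p ω * (bernoulliWeight p' ω' *
        ∏ x, (if η x = (ω x || ω' x) then (1 : ℝ) else 0))
      = bernoulliWeight (p + p' - p * p') η := by
    intro η
    have h3 : ∀ ω : ι → Bool, ∑ ω' : ι → Bool, bernoulliWeight p ω * (bernoulliWeight p' ω' *
        ∏ x, (if η x = (ω x || ω' x) then (1 : ℝ) else 0))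
        = bernoulliWeight p ω * ∏ x, (p' * (if η x = (ω x || true) then (1 : ℝ) else 0)
            + (1 - p') * (if η x = (ω x || false) then (1 : ℝ) else 0)) := by
      intro ω
      rw [← Finset.mul_sum, sum_bw_prod p' (fun x b => if η x = (ω x || b) then (1 : ℝ) else 0)]
    simp only [h3]
    rw [sum_bw_prod p (fun x b => p' * (if η x = (b || true) then (1 : ℝ) else 0)
            + (1 - p') * (if η x = (b || false) then (1 : ℝ) else 0)), bw_eq]
    refine Finset.prod_congr rfl fun x _ => ?_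
    cases η x <;> simp [wt] <;> ring
  simp only [h1, Finset.mul_sum]
  simp only [← h2, Finset.sum_mul]
  conv_rhs => rw [Finset.sum_comm]
  refine Finset.sum_congr rfl fun ω _ => ?_
  conv_rhs => rw [Finset.sum_comm]
  refine Finset.sum_congr rfl fun ω' _ => ?_
  refine Finset.sum_congr rfl fun η _ => ?_
  ring

end Crest.Agent.R52.Hoff
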