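import Crest.Agent.R52.Defs

set_option autoImplicit false
set_option linter.unusedSectionVars false

namespace Crest.Agent.R52

open Finset

section general

variable {ι ρ : Type*} [Fintype ι] [DecidableEq ι] [Fintype ρ]

open Classical in
/-- probability of an event for independent coordinates with law `w`. -/
noncomputable def prob (w : ρ → ℝ) (P : (ι → ρ) → Prop) : ℝ :=
  ∑ ω : ι → ρ, (∏ y, w (ω y)) * if P ω then 1 else 0

theorem sum_prod_eq_one (w : ρ → ℝ) (hw1 : ∑ Z, w Z = 1) :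
    ∑ ω : ι → ρ, ∏ y, w (ω y) = 1 := by
  classical
  rw [← Fintype.piFinset_univ, ← prod_univ_sum (fun _ => univ) (fun _ i => w i)]
  simp [hw1]

theorem prob_nonneg (w : ρ → ℝ) (hw0 : ∀ Z, 0 ≤ w Z) (P : (ι → ρ) → Prop) : 0 ≤ prob w P :=
  sum_nonneg fun ω _ => mul_nonneg (prod_nonneg fun _ _ => hw0 _) (by split_ifs <;> norm_num)

theorem prob_mono (w : ρ → ℝ) (hw0 : ∀ Z, 0 ≤ w Z) {P Q : (ι → ρ) → Prop}
    (h : ∀ ω, P ω → Q ω) : prob w P ≤ prob w Q := by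
  apply sum_le_sum
  intro ω _
  apply mul_le_mul_of_nonneg_left _ (prod_nonneg fun _ _ => hw0 _)
  by_cases hP : P ω
  · simp [hP, h ω hP]
  · simp only [hP, if_false]
    split_ifs <;> norm_num

theorem prob_not (w : ρ → ℝ) (hw1 : ∑ Z, w Z = 1) (P : (ι → ρ) → Prop) :
    prob w (fun ω => ¬ P ω) = 1 - prob w P := by
  rw [← sum_prod_eq_one (ι := ι) w hw1, prob, prob, ← sum_sub_distrib]
  apply sum_congr rfl
  intro ω _
  by_cases hP : P ω <;> simp [hP]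

theorem prob_le_one (w : ρ → ℝ) (hw0 : ∀ Z, 0 ≤ w Z) (hw1 : ∑ Z, w Z = 1)
    (P : (ι → ρ) → Prop) : prob w P ≤ 1 := by
  have := prob_not w hw1 P
  have := prob_nonneg w hw0 (fun ω => ¬ P ω)
  linarith

theorem prob_false (w : ρ → ℝ) {P : (ι → ρ) → Prop} (h : ∀ ω, ¬ P ω) : prob w P = 0 := by
  simp [prob, h]

/-- Markov type bound. -/
theorem prob_le_exp (w : ρ → ℝ) (hw0 : ∀ Z, 0 ≤ w Z) (P : (ι → ρ) → Prop)
    (F : (ι → ρ) → ℝ) (hF0 : ∀ ω, 0 ≤ F ω) (hF : ∀ ω, P ω → 1 ≤ F ω) :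
    prob w P ≤ ∑ ω : ι → ρ, (∏ y, w (ω y)) * F ω := by
  apply sum_le_sum
  intro ω _
  apply mul_le_mul_of_nonneg_left _ (prod_nonneg fun _ _ => hw0 _)
  split_ifs with h
  · exact hF ω h
  · exact hF0 ω

theorem prob_union_le {κ : Type*} (w : ρ → ℝ) (hw0 : ∀ Z, 0 ≤ w Z) (s : Finset κ)
    (P : κ → (ι → ρ) → Prop) :
    prob w (fun ω => ∃ k ∈ s, P k ω) ≤ ∑ k ∈ s, prob w (P k) := by
  classical
  refine (prob_le_exp w hw0 _ (fun ω => ∑ k ∈ s, if P k ω then 1 else 0) ?_ ?_).trans ?_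
  · intro ω
    exact sum_nonneg fun k _ => by split_ifs <;> norm_num
  · rintro ω ⟨k, hk, hP⟩
    have := single_le_sum (f := fun k => if P k ω then (1 : ℝ) else 0)
      (fun k _ => by split_ifs <;> norm_num) hk
    simpa [hP] using this
  · simp only [mul_sum, prob]
    rw [sum_comm]

/-- expectation of a product of functions of the coordinates. -/
theorem exp_prod (w : ρ → ℝ) (f : ι → ρ → ℝ) :
    ∑ ω : ι → ρ, (∏ y, w (ω y)) * ∏ y, f y (ω y) = ∏ y, ∑ Z, w Z * f y Z := by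
  classical
  rw [prod_univ_sum (fun _ => univ) (fun y Z => w Z * f y Z), Fintype.piFinset_univ]
  apply sum_congr rfl
  intro ω _
  rw [prod_mul_distrib]

theorem resample (w : ρ → ℝ) (hw1 : ∑ Z, w Z = 1) (y : ι) (F : (ι → ρ) → ℝ) :
    ∑ ω : ι → ρ, (∏ x, w (ω x)) * F ω =
      ∑ Z, w Z * ∑ ω : ι → ρ, (∏ x, w (ω x)) * F (Function.update ω y Z) := by
  classical
  have h1 : ∑ ω : ι → ρ, (∏ x, w (ω x)) * F ω =
      ∑ p : ρ × (ι → ρ), w p.1 * ((∏ x, w (p.2 x)) * F p.2) := by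
    rw [Fintype.sum_prod_type]
    simp_rw [← mul_sum]
    rw [← sum_mul, hw1, one_mul]
  have h2 : ∑ Z, w Z * ∑ ω : ι → ρ, (∏ x, w (ω x)) * F (Function.update ω y Z) =
      ∑ p : ρ × (ι → ρ), w p.1 * ((∏ x, w (p.2 x)) * F (Function.update p.2 y p.1)) := by
    rw [Fintype.sum_prod_type]
    simp_rw [← mul_sum]
  rw [h1, h2]
  let e : ρ × (ι → ρ) ≃ ρ × (ι → ρ) :=
    { toFun := fun p => (p.2 y, Function.update p.2 y p.1)
      invFun := fun p => (p.2 y, Function.update p.2 y p.1)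
      left_inv := fun p => by simp
      right_inv := fun p => by simp }
  rw [← e.sum_comp]
  apply sum_congr rfl
  rintro ⟨Z, ω⟩ _
  simp only [e, Equiv.coe_fn_mk]
  rw [← mul_assoc, ← mul_assoc]
  congr 1
  rw [← mul_prod_erase univ _ (mem_univ y), ← mul_prod_erase univ (fun x => w (ω x)) (mem_univ y)]
  have : ∏ x ∈ univ.erase y, w (Function.update ω y Z x) = ∏ x ∈ univ.erase y, w (ω x) :=
    prod_congr rfl fun x hx => by rw [Function.update_of_ne (mem_erase.1 hx).1]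
  rw [this, Function.update_self]
  ring

theorem prob_resample (w : ρ → ℝ) (hw1 : ∑ Z, w Z = 1) (y : ι) (P : (ι → ρ) → Prop) :
    prob w P = ∑ Z, w Z * prob w (fun ω => P (Function.update ω y Z)) := by
  classical
  unfold prob
  rw [resample w hw1 y]

end general

section scan

variable {W : Type*} [DecidableEq W] {n : ℕ}

/-- The directed pattern `D` (vertex `u` must see every `v ∈ D u` in its row) embeds. -/
def Emb (D : W → Finset W) (U : Finset W) (ω : Fin n → Finset (Fin n)) : Prop :=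
  ∃ φ : W → Fin n, Set.InjOn φ U ∧ ∀ u, ∀ v ∈ D u, φ v < φ u ∧ φ v ∈ ω (φ u)

/-- completion of a partial embedding by rows `≥ y`. -/
def Succ (D : W → Finset W) (U : Finset W) (y : ℕ) (E : Finset W) (φ : W → Fin n)
    (ω : Fin n → Finset (Fin n)) : Prop :=
  ∃ φ' : W → Fin n, Set.InjOn φ' U ∧ (∀ x ∈ E, φ' x = φ x) ∧
    ∀ u, u ∉ E → ∀ v ∈ D u, y ≤ (φ' u : ℕ) ∧ φ' v < φ' u ∧ φ' v ∈ ω (φ' u)

theorem scan (q : ℝ) (hq0 : 0 ≤ q) (hq1 : q ≤ 1) (D : W → Finset W) (U : Finset W)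
    (hU : ∀ u, u ∉ U → D u = ∅) (y0 : ℕ) (ok : ℕ → Finset W → (W → Fin n) → Prop)
    (hok : ∀ y E φ, ok y E φ → ok (y + 1) E φ) (hinj : ∀ y E φ, ok y E φ → Set.InjOn φ E)
    (V : Finset W → ℝ) (hV : ∀ E, 0 ≤ V E)
    (step : ∀ (y : Fin n) E φ, y0 ≤ (y : ℕ) → ok y E φ → ¬ U ⊆ E →
      ∃ (a : ℝ) (𝒵 : Finset (Finset (Fin n))), 1 ≤ a * mu q 𝒵 ∧ ∀ Z ∈ 𝒵, ∃ E' φ',
        ok (y + 1) E' φ' ∧ V E' ≤ V E - a ∧ E ⊆ E' ∧ (∀ x ∈ E, φ' x = φ x) ∧
        ∀ u ∈ E', u ∉ E → ∀ v ∈ D u, φ' u = y ∧ v ∈ E' ∧ φ' v < y ∧ φ' v ∈ Z) :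
    ∀ (R y : ℕ), y + R = n → y0 ≤ y → ∀ E φ, ok y E φ →
      R * prob (wt q) (fun ω => ¬ Succ D U y E φ ω) ≤ V E := by
  classical
  have hw0 : ∀ Z : Finset (Fin n), 0 ≤ wt q Z := wt_nonneg hq0 hq1
  have hw1 : ∑ Z : Finset (Fin n), wt q Z = 1 := sum_wt q
  intro R
  induction R with
  | zero => intro y _ _ E φ _; simpa using hV E
  | succ R ih =>
    intro y hy hy0 E φ hE
    by_cases hUE : U ⊆ E
    · rw [prob_false, mul_zero]
      · exact hV E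
      · intro ω h
        apply h
        refine ⟨φ, (hinj y E φ hE).mono (by exact_mod_cast hUE), fun _ _ => rfl, ?_⟩
        intro u hu v hv
        rw [hU u (fun h => hu (hUE h))] at hv
        simp at hv
    let y' : Fin n := ⟨y, by omega⟩
    obtain ⟨a, 𝒵, ha, hstep⟩ := step y' E φ hy0 hE hUE
    -- each row
    have hloc : ∀ (Z : Finset (Fin n)) E' φ', E ⊆ E' → (∀ x ∈ E, φ' x = φ x) →
        (∀ u ∈ E', u ∉ E → ∀ v ∈ D u, φ' u = y' ∧ v ∈ E' ∧ φ' v < y' ∧ φ' v ∈ Z) →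
        ∀ ω, Succ D U (y + 1) E' φ' ω → Succ D U y E φ (Function.update ω y' Z) := by
      rintro Z E' φ' h1 h2 h3 ω ⟨ψ, hψ1, hψ2, hψ3⟩
      refine ⟨ψ, hψ1, fun x hx => by rw [hψ2 x (h1 hx), h2 x hx], ?_⟩
      intro u hu v hv
      by_cases huE : u ∈ E'
      · obtain ⟨a1, a2, a3, a4⟩ := h3 u huE hu v hv
        rw [hψ2 u huE, hψ2 v a2, a1, Function.update_self]
        exact ⟨le_rfl, a3, a4⟩
      · obtain ⟨a1, a2, a3⟩ := hψ3 u huE v hv
        have hne : ψ u ≠ y' := by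
          intro h
          rw [h] at a1
          simp [y'] at a1
        rw [Function.update_of_ne hne]
        exact ⟨by omega, a2, a3⟩
    have hrow : ∀ Z : Finset (Fin n),
        R * prob (wt q) (fun ω => ¬ Succ D U y E φ (Function.update ω y' Z)) ≤
          V E - if Z ∈ 𝒵 then a else 0 := by
      intro Z
      split_ifs with hZ
      · obtain ⟨E', φ', h1, h2, h3, h4, h5⟩ := hstep Z hZ
        refine le_trans ?_ ((ih (y + 1) (by omega) (by omega) E' φ' h1).trans h2)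
        apply mul_le_mul_of_nonneg_left _ (Nat.cast_nonneg _)
        exact prob_mono _ hw0 fun ω h h' => h (hloc Z E' φ' h3 h4 h5 ω h')
      · rw [sub_zero]
        refine le_trans ?_ (ih (y + 1) (by omega) (by omega) E φ (hok _ _ _ hE))
        apply mul_le_mul_of_nonneg_left _ (Nat.cast_nonneg _)
        exact prob_mono _ hw0 fun ω h h' => h (hloc Z E φ Subset.rfl (fun _ _ => rfl)
          (fun u hu hu' => absurd hu hu') ω h')
    have h1 : R * prob (wt q) (fun ω => ¬ Succ D U y E φ ω) ≤ V E - a * mu q 𝒵 := by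
      rw [prob_resample _ hw1 y', mul_sum]
      calc ∑ Z, (R : ℝ) * (wt q Z *
              prob (wt q) (fun ω => ¬ Succ D U y E φ (Function.update ω y' Z)))
          ≤ ∑ Z, wt q Z * (V E - if Z ∈ 𝒵 then a else 0) := by
            apply sum_le_sum
            intro Z _
            rw [mul_left_comm]
            exact mul_le_mul_of_nonneg_left (hrow Z) (hw0 Z)
        _ = V E - a * mu q 𝒵 := by
            simp only [mul_sub, sum_sub_distrib, ← sum_mul, hw1, one_mul, mul_ite, mul_zero]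
            rw [sum_ite_mem, univ_inter, ← sum_mul, mu, mul_comm]
    have h2 := prob_le_one (wt q) hw0 hw1 (fun ω => ¬ Succ D U y E φ ω)
    push_cast
    linarith

theorem scan_emb (q : ℝ) (hq0 : 0 ≤ q) (hq1 : q ≤ 1) (D : W → Finset W) (U : Finset W)
    (hU : ∀ u, u ∉ U → D u = ∅) (y0 : ℕ) (hy0 : y0 < n) (ok : ℕ → Finset W → (W → Fin n) → Prop)
    (hok : ∀ y E φ, ok y E φ → ok (y + 1) E φ) (hinj : ∀ y E φ, ok y E φ → Set.InjOn φ E)
    (V : Finset W → ℝ) (hV : ∀ E, 0 ≤ V E)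
    (step : ∀ (y : Fin n) E φ, y0 ≤ (y : ℕ) → ok y E φ → ¬ U ⊆ E →
      ∃ (a : ℝ) (𝒵 : Finset (Finset (Fin n))), 1 ≤ a * mu q 𝒵 ∧ ∀ Z ∈ 𝒵, ∃ E' φ',
        ok (y + 1) E' φ' ∧ V E' ≤ V E - a ∧ E ⊆ E' ∧ (∀ x ∈ E, φ' x = φ x) ∧
        ∀ u ∈ E', u ∉ E → ∀ v ∈ D u, φ' u = y ∧ v ∈ E' ∧ φ' v < y ∧ φ' v ∈ Z)
    (φ0 : W → Fin n) (h0 : ok y0 ∅ φ0) (hV0 : 2 * V ∅ ≤ n - y0) :
    1 / 2 ≤ prob (wt q) (Emb (n := n) D U) := by
  have hw0 : ∀ Z : Finset (Fin n), 0 ≤ wt q Z := wt_nonneg hq0 hq1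
  have hw1 : ∑ Z : Finset (Fin n), wt q Z = 1 := sum_wt q
  have h1 := scan q hq0 hq1 D U hU y0 ok hok hinj V hV step (n - y0) y0 (by omega) le_rfl ∅ φ0 h0
  rw [Nat.cast_sub hy0.le, prob_not _ hw1] at h1
  have h2 : prob (wt q) (Succ D U y0 ∅ φ0) ≤ prob (wt q) (Emb (n := n) D U) := by
    apply prob_mono _ hw0
    rintro ω ⟨ψ, a1, _, a3⟩
    exact ⟨ψ, a1, fun u v hv => (a3 u (notMem_empty u) v hv).2⟩
  have h3 : (0 : ℝ) < n - y0 := by
    have : (y0 : ℝ) < n := by exact_mod_cast hy0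
    linarith
  by_contra hcon
  have h4 : prob (wt q) (Succ D U y0 ∅ φ0) < 1 / 2 := by linarith [not_le.1 hcon]
  nlinarith

end scan

end Crest.Agent.R52
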