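import Crest.Agent.R52.Count

set_option autoImplicit false
set_option linter.unusedSectionVars false

namespace Crest.Agent.R52

open Finset

variable {α : Type*} [Fintype α] [DecidableEq α] {I : ℕ}

/-- level set of `y` in `A`. -/
noncomputable def lev (l : Finset α → α → ℝ) (A : Finset α) (y : α) : Finset α :=
  A.filter (fun x => l A y ≤ l A x)

/-- number of elements of a level set with type `> i`. -/
noncomputable def cnt (l : Finset α → α → ℝ) (A : Finset α) (y : α) (j : α → Fin (I + 1))
    (i : ℕ) : ℕ :=
  ((lev l A y).filter (fun x => i < (j x : ℕ))).card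

def feas (l : Finset α → α → ℝ) (A : Finset α) (j : α → Fin (I + 1)) (M : ℕ → ℕ) : Prop :=
  ∀ y ∈ A, ∀ i, cnt l A y j i = 0 ∨ 2 ^ (i + 2) * (cnt l A y j i + M i) ≤ (lev l A y).card

open Classical in
noncomputable def can (F : Finset (Finset α)) (l : Finset α → α → ℝ) (j : α → Fin (I + 1))
    (M : ℕ → ℕ) : Finset α :=
  if h : ∃ A ∈ F, feas l A j M then h.choose else ∅

theorem can_spec (F : Finset (Finset α)) (l : Finset α → α → ℝ) (j : α → Fin (I + 1))
    (M : ℕ → ℕ) (h : ∃ A ∈ F, feas l A j M) : can F l j M ∈ F ∧ feas l (can F l j M) j M := by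
  unfold can
  rw [dif_pos h]
  exact h.choose_spec

def Mof (u : Fin (I + 1) → ℕ) (i : ℕ) : ℕ := ∑ k ∈ univ.filter (fun k : Fin (I + 1) => (k : ℕ) ≤ i), u k

noncomputable def Tset (F : Finset (Finset α)) (l : Finset α → α → ℝ) (j : α → Fin (I + 1))
    (u : Fin (I + 1) → ℕ) (i : Fin (I + 1)) : Finset α :=
  (can F l j (Mof u)).filter
    (fun x => (lev l (can F l j (Mof u)) x).card < 2 ^ ((i : ℕ) + 2) * Mof u i)

theorem card_small (l : Finset α → α → ℝ) (A : Finset α) (N : ℕ) :
    (A.filter (fun x => (lev l A x).card < N)).card ≤ N := by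
  rcases (A.filter (fun x => (lev l A x).card < N)).eq_empty_or_nonempty with h | h
  · rw [h]; simp
  obtain ⟨x0, hx0, hmin⟩ := exists_min_image _ (l A) h
  have h1 := (mem_filter.1 hx0).2
  refine le_trans (card_le_card ?_) h1.le
  intro x hx
  exact mem_filter.2 ⟨(mem_filter.1 hx).1, hmin x hx⟩

theorem Tset_card (F : Finset (Finset α)) (l : Finset α → α → ℝ) (j : α → Fin (I + 1))
    (u : Fin (I + 1) → ℕ) (i : Fin (I + 1)) :
    ((Tset F l j u i).card : ℝ) ≤ 2 ^ ((i : ℕ) + 2) * ∑ k, (u k : ℝ) := by
  have h1 := card_small l (can F l j (Mof u)) (2 ^ ((i : ℕ) + 2) * Mof u i)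
  have h2 : Mof u i ≤ ∑ k, u k := sum_le_sum_of_subset (filter_subset _ _)
  have h3 : (Tset F l j u i).card ≤ 2 ^ ((i : ℕ) + 2) * ∑ k, u k :=
    h1.trans (Nat.mul_le_mul_left _ h2)
  exact_mod_cast h3

theorem Mof_cnt (U : Finset α) (j : α → Fin (I + 1)) (i : ℕ) :
    Mof (fun k => (U.filter (fun z => j z = k)).card) i =
      (U.filter (fun z => (j z : ℕ) ≤ i)).card := by
  unfold Mof
  rw [card_eq_sum_card_fiberwise (f := j) (s := U.filter (fun z => (j z : ℕ) ≤ i))
    (t := univ.filter (fun k : Fin (I + 1) => (k : ℕ) ≤ i))]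
  · apply sum_congr rfl
    intro k hk
    refine congrArg Finset.card ?_
    ext x
    simp only [mem_filter]
    have := (mem_filter.1 hk).2
    constructor
    · rintro ⟨a, b⟩
      exact ⟨⟨a, by rw [b]; exact this⟩, b⟩
    · rintro ⟨⟨a, _⟩, b⟩
      exact ⟨a, b⟩
  · intro x hx
    simpa using (mem_filter.1 (mem_coe.1 hx)).2

/-- lowered set -/
def low (j j' : α → Fin (I + 1)) : Finset α := univ.filter (fun x => j' x < j x)

theorem select (F : Finset (Finset α)) (l : Finset α → α → ℝ) (j : α → Fin (I + 1))
    (hbad : ∀ A ∈ F, ¬ feas l A j 0) (A0 : Finset α) (hA0 : A0 ∈ F) :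
    ∃ j' : α → Fin (I + 1), (∀ x, j' x ≤ j x) ∧ low j j' ⊆ A0 ∧ (low j j').Nonempty ∧
      ∀ x ∈ low j j',
        x ∈ Tset F l j' (fun k => ((low j j').filter (fun z => j' z = k)).card) (j' x) := by
  classical
  let Ms : (α → Fin (I + 1)) → ℕ → ℕ := fun j' i =>
    ((low j j').filter (fun z => (j' z : ℕ) ≤ i)).card
  let J : Finset (α → Fin (I + 1)) := univ.filter (fun j' =>
    (∀ x, j' x ≤ j x) ∧ low j j' ⊆ A0 ∧ ∃ A ∈ F, feas l A j' (Ms j'))
  have hJ : J.Nonempty := by
    refine ⟨fun x => if x ∈ A0 then 0 else j x, mem_filter.2 ⟨mem_univ _, ?_, ?_, A0, hA0, ?_⟩⟩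
    · intro x
      dsimp only
      split_ifs
      · exact Fin.zero_le _
      · exact le_rfl
    · intro x hx
      by_contra h
      simp [low, h] at hx
    · intro y _ i
      left
      unfold cnt
      rw [card_eq_zero, filter_eq_empty_iff]
      intro x hx
      have : x ∈ A0 := (mem_filter.1 hx).1
      simp [this]
  obtain ⟨j', hj', hmax⟩ := exists_max_image J (fun j' => ∑ x, (j' x : ℕ)) hJ
  obtain ⟨hle, hsub, hfeas⟩ := (mem_filter.1 hj').2
  refine ⟨j', hle, hsub, ?_, ?_⟩
  · rw [nonempty_iff_ne_empty]
    intro h0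
    have hjj : j' = j := by
      funext x
      by_contra hx
      have : x ∈ low j j' := mem_filter.2 ⟨mem_univ _, lt_of_le_of_ne (hle x) hx⟩
      rw [h0] at this
      simp at this
    obtain ⟨A, hA, hf⟩ := hfeas
    apply hbad A hA
    have : Ms j' = 0 := by
      funext i
      simp [Ms, h0]
    rw [this, hjj] at hf
    exact hf
  · intro x hx
    have hM : Mof (fun k => ((low j j').filter (fun z => j' z = k)).card) = Ms j' := by
      funext i
      exact Mof_cnt _ _ _
    unfold Tset
    rw [hM]
    obtain ⟨hAF, hAf⟩ := can_spec F l j' (Ms j') hfeas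
    set A := can F l j' (Ms j')
    by_contra hcon
    have hxlt : j' x < j x := (mem_filter.1 hx).2
    have hxlt' : (j' x : ℕ) < j x := hxlt
    have hb : (j' x : ℕ) + 1 < I + 1 := by have := (j x).2; omega
    let j'' : α → Fin (I + 1) := Function.update j' x ⟨j' x + 1, hb⟩
    have hx'' : (j'' x : ℕ) = j' x + 1 := by simp [j'']
    have hne'' : ∀ z, z ≠ x → j'' z = j' z := fun z hz => by simp [j'', hz]
    have hlow : low j j'' ⊆ low j j' := by
      intro z hz
      by_cases h : z = x
      · rw [h]; exact hx
      · have := (mem_filter.1 hz).2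
        rw [hne'' z h] at this
        exact mem_filter.2 ⟨mem_univ _, this⟩
    have hMs : ∀ i, ((low j j'').filter (fun z => (j'' z : ℕ) ≤ i)) ⊆
        ((low j j').filter (fun z => (j' z : ℕ) ≤ i)) := by
      intro i z hz
      have h1 := mem_filter.1 hz
      refine mem_filter.2 ⟨hlow h1.1, ?_⟩
      by_cases h : z = x
      · have h2 := h1.2
        rw [h] at h2 ⊢
        omega
      · have h2 := h1.2
        rwa [hne'' z h] at h2
    have hMle : ∀ i, Ms j'' i ≤ Ms j' i := fun i => card_le_card (hMs i)
    have hMlt : Ms j'' (j' x) < Ms j' (j' x) := by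
      apply card_lt_card
      refine ⟨hMs _, fun h => ?_⟩
      have := h (mem_filter.2 ⟨hx, le_rfl⟩)
      have h2 := (mem_filter.1 this).2
      omega
    have hJ'' : j'' ∈ J := by
      refine mem_filter.2 ⟨mem_univ _, ?_, hlow.trans hsub, A, hAF, ?_⟩
      · intro z
        by_cases h : z = x
        · rw [h]
          show (j'' x : ℕ) ≤ j x
          omega
        · rw [hne'' z h]; exact hle z
      · intro y hy i
        by_cases hc : x ∈ lev l A y ∧ i = j' x
        · obtain ⟨hc1, hc2⟩ := hc
          have hcnt : cnt l A y j'' i ≤ cnt l A y j' i + 1 := by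
            unfold cnt
            refine le_trans (card_le_card (t := insert x
              ((lev l A y).filter (fun z => i < (j' z : ℕ)))) ?_) (card_insert_le _ _)
            intro z hz
            by_cases h : z = x
            · rw [h]; exact mem_insert_self _ _
            · have h1 := mem_filter.1 hz
              rw [hne'' z h] at h1
              exact mem_insert_of_mem (mem_filter.2 h1)
          have hxA : x ∈ A := (mem_filter.1 hc1).1
          have hbig : 2 ^ ((j' x : ℕ) + 2) * Ms j' (j' x) ≤ (lev l A y).card := by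
            have h1 : ¬ (lev l A x).card < 2 ^ ((j' x : ℕ) + 2) * Ms j' (j' x) :=
              fun h => hcon (mem_filter.2 ⟨hxA, h⟩)
            refine (not_lt.1 h1).trans (card_le_card ?_)
            intro z hz
            have h2 := mem_filter.1 hz
            exact mem_filter.2 ⟨h2.1, (mem_filter.1 hc1).2.trans h2.2⟩
          right
          subst hc2
          rcases hAf y hy (j' x) with h0 | h0
          · refine le_trans (Nat.mul_le_mul_left _ ?_) hbig
            omega
          · refine le_trans (Nat.mul_le_mul_left _ ?_) h0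
            omega
        · have hcnt : cnt l A y j'' i = cnt l A y j' i := by
            unfold cnt
            congr 1
            apply filter_congr
            intro z hz
            by_cases h : z = x
            · subst h
              have : i ≠ j' z := fun h => hc ⟨hz, h⟩
              omega
            · rw [hne'' z h]
          rw [hcnt]
          rcases hAf y hy i with h0 | h0
          · exact Or.inl h0
          · right
            refine le_trans (Nat.mul_le_mul_left _ ?_) h0
            have := hMle i
            omega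
    have h1 := hmax j'' hJ''
    have h2 : ∑ z, (j' z : ℕ) < ∑ z, (j'' z : ℕ) := by
      apply sum_lt_sum
      · intro z _
        by_cases h : z = x
        · rw [h]; omega
        · rw [hne'' z h]
      · exact ⟨x, mem_univ _, by omega⟩
    omega

end Crest.Agent.R52
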