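import Crest.Agent.R52.Prob

set_option autoImplicit false
set_option linter.unusedSectionVars false

namespace Crest.Agent.R52

open Finset

section binom

variable {α : Type*} [Fintype α] [DecidableEq α]

theorem mu_lower_tail (q : ℝ) (hq0 : 0 ≤ q) (hq1 : q ≤ 1) (F : Finset α) (t : ℕ) :
    mu q (univ.filter (fun Z => ¬ t ≤ (Z ∩ F).card)) ≤ 2 ^ t * Real.exp (-(F.card * q / 2)) := by
  have h1 := sum_wt_prod (α := α) q (fun x => if x ∈ F then 1 / 2 else 1) (fun _ => 1)
  have h2 : ∏ x : α, (q * (if x ∈ F then 1 / 2 else 1) + (1 - q) * 1) = (1 - q / 2) ^ F.card := by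
    rw [← prod_mul_prod_compl F, ← prod_const,
      prod_congr rfl (s₂ := Fᶜ) (g := fun _ => 1) (fun x hx => by simp [mem_compl.1 hx]),
      prod_const_one, mul_one]
    exact prod_congr rfl fun x hx => by simp only [hx, if_true]; ring
  have h3 : ∀ Z : Finset α, ∏ x, (if x ∈ Z then (if x ∈ F then (1 / 2 : ℝ) else 1) else 1) =
      (1 / 2) ^ (Z ∩ F).card := by
    intro Z
    rw [prod_ite_mem, univ_inter, prod_ite_mem, prod_const]
  simp_rw [h2, h3] at h1
  have h4 : (1 - q / 2) ^ F.card ≤ Real.exp (-(F.card * q / 2)) := by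
    have : -(F.card * q / 2) = F.card * (-(q / 2)) := by ring
    rw [this, Real.exp_nat_mul]
    apply pow_le_pow_left₀ (by linarith)
    linarith [Real.add_one_le_exp (-(q / 2))]
  calc mu q (univ.filter (fun Z => ¬ t ≤ (Z ∩ F).card))
      ≤ ∑ Z ∈ univ.filter (fun Z => ¬ t ≤ (Z ∩ F).card),
          2 ^ t * (wt q Z * (1 / 2) ^ (Z ∩ F).card) := by
        apply sum_le_sum
        intro Z hZ
        have h5 : (Z ∩ F).card ≤ t := (not_le.1 (mem_filter.1 hZ).2).le
        have h6 : (1 : ℝ) ≤ 2 ^ t * (1 / 2) ^ (Z ∩ F).card := by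
          rw [one_div, inv_pow, ← div_eq_mul_inv, le_div_iff₀ (by positivity), one_mul]
          exact pow_le_pow_right₀ (by norm_num) h5
        have := wt_nonneg hq0 hq1 Z
        nlinarith
    _ ≤ ∑ Z : Finset α, 2 ^ t * (wt q Z * (1 / 2) ^ (Z ∩ F).card) := by
        apply sum_le_sum_of_subset_of_nonneg (filter_subset _ _)
        intro Z _ _
        have := wt_nonneg hq0 hq1 Z
        positivity
    _ ≤ _ := by
        rw [← mul_sum, h1]
        gcongr

theorem mu_inter_eq (q : ℝ) (F T : Finset α) (hT : T ⊆ F) :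
    mu q (univ.filter (fun Z => Z ∩ F = T)) = q ^ T.card * (1 - q) ^ (F \ T).card := by
  have h1 := sum_wt_prod (α := α) q (fun x => if x ∈ F \ T then 0 else 1)
    (fun x => if x ∈ T then 0 else 1)
  have h2 : ∏ x : α, (q * (if x ∈ F \ T then 0 else 1) + (1 - q) * (if x ∈ T then 0 else 1)) =
      ∏ x : α, ((if x ∈ T then q else 1) * (if x ∈ F \ T then 1 - q else 1)) := by
    apply prod_congr rfl
    intro x _
    by_cases a : x ∈ T <;> by_cases b : x ∈ F <;> simp [a, b]
  rw [h2, prod_mul_distrib, prod_ite_mem, prod_ite_mem, univ_inter, univ_inter, prod_const,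
    prod_const] at h1
  rw [← h1, mu, sum_filter]
  apply sum_congr rfl
  intro Z _
  split_ifs with h
  · rw [prod_eq_one, mul_one]
    intro x _
    subst h
    by_cases a : x ∈ Z <;> by_cases b : x ∈ F <;> simp [a, b]
  · have : ∃ x, ¬ (x ∈ Z ∩ F ↔ x ∈ T) := by
      by_contra h'
      push Not at h'
      exact h (Finset.ext h')
    obtain ⟨x, hx⟩ := this
    rw [prod_eq_zero (mem_univ x), mul_zero]
    have := @hT x
    by_cases a : x ∈ Z <;> by_cases b : x ∈ F <;> by_cases c : x ∈ T <;> simp_all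

theorem mu_card_ge (q : ℝ) (hq0 : 0 ≤ q) (hq1 : q ≤ 1) (F : Finset α) (t : ℕ) :
    F.card.choose t * (q ^ t * (1 - q) ^ F.card) ≤
      mu q (univ.filter (fun Z => t ≤ (Z ∩ F).card)) := by
  have h1 : mu q (univ.filter (fun Z => (Z ∩ F).card = t)) ≤
      mu q (univ.filter (fun Z => t ≤ (Z ∩ F).card)) := by
    apply mu_mono hq0 hq1
    intro Z hZ
    exact mem_filter.2 ⟨mem_univ _, (mem_filter.1 hZ).2.ge⟩
  refine le_trans ?_ h1
  unfold mu
  rw [← sum_fiberwise_of_maps_to (t := powersetCard t F) (g := fun Z => Z ∩ F)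
    (fun Z hZ => mem_powersetCard.2 ⟨inter_subset_right, (mem_filter.1 hZ).2⟩),
    ← card_powersetCard, ← nsmul_eq_mul, ← sum_const]
  apply sum_le_sum
  intro T hT
  obtain ⟨h2, h3⟩ := mem_powersetCard.1 hT
  have h4 : (univ.filter (fun Z => (Z ∩ F).card = t)).filter (fun Z => Z ∩ F = T) =
      univ.filter (fun Z => Z ∩ F = T) := by
    ext Z
    simp only [mem_filter, mem_univ, true_and]
    exact ⟨fun h => h.2, fun h => ⟨by rw [h, h3], h⟩⟩
  have h5 := mu_inter_eq q F T h2
  unfold mu at h5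
  rw [h4, h5, h3]
  apply mul_le_mul_of_nonneg_left _ (pow_nonneg hq0 _)
  exact pow_le_pow_of_le_one (by linarith) (by linarith) (card_le_card sdiff_subset)

theorem exp_eight_le : Real.exp 8 ≤ 3000 := by
  have h := Real.exp_one_lt_d9
  have h2 : Real.exp 8 = Real.exp 1 ^ 8 := by rw [← Real.exp_nat_mul]; norm_num
  rw [h2]
  calc Real.exp 1 ^ 8 ≤ (2.7182818286 : ℝ) ^ 8 := pow_le_pow_left₀ (Real.exp_pos 1).le h.le 8
    _ ≤ 3000 := by norm_num

theorem star_prob (q : ℝ) (hq0 : 0 < q) (hq1 : q ≤ 1 / 2) (F : Finset α) (hF : 0 < F.card)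
    (t : ℕ) (ht : 2 * t ≤ F.card) :
    1 ≤ (2 + (6000 * t / (F.card * q)) ^ t) * mu q (univ.filter (fun Z => t ≤ (Z ∩ F).card)) := by
  set N := F.card with hN
  have hN0 : (0 : ℝ) < N := by exact_mod_cast hF
  have hm0 := mu_nonneg hq0.le (by linarith) (univ.filter (fun Z => t ≤ (Z ∩ F).card))
  have hp0 : (0 : ℝ) ≤ (6000 * t / (N * q)) ^ t := by positivity
  rcases Nat.eq_zero_or_pos t with rfl | ht0
  · simp only [zero_le, filter_true, mu_univ]
    norm_num
  have ht0' : (0 : ℝ) < t := by exact_mod_cast ht0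
  by_cases hc : 4 * (t : ℝ) ≤ N * q
  · have h1 := mu_lower_tail q hq0.le (by linarith) F t
    have h2 : mu q (univ.filter (fun Z => t ≤ (Z ∩ F).card)) +
        mu q (univ.filter (fun Z => ¬ t ≤ (Z ∩ F).card)) = 1 := by
      unfold mu
      rw [sum_filter_add_sum_filter_not, sum_wt]
    have h3 : (2 : ℝ) ^ t * Real.exp (-(N * q / 2)) ≤ 1 / 2 := by
      have h4 : Real.exp (-(N * q / 2)) ≤ (1 / 4) ^ t := by
        have h5 : Real.exp (-2) ≤ 1 / 4 := by
          rw [Real.exp_neg, inv_le_comm₀ (Real.exp_pos _) (by norm_num)]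
          have := Real.add_one_le_exp 1
          have h6 : Real.exp 2 = Real.exp 1 * Real.exp 1 := by rw [← Real.exp_add]; norm_num
          nlinarith
        calc Real.exp (-(N * q / 2)) ≤ Real.exp (t * (-2)) := Real.exp_le_exp.2 (by linarith)
          _ = Real.exp (-2) ^ t := Real.exp_nat_mul _ _
          _ ≤ _ := pow_le_pow_left₀ (Real.exp_pos _).le h5 _
      calc (2 : ℝ) ^ t * Real.exp (-(N * q / 2)) ≤ 2 ^ t * (1 / 4) ^ t := by gcongr
        _ = (1 / 2) ^ t := by rw [← mul_pow]; norm_num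
        _ ≤ (1 / 2) ^ 1 := pow_le_pow_of_le_one (by norm_num) (by norm_num) ht0
        _ = 1 / 2 := by norm_num
    nlinarith
  · have h1 := mu_card_ge q hq0.le (by linarith) F t
    have h2 : ((N : ℝ) / (2 * t)) ^ t ≤ N.choose t := by
      refine le_trans ?_ (Nat.pow_le_choose t N)
      have h3 : (N : ℝ) / 2 ≤ ((N + 1 - t : ℕ) : ℝ) := by
        rw [Nat.cast_sub (by omega)]
        have : (2 * t : ℝ) ≤ N := by exact_mod_cast ht
        push_cast
        linarith
      have h4 : (t.factorial : ℝ) ≤ (t : ℝ) ^ t := by exact_mod_cast Nat.factorial_le_pow t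
      rw [← div_div, div_pow]
      gcongr
    have h3 : (1 / 3000 : ℝ) ^ t ≤ (1 - q) ^ N := by
      have h4 : Real.exp (-(2 * q)) ≤ 1 - q := by
        rw [Real.exp_neg, inv_le_comm₀ (Real.exp_pos _) (by linarith)]
        refine le_trans ?_ (Real.add_one_le_exp _)
        rw [inv_le_iff_one_le_mul₀ (by linarith)]
        nlinarith
      have h5 : (1 / 3000 : ℝ) ≤ Real.exp (-8) := by
        rw [Real.exp_neg, one_div]
        exact inv_anti₀ (Real.exp_pos _) exp_eight_le
      calc (1 / 3000 : ℝ) ^ t ≤ Real.exp (-8) ^ t := pow_le_pow_left₀ (by norm_num) h5 _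
        _ = Real.exp (t * (-8)) := (Real.exp_nat_mul _ _).symm
        _ ≤ Real.exp (N * (-(2 * q))) := Real.exp_le_exp.2 (by linarith [not_le.1 hc])
        _ = Real.exp (-(2 * q)) ^ N := Real.exp_nat_mul _ _
        _ ≤ _ := pow_le_pow_left₀ (Real.exp_pos _).le h4 _
    have h4 : ((N : ℝ) / (2 * t)) ^ t * (q ^ t * (1 / 3000 : ℝ) ^ t) ≤
        mu q (univ.filter (fun Z => t ≤ (Z ∩ F).card)) := by
      refine le_trans ?_ h1
      gcongr
    have h5 : (6000 * t / (N * q)) ^ t * (((N : ℝ) / (2 * t)) ^ t *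
        (q ^ t * (1 / 3000 : ℝ) ^ t)) = 1 := by
      rw [← mul_pow, ← mul_pow, ← mul_pow]
      have : 6000 * t / (N * q) * ((N : ℝ) / (2 * t) * (q * (1 / 3000))) = 1 := by
        field_simp
        norm_num
      rw [this, one_pow]
    have h6 := mul_le_mul_of_nonneg_left h4 hp0
    nlinarith

end binom

theorem star_emb {W : Type*} [DecidableEq W] {n : ℕ} (q : ℝ) (hq0 : 0 < q) (hq1 : q ≤ 1 / 2)
    (C : Finset W) (D : W → Finset W) (hD : ∀ u, u ∉ C → D u = ∅)
    (hdisj : ∀ a a', ∀ v ∈ D a, v ∈ D a' → a = a') (hCL : ∀ a, ∀ v ∈ D a, v ∉ C)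
    (h N : ℕ) (hh : h < n) (hN0 : 0 < N) (hN : N + (C.biUnion D).card ≤ h)
    (hN2 : ∀ a, 2 * (D a).card ≤ N)
    (hV : 2 * ∑ a ∈ C, (2 + (6000 * (D a).card / (N * q)) ^ (D a).card) ≤ (n : ℝ) - h) :
    1 / 2 ≤ prob (wt q) (Emb (n := n) D (C ∪ C.biUnion D)) := by
  classical
  let cost : W → ℝ := fun a => 2 + (6000 * (D a).card / (N * q)) ^ (D a).card
  have hcost : ∀ a, 0 ≤ cost a := fun a => by positivity
  refine scan_emb q hq0.le (by linarith) D _ (fun u hu => hD u fun h => hu (mem_union_left _ h))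
    h hh (fun y E φ => Set.InjOn φ E ∧ (∀ x ∈ E, (φ x : ℕ) < y) ∧
      (∀ x ∈ E, x ∉ C → x ∈ C.biUnion D) ∧ (∀ x ∈ E, x ∈ C → h ≤ φ x) ∧
      ∀ a ∈ C, ∀ v ∈ D a, (v ∈ E ↔ a ∈ E)) ?_ (fun _ _ _ h => h.1)
    (fun E => ∑ a ∈ C \ E, cost a) (fun E => sum_nonneg fun a _ => hcost a) ?_
    (fun _ => ⟨0, by omega⟩) ⟨by simp, by simp, by simp, by simp, by simp⟩ ?_
  · rintro y E φ ⟨h1, h2, h3⟩
    exact ⟨h1, fun x hx => (h2 x hx).trans (Nat.lt_succ_self y), h3⟩
  · rintro y E φ hy ⟨h1, h2, h3, h4, h5⟩ hUE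
    have hex : ∃ a ∈ C, a ∉ E := by
      by_contra hcon
      push Not at hcon
      apply hUE
      intro x hx
      rcases mem_union.1 hx with hx | hx
      · exact hcon x hx
      · obtain ⟨a, ha, hxa⟩ := mem_biUnion.1 hx
        exact (h5 a ha x hxa).2 (hcon a ha)
    obtain ⟨a, haC, haE⟩ := hex
    set F0 : Finset (Fin n) := Iio (⟨h, hh⟩ : Fin n) \ (E \ C).image φ with hF0
    have hF0c : N ≤ F0.card := by
      have g1 : ((E \ C).image φ).card ≤ (C.biUnion D).card :=
        card_image_le.trans (card_le_card fun x hx =>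
          h3 x (mem_sdiff.1 hx).1 (mem_sdiff.1 hx).2)
      have g2 := le_card_sdiff ((E \ C).image φ) (Iio (⟨h, hh⟩ : Fin n))
      rw [Fin.card_Iio] at g2
      simp only at g2
      rw [hF0]
      omega
    obtain ⟨F, hF, hFc⟩ := exists_subset_card_eq hF0c
    refine ⟨cost a, univ.filter (fun Z => (D a).card ≤ (Z ∩ F).card), ?_, ?_⟩
    · have := star_prob q hq0 hq1 F (by omega) (D a).card (by rw [hFc]; exact hN2 a)
      rwa [hFc] at this
    · intro Z hZ
      have g1 : Fintype.card (D a) ≤ Fintype.card (Z ∩ F : Finset (Fin n)) := by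
        rw [Fintype.card_coe, Fintype.card_coe]
        exact (mem_filter.1 hZ).2
      obtain ⟨e⟩ := Function.Embedding.nonempty_of_card_le g1
      let φ' : W → Fin n := fun x => if x = a then y else if hx : x ∈ D a then e ⟨x, hx⟩ else φ x
      have hDa : ∀ v ∈ D a, v ∉ E := fun v hv hvE => haE ((h5 a haC v hv).1 hvE)
      have p1 : φ' a = y := by simp [φ']
      have p2 : ∀ v (hv : v ∈ D a), φ' v = e ⟨v, hv⟩ := by
        intro v hv
        have : v ≠ a := fun h => hCL a v hv (h ▸ haC)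
        simp [φ', this, hv]
      have p3 : ∀ x ∈ E, φ' x = φ x := by
        intro x hx
        have g2 : x ≠ a := fun h => haE (h ▸ hx)
        have g3 : x ∉ D a := fun h => hDa x h hx
        simp [φ', g2, g3]
      have p4 : ∀ v ∈ D a, φ' v ∈ Z ∧ (φ' v : ℕ) < h ∧ φ' v ∉ (E \ C).image φ := by
        intro v hv
        rw [p2 v hv]
        have g2 := mem_inter.1 (e ⟨v, hv⟩).2
        have g3 := mem_sdiff.1 (hF g2.2)
        exact ⟨g2.1, Fin.lt_def.1 (mem_Iio.1 g3.1), g3.2⟩
      have p5 : ∀ v ∈ D a, ∀ x ∈ E, φ' v ≠ φ x := by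
        intro v hv x hx hvx
        by_cases hxC : x ∈ C
        · have g2 := h4 x hx hxC
          have g3 := (p4 v hv).2.1
          rw [hvx] at g3
          omega
        · exact (p4 v hv).2.2 (hvx ▸ mem_image_of_mem φ (mem_sdiff.2 ⟨hx, hxC⟩))
      have hmem : ∀ x, x ∈ insert a (E ∪ D a) ↔ x = a ∨ x ∈ E ∨ x ∈ D a := by simp
      refine ⟨insert a (E ∪ D a), φ', ⟨?_, ?_, ?_, ?_, ?_⟩, ?_,
        fun x hx => (hmem x).2 (Or.inr (Or.inl hx)), p3, ?_⟩
      · intro x hx x' hx' hxx
        rcases (hmem x).1 hx with g1 | g1 | g1 <;> rcases (hmem x').1 hx' with g2 | g2 | g2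
        · rw [g1, g2]
        · rw [g1, p1, p3 _ g2] at hxx
          have := h2 _ g2
          rw [← hxx] at this
          exact absurd this (lt_irrefl _)
        · rw [g1, p1] at hxx
          have := (p4 _ g2).2.1
          rw [← hxx] at this
          omega
        · rw [g2, p1, p3 _ g1] at hxx
          have := h2 _ g1
          rw [hxx] at this
          exact absurd this (lt_irrefl _)
        · rw [p3 _ g1, p3 _ g2] at hxx
          exact h1 g1 g2 hxx
        · rw [p3 _ g1] at hxx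
          exact absurd hxx.symm (p5 _ g2 _ g1)
        · rw [g2, p1] at hxx
          have := (p4 _ g1).2.1
          rw [hxx] at this
          omega
        · rw [p3 _ g2] at hxx
          exact absurd hxx (p5 _ g1 _ g2)
        · rw [p2 _ g1, p2 _ g2] at hxx
          exact congrArg Subtype.val (e.injective (Subtype.ext hxx))
      · intro x hx
        rcases (hmem x).1 hx with g1 | g1 | g1
        · rw [g1, p1]; exact Nat.lt_succ_self _
        · rw [p3 _ g1]; exact (h2 x g1).trans (Nat.lt_succ_self _)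
        · have := (p4 _ g1).2.1
          omega
      · intro x hx hxC
        rcases (hmem x).1 hx with g1 | g1 | g1
        · exact absurd (g1 ▸ haC) hxC
        · exact h3 x g1 hxC
        · exact mem_biUnion.2 ⟨a, haC, g1⟩
      · intro x hx hxC
        rcases (hmem x).1 hx with g1 | g1 | g1
        · rw [g1, p1]; exact hy
        · rw [p3 _ g1]; exact h4 x g1 hxC
        · exact absurd hxC (hCL a x g1)
      · intro a' ha' v hv
        rw [hmem, hmem]
        constructor
        · rintro (g1 | g1 | g1)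
          · exact absurd (g1 ▸ haC) (hCL a' v hv)
          · exact Or.inr (Or.inl ((h5 a' ha' v hv).1 g1))
          · exact Or.inl (hdisj a' a v hv g1)
        · rintro (g1 | g1 | g1)
          · exact Or.inr (Or.inr (g1 ▸ hv))
          · exact Or.inr (Or.inl ((h5 a' ha' v hv).2 g1))
          · exact absurd ha' (hCL a a' g1)
      · have g1 : C \ insert a (E ∪ D a) = (C \ E).erase a := by
          ext x
          simp only [mem_sdiff, hmem, mem_erase]
          constructor
          · tauto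
          · rintro ⟨b1, b2, b3⟩
            refine ⟨b2, ?_⟩
            rintro (g1 | g1 | g1)
            · exact b1 g1
            · exact b3 g1
            · exact hCL a x g1 b2
        rw [g1, ← add_sum_erase (C \ E) cost (mem_sdiff.2 ⟨haC, haE⟩)]
        linarith
      · intro u hu huE v hv
        rcases (hmem u).1 hu with g1 | g1 | g1
        · subst g1
          refine ⟨p1, (hmem v).2 (Or.inr (Or.inr hv)), ?_, (p4 v hv).1⟩
          have := (p4 v hv).2.1
          show (φ' v : ℕ) < y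
          omega
        · exact absurd g1 huE
        · rw [hD u (hCL a u g1)] at hv
          simp at hv
  · simpa [cost] using hV

end Crest.Agent.R52
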